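import Mathlib

/-!
Concrete binary-search predicates for S0066 (helper29), plan 322 of helper15.

`res h b x z`: `b ≤ h`: `x|b ≤ z|b` (top `b` bits of `h`-bit numbers);
`h < b ≤ 2h`: `x|k < z|k` with `k = 2h + 1 - b`; `b > 2h`: false.
`tb h s x`: bit of index `s` (`s < h`, index 0 = most significant), bit of index `2h - s`
(`h < s ≤ 2h`), `0` otherwise.
-/

set_option autoImplicit false

namespace Crest.Agent.S0066Bits

/-- see module doc -/
def res (h b x z : ℕ) : Bool :=
  if b ≤ h then decide (x / 2 ^ (h - b) ≤ z / 2 ^ (h - b))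
  else if b ≤ 2 * h then decide (x / 2 ^ (b - h - 1) < z / 2 ^ (b - h - 1))
  else false

/-- see module doc -/
def tb (h s x : ℕ) : ℕ :=
  if s < h then (x / 2 ^ (h - 1 - s)) % 2
  else if h < s ∧ s ≤ 2 * h then (x / 2 ^ (s - h - 1)) % 2
  else 0

theorem tb_lt_two (h s x : ℕ) : tb h s x < 2 := by
  unfold tb
  split_ifs <;> omega

theorem res_anti_x {h b x x' z : ℕ} (hx : x ≤ x') (H : res h b x' z = true) :
    res h b x z = true := by
  unfold res at H ⊢
  split_ifs at H ⊢ with h1 h2
  · simp only [decide_eq_true_eq] at H ⊢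
    exact (Nat.div_le_div_right hx).trans H
  · simp only [decide_eq_true_eq] at H ⊢
    exact lt_of_le_of_lt (Nat.div_le_div_right hx) H

theorem res_mono_z {h b x z z' : ℕ} (hz : z ≤ z') (H : res h b x z = true) :
    res h b x z' = true := by
  unfold res at H ⊢
  split_ifs at H ⊢ with h1 h2
  · simp only [decide_eq_true_eq] at H ⊢
    exact H.trans (Nat.div_le_div_right hz)
  · simp only [decide_eq_true_eq] at H ⊢
    exact lt_of_lt_of_le H (Nat.div_le_div_right hz)

theorem res_zero {h x z : ℕ} (hx : x < 2 ^ h) (hz : z < 2 ^ h) : res h 0 x z = true := by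
  unfold res
  simp only [Nat.zero_le, ↓reduceIte, Nat.sub_zero, decide_eq_true_eq]
  rw [Nat.div_eq_of_lt hx, Nat.div_eq_of_lt hz]

theorem res_big {h b x z : ℕ} (hb : 2 * h < b) : res h b x z = false := by
  unfold res
  rw [if_neg (by omega), if_neg (by omega)]

theorem res_diag_of_le {h b x : ℕ} (hb : b ≤ h) : res h b x x = true := by
  unfold res
  simp [hb]

theorem res_diag_of_lt {h b x : ℕ} (hb : h < b) : res h b x x = false := by
  unfold res
  rw [if_neg (by omega)]
  split_ifs <;> simp

/-- The bit lemma: the only level where the comparison can switch from true to false along a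
monotone column path and a matching bit is `s = h`, with all the indices equal to `x`. -/
theorem bit_lemma {h s x z z' : ℕ} (hh : 1 ≤ h)
    (hx : x < 2 ^ h) (hz : z < 2 ^ h)
    (h1 : res h s x z' = true) (hzz : z' ≤ z) (h2 : res h (s + 1) x z = false)
    (h3 : tb h s z = tb h s x) : s = h ∧ z' = x ∧ z = x := by
  rcases lt_trichotomy s h with hs | hs | hs
  · -- s < h
    exfalso
    obtain ⟨p, hp⟩ : ∃ p, p = 2 ^ (h - 1 - s) := ⟨_, rfl⟩
    have hp2 : 2 ^ (h - s) = p * 2 := by
      rw [hp, ← pow_succ]; congr 1; omega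
    have hp3 : 2 ^ (h - (s + 1)) = p := by
      rw [hp]; congr 1; omega
    unfold res at h1 h2
    rw [if_pos hs.le] at h1
    rw [if_pos (by omega)] at h2
    rw [hp2] at h1
    rw [hp3] at h2
    simp only [decide_eq_true_eq, decide_eq_false_iff_not, not_le] at h1 h2
    unfold tb at h3
    rw [if_pos hs, if_pos hs, ← hp] at h3
    have hz'z : z' / (p * 2) ≤ z / (p * 2) := Nat.div_le_div_right hzz
    have e1 : z / (p * 2) = z / p / 2 := (Nat.div_div_eq_div_mul z p 2).symm
    have e2 : x / (p * 2) = x / p / 2 := (Nat.div_div_eq_div_mul x p 2).symm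
    omega
  · -- s = h
    subst hs
    unfold res at h1 h2
    rw [if_pos le_rfl] at h1
    rw [if_neg (by omega), if_pos (by omega)] at h2
    simp only [Nat.sub_self, pow_zero, Nat.div_one, decide_eq_true_eq, decide_eq_false_iff_not,
      not_lt] at h1 h2
    have : s + 1 - s - 1 = 0 := by omega
    rw [this] at h2
    simp only [pow_zero, Nat.div_one] at h2
    refine ⟨rfl, by omega, by omega⟩
  · -- s > h
    exfalso
    unfold res at h1 h2
    rw [if_neg (by omega)] at h1 h2
    by_cases hs2 : s ≤ 2 * h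
    · rw [if_pos hs2] at h1
      simp only [decide_eq_true_eq] at h1
      obtain ⟨q, hq⟩ : ∃ q, q = 2 ^ (s - h - 1) := ⟨_, rfl⟩
      rw [← hq] at h1
      have hzq : z' / q ≤ z / q := Nat.div_le_div_right hzz
      unfold tb at h3
      simp only [if_neg (show ¬ s < h by omega), if_pos (show h < s ∧ s ≤ 2 * h from ⟨hs, hs2⟩),
        ← hq] at h3
      have hq2 : 2 ^ (s + 1 - h - 1) = q * 2 := by
        rw [hq, ← pow_succ]; congr 1; omega
      have e1 : z / (q * 2) = z / q / 2 := (Nat.div_div_eq_div_mul z q 2).symm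
      have e2 : x / (q * 2) = x / q / 2 := (Nat.div_div_eq_div_mul x q 2).symm
      by_cases hs3 : s + 1 ≤ 2 * h
      · rw [if_pos hs3, hq2] at h2
        simp only [decide_eq_false_iff_not, not_lt] at h2
        omega
      · -- s = 2 h : then `q * 2 = 2 ^ h`
        have hs4 : s = 2 * h := by omega
        have hq3 : q * 2 = 2 ^ h := by
          rw [hq, ← pow_succ]; congr 1; omega
        have e3 : z / (q * 2) = 0 := by rw [hq3]; exact Nat.div_eq_of_lt hz
        have e4 : x / (q * 2) = 0 := by rw [hq3]; exact Nat.div_eq_of_lt hx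
        omega
    · rw [if_neg hs2] at h1
      exact absurd h1 (by simp)

end Crest.Agent.S0066Bits
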