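import Crest.Agent.S0066Gen

/-!
Far side of helper15's design for S0066 (helper20): the configurations `(x,u,v)`, the cell sets,
their degree bound, and "a clean configuration gives an ordered copy in `B`", all stated against
an abstract interface (`FarData`) so that they do not depend on the layout.
-/

set_option autoImplicit false

namespace Crest.Agent.S0066Far

open Crest.CombinatoricsR.OrderedMatrix
open Finset

/-- The 4 × 4 core, rows `y1,y2,io,i`, columns `ka,ga,j,jp`. -/
def H0 : Fin 4 → Fin 4 → Bool :=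
  ![![false, false, true, true],
    ![true, true, false, false],
    ![true, true, false, true],
    ![false, true, true, false]]

/-- The 66 × 66 pattern: the core in the top left corner, zeros elsewhere. -/
def H : Fin 66 → Fin 66 → Bool :=
  fun i j => if h : i.1 < 4 ∧ j.1 < 4 then H0 ⟨i.1, h.1⟩ ⟨j.1, h.2⟩ else false

/-- Extend four core lines by 62 further lines. -/
def extend {α : Type*} (core : Fin 4 → α) (Z : Fin 62 → α) : Fin 66 → α :=
  fun i => if h : i.1 < 4 then core ⟨i.1, h⟩ else Z ⟨i.1 - 4, by have := i.2; omega⟩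

theorem extend_strictMono {α : Type*} [LinearOrder α] (core : Fin 4 → α) (Z : Fin 62 → α)
    (hcore : StrictMono core) (hZ : StrictMono Z) (hlink : core 3 < Z 0) :
    StrictMono (extend core Z) := by
  intro i j hij
  have hij' : i.1 < j.1 := hij
  unfold extend
  by_cases hi : i.1 < 4
  · by_cases hj : j.1 < 4
    · rw [dif_pos hi, dif_pos hj]
      exact hcore (show (⟨i.1, hi⟩ : Fin 4) < ⟨j.1, hj⟩ from hij')
    · rw [dif_pos hi, dif_neg hj]
      have h1 : core ⟨i.1, hi⟩ ≤ core 3 := by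
        apply hcore.monotone
        simp only [Fin.le_def]
        show i.1 ≤ 3
        omega
      have h2 : Z 0 ≤ Z ⟨j.1 - 4, by have := j.2; omega⟩ := by
        apply hZ.monotone
        simp
      exact lt_of_le_of_lt h1 (lt_of_lt_of_le hlink h2)
  · have hj : ¬ j.1 < 4 := by omega
    rw [dif_neg hi, dif_neg hj]
    apply hZ
    simp only [Fin.lt_def]
    omega

/-- Copy from a core and zero lines. -/
theorem copy_of_core {Row Col : Type*} [LinearOrder Row] [LinearOrder Col] (B : Row → Col → Bool)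
    (coreR : Fin 4 → Row) (coreC : Fin 4 → Col) (ZR : Fin 62 → Row) (ZC : Fin 62 → Col)
    (hcR : StrictMono coreR) (hcC : StrictMono coreC) (hZR : StrictMono ZR) (hZC : StrictMono ZC)
    (hlR : coreR 3 < ZR 0) (hlC : coreC 3 < ZC 0)
    (hcore : ∀ i j, B (coreR i) (coreC j) = H0 i j)
    (hzr : ∀ i j, B (ZR i) (extend coreC ZC j) = false)
    (hzc : ∀ i j, B (extend coreR ZR i) (ZC j) = false) :
    ∃ (rows : Fin 66 → Row) (cols : Fin 66 → Col), StrictMono rows ∧ StrictMono cols ∧
      ∀ i j, B (rows i) (cols j) = H i j := by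
  refine ⟨extend coreR ZR, extend coreC ZC,
    extend_strictMono _ _ hcR hZR hlR, extend_strictMono _ _ hcC hZC hlC, ?_⟩
  intro i j
  unfold H
  by_cases hi : i.1 < 4
  · by_cases hj : j.1 < 4
    · rw [dif_pos ⟨hi, hj⟩]
      have h1 : extend coreR ZR i = coreR ⟨i.1, hi⟩ := by simp [extend, hi]
      have h2 : extend coreC ZC j = coreC ⟨j.1, hj⟩ := by simp [extend, hj]
      rw [h1, h2]
      exact hcore _ _
    · rw [dif_neg (by tauto)]
      have h2 : extend coreC ZC j = ZC ⟨j.1 - 4, by have := j.2; omega⟩ := by simp [extend, hj]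
      rw [h2]
      exact hzc _ _
  · rw [dif_neg (by tauto)]
    have h1 : extend coreR ZR i = ZR ⟨i.1 - 4, by have := i.2; omega⟩ := by simp [extend, hi]
    rw [h1]
    exact hzr _ _

/-- The tag of a line: `inl u` for a line of the free parameter (`u` for rows, `v` for columns),
`inr x` for a line carrying the chain parameter `x`. -/
abbrev Tag (N : ℕ) := Fin N ⊕ Fin N

section Cells
variable {N : ℕ} {Row Col : Type*} (rowTag : Row → Option (Tag N)) (colTag : Col → Option (Tag N))

/-- A row belongs to the configuration. -/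
def RowOK (g : Fin N × Fin N × Fin N) (r : Row) : Prop :=
  rowTag r = some (Sum.inl g.2.1) ∨ rowTag r = some (Sum.inr g.1)

/-- A column belongs to the configuration. -/
def ColOK (g : Fin N × Fin N × Fin N) (c : Col) : Prop :=
  colTag c = some (Sum.inl g.2.2) ∨ colTag c = some (Sum.inr g.1)

open Classical in
/-- The cells of a configuration `g = (x,u,v)`: the row and the column belong to `g`, and they do
not both carry `x`. -/
noncomputable def cells [Fintype Row] [Fintype Col] (g : Fin N × Fin N × Fin N) : Finset (Row × Col) :=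
  univ.filter fun rc => RowOK rowTag g rc.1 ∧ ColOK colTag g rc.2 ∧
    ¬ (rowTag rc.1 = some (Sum.inr g.1) ∧ colTag rc.2 = some (Sum.inr g.1))

theorem card_le_of_injOn {α : Type*} [DecidableEq α] (S : Finset α) (f : α → Fin N)
    (hf : Set.InjOn f S) : S.card ≤ N := by
  have := Finset.card_le_card_of_injOn f (t := (univ : Finset (Fin N))) (fun _ _ => mem_univ _) hf
  simpa using this

open Classical in
/-- Each cell lies in at most `N` configurations. -/
theorem cells_degree [Fintype Row] [Fintype Col] (c : Row × Col) :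
    (univ.filter fun g : Fin N × Fin N × Fin N => c ∈ cells rowTag colTag g).card ≤ N := by
  rcases c with ⟨r, c⟩
  have key : ∀ g : Fin N × Fin N × Fin N, (r, c) ∈ cells rowTag colTag g ↔
      (RowOK rowTag g r ∧ ColOK colTag g c ∧
        ¬ (rowTag r = some (Sum.inr g.1) ∧ colTag c = some (Sum.inr g.1))) := by
    intro g; simp [cells]
  rcases hr : rowTag r with _ | (u0 | x0)
  · -- no tag: no configuration
    have : (univ.filter fun g : Fin N × Fin N × Fin N => (r, c) ∈ cells rowTag colTag g) = ∅ := by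
      apply Finset.filter_eq_empty_iff.2
      intro g _ hg
      have := (key g).1 hg
      simp [RowOK, hr] at this
    rw [this]; simp
  · rcases hc : colTag c with _ | (v0 | z0)
    · have : (univ.filter fun g : Fin N × Fin N × Fin N => (r, c) ∈ cells rowTag colTag g) = ∅ := by
        apply Finset.filter_eq_empty_iff.2
        intro g _ hg
        have := (key g).1 hg
        simp [ColOK, hc] at this
      rw [this]; simp
    · -- `u`, `v` fixed
      apply card_le_of_injOn _ (fun g => g.1)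
      intro g hg g' hg' hgg
      have h1 := (key g).1 (Finset.mem_filter.1 hg).2
      have h2 := (key g').1 (Finset.mem_filter.1 hg').2
      simp only [RowOK, ColOK, hr, hc, Option.some.injEq, Sum.inl.injEq, reduceCtorEq, or_false]
        at h1 h2
      obtain ⟨a, b, c'⟩ := g
      obtain ⟨a', b', c''⟩ := g'
      simp only at h1 h2 hgg
      have e1 := h1.1; have e2 := h1.2.1; have e3 := h2.1; have e4 := h2.2.1
      subst e1 e2 e3 e4 hgg
      rfl
    · -- `u`, `x` fixed
      apply card_le_of_injOn _ (fun g => g.2.2)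
      intro g hg g' hg' hgg
      have h1 := (key g).1 (Finset.mem_filter.1 hg).2
      have h2 := (key g').1 (Finset.mem_filter.1 hg').2
      simp only [RowOK, ColOK, hr, hc, Option.some.injEq, Sum.inl.injEq, Sum.inr.injEq,
        reduceCtorEq, or_false, false_or] at h1 h2
      obtain ⟨a, b, c'⟩ := g
      obtain ⟨a', b', c''⟩ := g'
      simp only at h1 h2 hgg
      have e1 := h1.1; have e2 := h1.2.1; have e3 := h2.1; have e4 := h2.2.1
      subst e1 e2 e3 e4 hgg
      rfl
  · rcases hc : colTag c with _ | (v0 | z0)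
    · have : (univ.filter fun g : Fin N × Fin N × Fin N => (r, c) ∈ cells rowTag colTag g) = ∅ := by
        apply Finset.filter_eq_empty_iff.2
        intro g _ hg
        have := (key g).1 hg
        simp [ColOK, hc] at this
      rw [this]; simp
    · -- `x`, `v` fixed
      apply card_le_of_injOn _ (fun g => g.2.1)
      intro g hg g' hg' hgg
      have h1 := (key g).1 (Finset.mem_filter.1 hg).2
      have h2 := (key g').1 (Finset.mem_filter.1 hg').2
      simp only [RowOK, ColOK, hr, hc, Option.some.injEq, Sum.inl.injEq, Sum.inr.injEq,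
        reduceCtorEq, or_false, false_or] at h1 h2
      obtain ⟨a, b, c'⟩ := g
      obtain ⟨a', b', c''⟩ := g'
      simp only at h1 h2 hgg
      have e1 := h1.1; have e2 := h1.2.1; have e3 := h2.1; have e4 := h2.2.1
      subst e1 e2 e3 e4 hgg
      rfl
    · -- both carry `x`: never in the cells
      have : (univ.filter fun g : Fin N × Fin N × Fin N => (r, c) ∈ cells rowTag colTag g) = ∅ := by
        apply Finset.filter_eq_empty_iff.2
        intro g _ hg
        have h1 := (key g).1 hg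
        simp only [RowOK, ColOK, hr, hc, Option.some.injEq, Sum.inr.injEq,
          reduceCtorEq, false_or] at h1
        obtain ⟨a, b, c'⟩ := g
        simp only at h1
        have e1 := h1.1; have e2 := h1.2.1
        exact h1.2.2 ⟨e1, e2⟩
      rw [this]; simp

end Cells

/-- The chain goes from `1` to `0`, so it has a `1,0` step. -/
theorem chain_step (a a' : ℕ → Bool) (m : ℕ) (h0 : a 0 = true) (hm : a' m = false) :
    (∃ s, s ≤ m ∧ a s = true ∧ a' s = false) ∨ (∃ b, b < m ∧ a' b = true ∧ a (b + 1) = false) := by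
  by_contra hcon
  push Not at hcon
  obtain ⟨h1, h2⟩ := hcon
  have key : ∀ s, s ≤ m → a s = true := by
    intro s
    induction s with
    | zero => intro _; exact h0
    | succ k ih =>
      intro hk
      have hk1 : a k = true := ih (by omega)
      have hk2 : a' k ≠ false := h1 k (by omega) hk1
      have hk3 : a' k = true := by simpa using hk2
      have := h2 k (by omega) hk3
      simpa using this
  exact h1 m le_rfl (key m le_rfl) hm

/-- The abstract data of the far side. -/
structure FarData (N m : ℕ) (Row Col : Type*) [LinearOrder Row] [LinearOrder Col]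
    (A : Row → Col → Bool) (tb : ℕ → Fin N → Bool) where
  Y1 : Fin N → Row
  Y2 : Fin N → Row
  E : ℕ → Bool → Fin N → Row
  R : Fin N → ℕ → Row
  ZR : Fin 62 → Fin N → Row
  K : ℕ → Fin N → Col
  G : ℕ → Fin N → Col
  W : ℕ → Fin N → Col
  Q : ℕ → Bool → Fin N → Col
  /-- the chain column `C_b` (`b = 0`: `V v`, `1 ≤ b ≤ m`: `C_b(x)`, `b = m+1`: `X v`). -/
  C : Fin N → Fin N → ℕ → Col
  ZC : Fin 62 → Fin N → Col
  rowTag : Row → Option (Tag N)
  colTag : Col → Option (Tag N)
  -- tags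
  tag_Y1 : ∀ u, rowTag (Y1 u) = some (Sum.inl u)
  tag_Y2 : ∀ u, rowTag (Y2 u) = some (Sum.inl u)
  tag_E : ∀ s b u, s ≤ m → rowTag (E s b u) = some (Sum.inl u)
  tag_R : ∀ x s, s ≤ m → rowTag (R x s) = some (Sum.inr x)
  tag_ZR : ∀ i u, rowTag (ZR i u) = some (Sum.inl u)
  tag_K : ∀ b v, 1 ≤ b → b ≤ m + 1 → colTag (K b v) = some (Sum.inl v)
  tag_G : ∀ b v, 1 ≤ b → b ≤ m → colTag (G b v) = some (Sum.inl v)
  tag_W : ∀ b v, 1 ≤ b → b ≤ m → colTag (W b v) = some (Sum.inl v)
  tag_Q : ∀ s b v, s ≤ m → colTag (Q s b v) = some (Sum.inl v)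
  tag_C0 : ∀ x v, colTag (C x v 0) = some (Sum.inl v)
  tag_Cm : ∀ x v, colTag (C x v (m + 1)) = some (Sum.inl v)
  tag_C : ∀ x v b, 1 ≤ b → b ≤ m → colTag (C x v b) = some (Sum.inr x)
  tag_ZC : ∀ j v, colTag (ZC j v) = some (Sum.inl v)
  -- order of the rows
  lt_Y1Y2 : ∀ u, Y1 u < Y2 u
  lt_Y2E : ∀ s b u, s ≤ m → Y2 u < E s b u
  lt_ER : ∀ x s b u, s ≤ m → E s b u < R x s
  lt_Y2R : ∀ x s u, s ≤ m → Y2 u < R x s
  lt_RR : ∀ x s, s < m → R x (s + 1) < R x s
  lt_RZ : ∀ x s u, s ≤ m → R x s < ZR 0 u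
  mono_ZR : ∀ u, StrictMono fun i => ZR i u
  -- order of the columns
  lt_KQ : ∀ s b v, s ≤ m → K (s + 1) v < Q s b v
  lt_QC : ∀ x s b v, s ≤ m → Q s b v < C x v s
  lt_CC : ∀ x s v, s ≤ m → C x v s < C x v (s + 1)
  lt_CZ : ∀ x s v, s ≤ m + 1 → C x v s < ZC 0 v
  lt_KG : ∀ b v, 1 ≤ b → b ≤ m → K b v < G b v
  lt_GC : ∀ x b v, 1 ≤ b → b ≤ m → G b v < C x v b
  lt_CW : ∀ x b v, 1 ≤ b → b ≤ m → C x v b < W b v
  lt_WZ : ∀ b v, 1 ≤ b → b ≤ m → W b v < ZC 0 v
  mono_ZC : ∀ v, StrictMono fun j => ZC j v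
  -- zero lines
  zero_ZR : ∀ i u c, A (ZR i u) c = false
  zero_ZC : ∀ r j v, A r (ZC j v) = false
  -- the two ends of the chain
  val_start : ∀ x v, A (R x 0) (C x v 0) = true
  val_end : ∀ x v, A (R x m) (C x v (m + 1)) = false
  -- values for a row step (`s ≤ m`, `b = tb s x`)
  y1_K : ∀ u b v, 1 ≤ b → b ≤ m + 1 → A (Y1 u) (K b v) = false
  y1_G : ∀ u b v, 1 ≤ b → b ≤ m → A (Y1 u) (G b v) = false
  y1_Q : ∀ u s b v, s ≤ m → A (Y1 u) (Q s b v) = false
  y1_C : ∀ u x v b, b ≤ m + 1 → A (Y1 u) (C x v b) = true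
  y1_W : ∀ u b v, 1 ≤ b → b ≤ m → A (Y1 u) (W b v) = true
  y2_K : ∀ u b v, 1 ≤ b → b ≤ m + 1 → A (Y2 u) (K b v) = true
  y2_G : ∀ u b v, 1 ≤ b → b ≤ m → A (Y2 u) (G b v) = true
  y2_Q : ∀ u s b v, s ≤ m → A (Y2 u) (Q s b v) = true
  y2_C : ∀ u x v b, b ≤ m + 1 → A (Y2 u) (C x v b) = false
  y2_W : ∀ u b v, 1 ≤ b → b ≤ m → A (Y2 u) (W b v) = false
  e_K : ∀ s b u v, s ≤ m → A (E s b u) (K (s + 1) v) = true
  e_Q : ∀ s b u v, s ≤ m → A (E s b u) (Q s b v) = true
  e_C0 : ∀ s u x v, s ≤ m → A (E s (tb s x) u) (C x v s) = false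
  e_C1 : ∀ s u x v, s ≤ m → A (E s (tb s x) u) (C x v (s + 1)) = true
  r_K0 : ∀ x s v, s ≤ m → A (R x s) (K (s + 1) v) = false
  r_Q : ∀ x s v, s ≤ m → A (R x s) (Q s (tb s x) v) = true
  -- values for a column step (index `b + 1`, `b < m`)
  r_K1 : ∀ x b v, b < m → A (R x (b + 1)) (K (b + 1) v) = true
  r_G1 : ∀ x b v, b < m → A (R x (b + 1)) (G (b + 1) v) = true
  r_W1 : ∀ x b v, b < m → A (R x (b + 1)) (W (b + 1) v) = true
  r_G0 : ∀ x b v, b < m → A (R x b) (G (b + 1) v) = true
  r_W0 : ∀ x b v, b < m → A (R x b) (W (b + 1) v) = false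

namespace FarData
variable {N m : ℕ} {Row Col : Type*} [LinearOrder Row] [LinearOrder Col]
  {A : Row → Col → Bool} {tb : ℕ → Fin N → Bool} (D : FarData N m Row Col A tb)

/-- The cells of the configuration `g = (x,u,v)`. -/
noncomputable def farCells [Fintype Row] [Fintype Col] (g : Fin N × Fin N × Fin N) :
    Finset (Row × Col) :=
  cells D.rowTag D.colTag g

open Classical in
theorem farCells_degree [Fintype Row] [Fintype Col] (c : Row × Col) :
    (univ.filter fun g : Fin N × Fin N × Fin N => c ∈ D.farCells g).card ≤ N := by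
  unfold farCells
  convert cells_degree (N := N) D.rowTag D.colTag c

variable [Fintype Row] [Fintype Col] {B : Row → Col → Bool} {g : Fin N × Fin N × Fin N}

/-- `B` agrees with `A` on a cell of a clean configuration. -/
theorem clean_eq (hB : ∀ c ∈ D.farCells g, B c.1 c.2 = A c.1 c.2) {r : Row} {c : Col}
    (hr : RowOK D.rowTag g r) (hc : ColOK D.colTag g c)
    (hn : ¬ (D.rowTag r = some (Sum.inr g.1) ∧ D.colTag c = some (Sum.inr g.1))) :
    B r c = A r c := by
  classical
  apply hB (r, c)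
  simp only [farCells, cells, mem_filter, mem_univ, true_and]
  exact ⟨hr, hc, hn⟩

/-- Core lines of good tags, with everything else known, give a copy. -/
theorem copy_of_lines (hB : ∀ c ∈ D.farCells g, B c.1 c.2 = A c.1 c.2)
    (coreR : Fin 4 → Row) (coreC : Fin 4 → Col)
    (hcR : StrictMono coreR) (hcC : StrictMono coreC)
    (hlR : coreR 3 < D.ZR 0 g.2.1) (hlC : coreC 3 < D.ZC 0 g.2.2)
    (hR : ∀ i, RowOK D.rowTag g (coreR i)) (hC : ∀ j, ColOK D.colTag g (coreC j))
    (hcore : ∀ i j, B (coreR i) (coreC j) = H0 i j) :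
    ∃ (rows : Fin 66 → Row) (cols : Fin 66 → Col), StrictMono rows ∧ StrictMono cols ∧
      ∀ i j, B (rows i) (cols j) = H i j := by
  have hzr' : ∀ i, RowOK D.rowTag g (D.ZR i g.2.1) := fun i => Or.inl (D.tag_ZR _ _)
  have hzc' : ∀ j, ColOK D.colTag g (D.ZC j g.2.2) := fun j => Or.inl (D.tag_ZC _ _)
  refine copy_of_core B coreR coreC (fun i => D.ZR i g.2.1) (fun j => D.ZC j g.2.2) hcR hcC
    (D.mono_ZR _) (D.mono_ZC _) hlR hlC hcore ?_ ?_
  · intro i j
    have hc : ColOK D.colTag g (extend coreC (fun j => D.ZC j g.2.2) j) := by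
      unfold extend
      split_ifs
      · exact hC _
      · exact hzc' _
    rw [D.clean_eq hB (hzr' i) hc (by simp [D.tag_ZR]), D.zero_ZR]
  · intro i j
    have hr : RowOK D.rowTag g (extend coreR (fun i => D.ZR i g.2.1) i) := by
      unfold extend
      split_ifs
      · exact hR _
      · exact hzr' _
    rw [D.clean_eq hB hr (hzc' j) (by simp [D.tag_ZC]), D.zero_ZC]

/-- A row step of the chain gives a copy. -/
theorem copy_row_step (hB : ∀ c ∈ D.farCells g, B c.1 c.2 = A c.1 c.2) (s : ℕ) (hs : s ≤ m)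
    (h1 : B (D.R g.1 s) (D.C g.1 g.2.2 s) = true)
    (h0 : B (D.R g.1 s) (D.C g.1 g.2.2 (s + 1)) = false) :
    ∃ (rows : Fin 66 → Row) (cols : Fin 66 → Col), StrictMono rows ∧ StrictMono cols ∧
      ∀ i j, B (rows i) (cols j) = H i j := by
  obtain ⟨x, u, v⟩ := g
  simp only at h1 h0
  have hCok : ∀ b, b ≤ m + 1 → ColOK D.colTag (x, u, v) (D.C x v b) := by
    intro b hb
    by_cases hb0 : b = 0
    · subst hb0; exact Or.inl (D.tag_C0 _ _)
    · by_cases hb1 : b = m + 1
      · subst hb1; exact Or.inl (D.tag_Cm _ _)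
      · exact Or.inr (D.tag_C _ _ _ (by omega) (by omega))
  have hYE : ∀ r c, D.rowTag r = some (Sum.inl u) → ColOK D.colTag (x, u, v) c → B r c = A r c := by
    intro r c hr hc
    exact D.clean_eq hB (Or.inl hr) hc (by simp [hr])
  have hRv : ∀ c, D.colTag c = some (Sum.inl v) → B (D.R x s) c = A (D.R x s) c := by
    intro c hc
    exact D.clean_eq hB (Or.inr (D.tag_R _ _ hs)) (Or.inl hc) (by simp [hc])
  have hKok : ColOK D.colTag (x, u, v) (D.K (s + 1) v) := Or.inl (D.tag_K _ _ (by omega) (by omega))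
  have hQok : ColOK D.colTag (x, u, v) (D.Q s (tb s x) v) := Or.inl (D.tag_Q _ _ _ hs)
  refine D.copy_of_lines (g := (x, u, v)) hB
    ![D.Y1 u, D.Y2 u, D.E s (tb s x) u, D.R x s]
    ![D.K (s + 1) v, D.Q s (tb s x) v, D.C x v s, D.C x v (s + 1)] ?_ ?_ ?_ ?_ ?_ ?_ ?_
  · rw [Fin.strictMono_iff_lt_succ]
    intro i
    fin_cases i
    · exact D.lt_Y1Y2 u
    · exact D.lt_Y2E _ _ _ hs
    · exact D.lt_ER _ _ _ _ hs
  · rw [Fin.strictMono_iff_lt_succ]
    intro i
    fin_cases i
    · exact D.lt_KQ _ _ _ hs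
    · exact D.lt_QC _ _ _ _ hs
    · exact D.lt_CC _ _ _ hs
  · exact D.lt_RZ _ _ _ hs
  · exact D.lt_CZ _ _ _ (by omega)
  · intro i
    fin_cases i
    · exact Or.inl (D.tag_Y1 _)
    · exact Or.inl (D.tag_Y2 _)
    · exact Or.inl (D.tag_E _ _ _ hs)
    · exact Or.inr (D.tag_R _ _ hs)
  · intro j
    fin_cases j
    · exact hKok
    · exact hQok
    · exact hCok _ (by omega)
    · exact hCok _ (by omega)
  · have hy1 := D.tag_Y1 u
    have hy2 := D.tag_Y2 u
    have he := D.tag_E s (tb s x) u hs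
    have hK := D.tag_K (s + 1) v (by omega) (by omega)
    have hQ := D.tag_Q s (tb s x) v hs
    intro i j
    fin_cases i <;> fin_cases j
    · exact (hYE _ _ hy1 hKok).trans (D.y1_K _ _ _ (by omega) (by omega))
    · exact (hYE _ _ hy1 hQok).trans (D.y1_Q _ _ _ _ hs)
    · exact (hYE _ _ hy1 (hCok _ (by omega))).trans (D.y1_C _ _ _ _ (by omega))
    · exact (hYE _ _ hy1 (hCok _ (by omega))).trans (D.y1_C _ _ _ _ (by omega))
    · exact (hYE _ _ hy2 hKok).trans (D.y2_K _ _ _ (by omega) (by omega))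
    · exact (hYE _ _ hy2 hQok).trans (D.y2_Q _ _ _ _ hs)
    · exact (hYE _ _ hy2 (hCok _ (by omega))).trans (D.y2_C _ _ _ _ (by omega))
    · exact (hYE _ _ hy2 (hCok _ (by omega))).trans (D.y2_C _ _ _ _ (by omega))
    · exact (hYE _ _ he hKok).trans (D.e_K _ _ _ _ hs)
    · exact (hYE _ _ he hQok).trans (D.e_Q _ _ _ _ hs)
    · exact (hYE _ _ he (hCok _ (by omega))).trans (D.e_C0 _ _ _ _ hs)
    · exact (hYE _ _ he (hCok _ (by omega))).trans (D.e_C1 _ _ _ _ hs)
    · exact (hRv _ hK).trans (D.r_K0 _ _ _ hs)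
    · exact (hRv _ hQ).trans (D.r_Q _ _ _ hs)
    · exact h1
    · exact h0

/-- A column step of the chain gives a copy. -/
theorem copy_col_step (hB : ∀ c ∈ D.farCells g, B c.1 c.2 = A c.1 c.2) (b : ℕ) (hb : b < m)
    (h1 : B (D.R g.1 b) (D.C g.1 g.2.2 (b + 1)) = true)
    (h0 : B (D.R g.1 (b + 1)) (D.C g.1 g.2.2 (b + 1)) = false) :
    ∃ (rows : Fin 66 → Row) (cols : Fin 66 → Col), StrictMono rows ∧ StrictMono cols ∧
      ∀ i j, B (rows i) (cols j) = H i j := by
  obtain ⟨x, u, v⟩ := g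
  simp only at h1 h0
  have hCok : ColOK D.colTag (x, u, v) (D.C x v (b + 1)) :=
    Or.inr (D.tag_C _ _ _ (by omega) (by omega))
  have hYE : ∀ r c, D.rowTag r = some (Sum.inl u) → ColOK D.colTag (x, u, v) c → B r c = A r c := by
    intro r c hr hc
    exact D.clean_eq hB (Or.inl hr) hc (by simp [hr])
  have hRv : ∀ s c, s ≤ m → D.colTag c = some (Sum.inl v) → B (D.R x s) c = A (D.R x s) c := by
    intro s c hs hc
    exact D.clean_eq hB (Or.inr (D.tag_R _ _ hs)) (Or.inl hc) (by simp [hc])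
  have hK := D.tag_K (b + 1) v (by omega) (by omega)
  have hG := D.tag_G (b + 1) v (by omega) (by omega)
  have hW := D.tag_W (b + 1) v (by omega) (by omega)
  have hKok : ColOK D.colTag (x, u, v) (D.K (b + 1) v) := Or.inl hK
  have hGok : ColOK D.colTag (x, u, v) (D.G (b + 1) v) := Or.inl hG
  have hWok : ColOK D.colTag (x, u, v) (D.W (b + 1) v) := Or.inl hW
  refine D.copy_of_lines (g := (x, u, v)) hB
    ![D.Y1 u, D.Y2 u, D.R x (b + 1), D.R x b]
    ![D.K (b + 1) v, D.G (b + 1) v, D.C x v (b + 1), D.W (b + 1) v] ?_ ?_ ?_ ?_ ?_ ?_ ?_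
  · rw [Fin.strictMono_iff_lt_succ]
    intro i
    fin_cases i
    · exact D.lt_Y1Y2 u
    · exact D.lt_Y2R _ _ _ (by omega)
    · exact D.lt_RR _ _ hb
  · rw [Fin.strictMono_iff_lt_succ]
    intro i
    fin_cases i
    · exact D.lt_KG _ _ (by omega) (by omega)
    · exact D.lt_GC _ _ _ (by omega) (by omega)
    · exact D.lt_CW _ _ _ (by omega) (by omega)
  · exact D.lt_RZ _ _ _ (by omega)
  · exact D.lt_WZ _ _ (by omega) (by omega)
  · intro i
    fin_cases i
    · exact Or.inl (D.tag_Y1 _)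
    · exact Or.inl (D.tag_Y2 _)
    · exact Or.inr (D.tag_R _ _ (by omega))
    · exact Or.inr (D.tag_R _ _ (by omega))
  · intro j
    fin_cases j
    · exact hKok
    · exact hGok
    · exact hCok
    · exact hWok
  · have hy1 := D.tag_Y1 u
    have hy2 := D.tag_Y2 u
    intro i j
    fin_cases i <;> fin_cases j
    · exact (hYE _ _ hy1 hKok).trans (D.y1_K _ _ _ (by omega) (by omega))
    · exact (hYE _ _ hy1 hGok).trans (D.y1_G _ _ _ (by omega) (by omega))
    · exact (hYE _ _ hy1 hCok).trans (D.y1_C _ _ _ _ (by omega))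
    · exact (hYE _ _ hy1 hWok).trans (D.y1_W _ _ _ (by omega) (by omega))
    · exact (hYE _ _ hy2 hKok).trans (D.y2_K _ _ _ (by omega) (by omega))
    · exact (hYE _ _ hy2 hGok).trans (D.y2_G _ _ _ (by omega) (by omega))
    · exact (hYE _ _ hy2 hCok).trans (D.y2_C _ _ _ _ (by omega))
    · exact (hYE _ _ hy2 hWok).trans (D.y2_W _ _ _ (by omega) (by omega))
    · exact (hRv _ _ (by omega) hK).trans (D.r_K1 _ _ _ hb)
    · exact (hRv _ _ (by omega) hG).trans (D.r_G1 _ _ _ hb)
    · exact h0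
    · exact (hRv _ _ (by omega) hW).trans (D.r_W1 _ _ _ hb)
    · exact (hRv _ _ (by omega) hK).trans (D.r_K0 _ _ _ (by omega))
    · exact (hRv _ _ (by omega) hG).trans (D.r_G0 _ _ _ hb)
    · exact h1
    · exact (hRv _ _ (by omega) hW).trans (D.r_W0 _ _ _ hb)

/-- **Far side**: if `B` agrees with `A` on all cells of one configuration, `B` contains a copy. -/
theorem copy_of_clean (hB : ∀ c ∈ D.farCells g, B c.1 c.2 = A c.1 c.2) :
    ∃ (rows : Fin 66 → Row) (cols : Fin 66 → Col), StrictMono rows ∧ StrictMono cols ∧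
      ∀ i j, B (rows i) (cols j) = H i j := by
  have h0 : B (D.R g.1 0) (D.C g.1 g.2.2 0) = true := by
    rw [D.clean_eq hB (Or.inr (D.tag_R _ _ (by omega))) (Or.inl (D.tag_C0 _ _))
      (by simp [D.tag_C0])]
    exact D.val_start _ _
  have hm : B (D.R g.1 m) (D.C g.1 g.2.2 (m + 1)) = false := by
    rw [D.clean_eq hB (Or.inr (D.tag_R _ _ le_rfl)) (Or.inl (D.tag_Cm _ _))
      (by simp [D.tag_Cm])]
    exact D.val_end _ _
  rcases chain_step (fun s => B (D.R g.1 s) (D.C g.1 g.2.2 s))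
    (fun s => B (D.R g.1 s) (D.C g.1 g.2.2 (s + 1))) m h0 hm with
    ⟨s, hs, h1, h2⟩ | ⟨b, hb, h1, h2⟩
  · exact D.copy_row_step hB s hs h1 h2
  · exact D.copy_col_step hB b hb h1 h2

end FarData

end Crest.Agent.S0066Far
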