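import Mathlib

/-!
Concrete row and column labels for helper15's design for S0066 (plan 322), written by helper23.
`m = 2h+1`, `N = 2^h`. Levels are natural numbers: `Col.k b v` is `K_{b+1}(v)`, `Col.g b v` is `G_{b+1}(v)`,
`Col.t x b` is `C_{b+1}(x)`, `Col.w b v` is `W_{b+1}(v)`, `Col.c0 v` is `V(v) = C_0`, `Col.cx v` is `X(v) = C_{m+1}`.

The order is the lexicographic order of a key in `ℕ × ℕ × ℕ`: see `Row.lt_iff`, `Col.lt_iff`.
`Row.card`, `Col.card` : both types have exactly `(386h+2)·2^h` elements for `h ≥ 1`.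
`entry res tb` is the matrix, parametrised by the functions `res b x z` and `tb s z` on naturals.
-/

set_option autoImplicit false

namespace Crest.Agent.S0066Labels

/-- Row labels. Top-down: `y1`, `y2`, `e` (by `s`, then `b`), `r` (by `x`, then `s` decreasing), `z`. -/
inductive Row (h : ℕ) where
  | y1 (u : Fin (2 ^ h))
  | y2 (u : Fin (2 ^ h))
  | e (s : Fin (2 * h + 2)) (b : Bool) (u : Fin (2 ^ h))
  | r (x : Fin (2 ^ h)) (s : Fin (2 * h + 2))
  | z (k : Fin (380 * h - 6)) (a : Fin (2 ^ h))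
  deriving DecidableEq

/-- Column labels. Left to right: `K_{m+1},G_{m+1},...,K_1,G_1`, `Q_{s,c}`, `V`, `T` (by `x`, then
level increasing), `X`, `W_m,...,W_1`, `z`. -/
inductive Col (h : ℕ) where
  | k (b : Fin (2 * h + 2)) (v : Fin (2 ^ h))
  | g (b : Fin (2 * h + 2)) (v : Fin (2 ^ h))
  | q (s : Fin (2 * h + 2)) (c : Bool) (v : Fin (2 ^ h))
  | c0 (v : Fin (2 ^ h))
  | t (x : Fin (2 ^ h)) (b : Fin (2 * h + 1))
  | cx (v : Fin (2 ^ h))
  | w (b : Fin (2 * h + 1)) (v : Fin (2 ^ h))
  | z (k : Fin (374 * h - 10)) (a : Fin (2 ^ h))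
  deriving DecidableEq

variable {h : ℕ}

/-- First key of a row. -/
def Row.k1 : Row h → ℕ
  | .y1 _ => 0
  | .y2 _ => 1
  | .e _ _ _ => 2
  | .r _ _ => 3
  | .z _ _ => 4

/-- Second key of a row. -/
def Row.k2 : Row h → ℕ
  | .y1 _ => 0
  | .y2 _ => 0
  | .e s b _ => 2 * s.val + b.toNat
  | .r x _ => x.val
  | .z i _ => i.val

/-- Third key of a row. -/
def Row.k3 : Row h → ℕ
  | .y1 u => u.val
  | .y2 u => u.val
  | .e _ _ u => u.val
  | .r _ s => 2 * h + 1 - s.val
  | .z _ a => a.val

/-- First key of a column. -/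
def Col.k1 : Col h → ℕ
  | .k _ _ => 0
  | .g _ _ => 0
  | .q _ _ _ => 1
  | .c0 _ => 2
  | .t _ _ => 3
  | .cx _ => 4
  | .w _ _ => 5
  | .z _ _ => 6

/-- Second key of a column. -/
def Col.k2 : Col h → ℕ
  | .k b _ => 2 * (2 * h + 1 - b.val)
  | .g b _ => 2 * (2 * h + 1 - b.val) + 1
  | .q s c _ => 2 * s.val + c.toNat
  | .c0 _ => 0
  | .t x _ => x.val
  | .cx _ => 0
  | .w b _ => 2 * h - b.val
  | .z i _ => i.val

/-- Third key of a column. -/
def Col.k3 : Col h → ℕ
  | .k _ v => v.val
  | .g _ v => v.val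
  | .q _ _ v => v.val
  | .c0 v => v.val
  | .t _ b => b.val
  | .cx v => v.val
  | .w _ v => v.val
  | .z _ a => a.val

theorem Row.ext_keys {a b : Row h} (h1 : a.k1 = b.k1) (h2 : a.k2 = b.k2) (h3 : a.k3 = b.k3) :
    a = b := by
  cases a <;> cases b <;> simp only [Row.k1, Row.k2, Row.k3] at h1 h2 h3 <;>
    first
    | omega
    | (rename_i u v; rw [Fin.ext (a := u) (b := v) h3])
    | skip
  · rename_i s b u s' b' u'
    have hu : u = u' := Fin.ext h3
    cases b <;> cases b' <;> simp only [Bool.toNat_false, Bool.toNat_true] at h2 <;>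
      first
      | omega
      | (have hs : s = s' := Fin.ext (by omega); rw [hs, hu])
  · rename_i x s x' s'
    have hx : x = x' := Fin.ext h2
    have hs : s = s' := Fin.ext (by omega)
    rw [hx, hs]
  · rename_i i a i' a'
    have hi : i = i' := Fin.ext h2
    have ha : a = a' := Fin.ext h3
    rw [hi, ha]

theorem Col.ext_keys {a b : Col h} (h1 : a.k1 = b.k1) (h2 : a.k2 = b.k2) (h3 : a.k3 = b.k3) :
    a = b := by
  cases a <;> cases b <;> simp only [Col.k1, Col.k2, Col.k3] at h1 h2 h3 <;>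
    first
    | omega
    | (rename_i u v; rw [Fin.ext (a := u) (b := v) h3])
    | skip
  · rename_i b v b' v'
    have hb : b = b' := Fin.ext (by omega)
    have hv : v = v' := Fin.ext h3
    rw [hb, hv]
  · rename_i b v b' v'
    have hb : b = b' := Fin.ext (by omega)
    have hv : v = v' := Fin.ext h3
    rw [hb, hv]
  · rename_i s c v s' c' v'
    have hv : v = v' := Fin.ext h3
    cases c <;> cases c' <;> simp only [Bool.toNat_false, Bool.toNat_true] at h2 <;>
      first
      | omega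
      | (have hs : s = s' := Fin.ext (by omega); rw [hs, hv])
  · rename_i x b x' b'
    have hx : x = x' := Fin.ext h2
    have hb : b = b' := Fin.ext h3
    rw [hx, hb]
  · rename_i b v b' v'
    have hb : b = b' := Fin.ext (by omega)
    have hv : v = v' := Fin.ext h3
    rw [hb, hv]
  · rename_i i a i' a'
    have hi : i = i' := Fin.ext h2
    have ha : a = a' := Fin.ext h3
    rw [hi, ha]

/-- The full key of a row, in the lexicographic order. -/
def Row.key (r : Row h) : ℕ ×ₗ ℕ ×ₗ ℕ := toLex (r.k1, toLex (r.k2, r.k3))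

/-- The full key of a column, in the lexicographic order. -/
def Col.key (c : Col h) : ℕ ×ₗ ℕ ×ₗ ℕ := toLex (c.k1, toLex (c.k2, c.k3))

theorem Row.key_injective : Function.Injective (Row.key (h := h)) := by
  intro a b hab
  have h' := congrArg ofLex hab
  simp only [Row.key, ofLex_toLex, Prod.mk.injEq] at h'
  obtain ⟨h1, h2⟩ := h'
  have h'' := congrArg ofLex h2
  simp only [ofLex_toLex, Prod.mk.injEq] at h''
  exact Row.ext_keys h1 h''.1 h''.2

theorem Col.key_injective : Function.Injective (Col.key (h := h)) := by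
  intro a b hab
  have h' := congrArg ofLex hab
  simp only [Col.key, ofLex_toLex, Prod.mk.injEq] at h'
  obtain ⟨h1, h2⟩ := h'
  have h'' := congrArg ofLex h2
  simp only [ofLex_toLex, Prod.mk.injEq] at h''
  exact Col.ext_keys h1 h''.1 h''.2

noncomputable instance : LinearOrder (Row h) := LinearOrder.lift' Row.key Row.key_injective

noncomputable instance : LinearOrder (Col h) := LinearOrder.lift' Col.key Col.key_injective

/-- Rows are ordered lexicographically by their three keys. -/
theorem Row.lt_iff {a b : Row h} :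
    a < b ↔ a.k1 < b.k1 ∨ (a.k1 = b.k1 ∧ (a.k2 < b.k2 ∨ (a.k2 = b.k2 ∧ a.k3 < b.k3))) := by
  show Row.key a < Row.key b ↔ _
  simp [Row.key, Prod.Lex.toLex_lt_toLex]

/-- Columns are ordered lexicographically by their three keys. -/
theorem Col.lt_iff {a b : Col h} :
    a < b ↔ a.k1 < b.k1 ∨ (a.k1 = b.k1 ∧ (a.k2 < b.k2 ∨ (a.k2 = b.k2 ∧ a.k3 < b.k3))) := by
  show Col.key a < Col.key b ↔ _
  simp [Col.key, Prod.Lex.toLex_lt_toLex]

/-- Rows as a sum of products. -/
def Row.equiv (h : ℕ) : Row h ≃ Fin (2 ^ h) ⊕ Fin (2 ^ h) ⊕ (Fin (2 * h + 2) × Bool × Fin (2 ^ h)) ⊕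
    (Fin (2 ^ h) × Fin (2 * h + 2)) ⊕ (Fin (380 * h - 6) × Fin (2 ^ h)) where
  toFun
    | .y1 u => .inl u
    | .y2 u => .inr (.inl u)
    | .e s b u => .inr (.inr (.inl (s, b, u)))
    | .r x s => .inr (.inr (.inr (.inl (x, s))))
    | .z i a => .inr (.inr (.inr (.inr (i, a))))
  invFun
    | .inl u => .y1 u
    | .inr (.inl u) => .y2 u
    | .inr (.inr (.inl (s, b, u))) => .e s b u
    | .inr (.inr (.inr (.inl (x, s)))) => .r x s
    | .inr (.inr (.inr (.inr (i, a)))) => .z i a
  left_inv r := by cases r <;> rfl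
  right_inv r := by
    rcases r with u | u | ⟨s, b, u⟩ | ⟨x, s⟩ | ⟨i, a⟩ <;> rfl

/-- Columns as a sum of products. -/
def Col.equiv (h : ℕ) : Col h ≃ (Fin (2 * h + 2) × Fin (2 ^ h)) ⊕ (Fin (2 * h + 2) × Fin (2 ^ h)) ⊕
    (Fin (2 * h + 2) × Bool × Fin (2 ^ h)) ⊕ Fin (2 ^ h) ⊕ (Fin (2 ^ h) × Fin (2 * h + 1)) ⊕
    Fin (2 ^ h) ⊕ (Fin (2 * h + 1) × Fin (2 ^ h)) ⊕ (Fin (374 * h - 10) × Fin (2 ^ h)) where
  toFun
    | .k b v => .inl (b, v)
    | .g b v => .inr (.inl (b, v))
    | .q s c v => .inr (.inr (.inl (s, c, v)))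
    | .c0 v => .inr (.inr (.inr (.inl v)))
    | .t x b => .inr (.inr (.inr (.inr (.inl (x, b)))))
    | .cx v => .inr (.inr (.inr (.inr (.inr (.inl v)))))
    | .w b v => .inr (.inr (.inr (.inr (.inr (.inr (.inl (b, v)))))))
    | .z i a => .inr (.inr (.inr (.inr (.inr (.inr (.inr (i, a)))))))
  invFun
    | .inl (b, v) => .k b v
    | .inr (.inl (b, v)) => .g b v
    | .inr (.inr (.inl (s, c, v))) => .q s c v
    | .inr (.inr (.inr (.inl v))) => .c0 v
    | .inr (.inr (.inr (.inr (.inl (x, b))))) => .t x b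
    | .inr (.inr (.inr (.inr (.inr (.inl v))))) => .cx v
    | .inr (.inr (.inr (.inr (.inr (.inr (.inl (b, v))))))) => .w b v
    | .inr (.inr (.inr (.inr (.inr (.inr (.inr (i, a))))))) => .z i a
  left_inv r := by cases r <;> rfl
  right_inv r := by
    rcases r with ⟨b, v⟩ | ⟨b, v⟩ | ⟨s, c, v⟩ | v | ⟨x, b⟩ | v | ⟨b, v⟩ | ⟨i, a⟩ <;> rfl

noncomputable instance : Fintype (Row h) := Fintype.ofEquiv _ (Row.equiv h).symm

noncomputable instance : Fintype (Col h) := Fintype.ofEquiv _ (Col.equiv h).symm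

/-- There are exactly `n = (386h+2)·2^h` rows. -/
theorem Row.card (hh : 1 ≤ h) : Fintype.card (Row h) = (386 * h + 2) * 2 ^ h := by
  rw [Fintype.card_congr (Row.equiv h)]
  simp only [Fintype.card_sum, Fintype.card_prod, Fintype.card_fin, Fintype.card_bool]
  obtain ⟨c, hc⟩ : ∃ c, 380 * h - 6 = c := ⟨_, rfl⟩
  have hc' : c + 6 = 380 * h := by omega
  rw [hc]
  have : (c + 6) * 2 ^ h = 380 * h * 2 ^ h := by rw [hc']
  nlinarith

/-- There are exactly `n = (386h+2)·2^h` columns. -/
theorem Col.card (hh : 1 ≤ h) : Fintype.card (Col h) = (386 * h + 2) * 2 ^ h := by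
  rw [Fintype.card_congr (Col.equiv h)]
  simp only [Fintype.card_sum, Fintype.card_prod, Fintype.card_fin, Fintype.card_bool]
  obtain ⟨c, hc⟩ : ∃ c, 374 * h - 10 = c := ⟨_, rfl⟩
  have hc' : c + 10 = 374 * h := by omega
  rw [hc]
  have : (c + 10) * 2 ^ h = 374 * h * 2 ^ h := by rw [hc']
  nlinarith

/-- Entry of a row `E_{s,b}` on the chain column of level `c` and index `z`. -/
def chainE (tb : ℕ → ℕ → Bool) (s : ℕ) (b : Bool) (c z : ℕ) : Bool :=
  if c < s then true else if c = s then false else if c = s + 1 then tb s z == b else false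

/-- Entry of a row `R_s(x)` on the chain column of level `c` and index `z`. -/
def chainR (res : ℕ → ℕ → ℕ → Bool) (x s c z : ℕ) : Bool :=
  if c < s then true else if c = s ∨ c = s + 1 then res c x z else false

/-- The matrix of the design (plan 322), for given `res b x z` and `tb s z`.
The columns `V`, `X` are the chain columns of levels `0`, `m+1` with index `0`. -/
def entry (res : ℕ → ℕ → ℕ → Bool) (tb : ℕ → ℕ → Bool) : Row h → Col h → Bool
  | .y1 _, .c0 _ => true
  | .y1 _, .t _ _ => true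
  | .y1 _, .cx _ => true
  | .y1 _, .w _ _ => true
  | .y1 _, _ => false
  | .y2 _, .k _ _ => true
  | .y2 _, .g _ _ => true
  | .y2 _, .q _ _ _ => true
  | .y2 _, _ => false
  | .e s _ _, .k c _ => decide (c.val = s.val)
  | .e s b _, .q t c _ => decide (s = t) && (b == c)
  | .e s b _, .c0 _ => chainE tb s.val b 0 0
  | .e s b _, .t z c => chainE tb s.val b (c.val + 1) z.val
  | .e s b _, .cx _ => chainE tb s.val b (2 * h + 2) 0
  | .e _ _ _, _ => false
  | .r _ s, .k c _ => decide (s.val = c.val + 1)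
  | .r _ s, .g c _ => decide (s.val = c.val ∨ s.val = c.val + 1)
  | .r x s, .q t c _ => decide (s = t) && (tb s.val x.val == c)
  | .r x s, .c0 _ => chainR res x.val s.val 0 0
  | .r x s, .t z c => chainR res x.val s.val (c.val + 1) z.val
  | .r x s, .cx _ => chainR res x.val s.val (2 * h + 2) 0
  | .r _ s, .w c _ => decide (s.val = c.val + 1)
  | .r _ _, .z _ _ => false
  | .z _ _, _ => false

/-- Generates the equation lemmas of `entry`, `chainE` and `chainR` in this module, so that the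
modules importing it share one copy instead of each generating its own. -/
theorem eqns_generated_here : True := by
  have _h1 := @entry.eq_1
  have _h2 := @chainE.eq_1
  have _h3 := @chainR.eq_1
  trivial

end Crest.Agent.S0066Labels
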