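import Crest.Agent.S0066Gen

/-!
Layout transfer for S0066 (helper23): from a design on abstract finite linear orders of row kinds and
column kinds (with exactly `n` elements each) to matrices on `Fin n`, in the exact shape wanted by
`Crest.Agent.S0066Gen.s0066_of_design`.  No position arithmetic is needed: `monoEquivOfFin` gives the
unique increasing bijection.
-/

set_option autoImplicit false

namespace Crest.Agent.S0066Layout

open Crest.CombinatoricsR.OrderedMatrix
open Finset

/-- An ordered copy on the kind level gives a nonzero copy count on `Fin n`. -/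
theorem copyCount_ne_zero_of_kinds {n k : ℕ} (H : Fin k → Fin k → Bool) (B : Fin n → Fin n → Bool)
    (rows cols : Fin k → Fin n) (hr : StrictMono rows) (hc : StrictMono cols)
    (hm : ∀ i j, B (rows i) (cols j) = H i j) : orderedCopyCount H B ≠ 0 := by
  unfold orderedCopyCount
  have : Nonempty {rc : (Fin k → Fin n) × (Fin k → Fin n) //
      StrictMono rc.1 ∧ StrictMono rc.2 ∧ ∀ i j : Fin k, B (rc.1 i) (rc.2 j) = H i j} :=
    ⟨⟨(rows, cols), hr, hc, hm⟩⟩
  exact Fintype.card_ne_zero

/-- Layout transfer. `Row`, `Col` are finite linear orders with exactly `n` elements, `entry` is the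
kind-level matrix, `Crit` the critical cells, `cells` the configuration cells. -/
theorem design_of_kinds {n N : ℕ} (H : Fin 66 → Fin 66 → Bool)
    {Row Col : Type} [Fintype Row] [Fintype Col] [LinearOrder Row] [LinearOrder Col]
    (hR : Fintype.card Row = n) (hC : Fintype.card Col = n)
    (entry : Row → Col → Bool)
    (Crit : Finset (Row × Col)) (r0 c0 : Fin 66)
    (hCritCard : Crit.card ≤ N)
    (hCrit : ∀ (rows : Fin 66 → Row) (cols : Fin 66 → Col), StrictMono rows → StrictMono cols →
      (∀ i j, entry (rows i) (cols j) = H i j) → (rows r0, cols c0) ∈ Crit)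
    (cells : Fin N × Fin N × Fin N → Finset (Row × Col))
    (hdeg : ∀ c, (univ.filter fun g => c ∈ cells g).card ≤ N)
    (hfar : ∀ (B : Row → Col → Bool) (g : Fin N × Fin N × Fin N),
      (∀ c ∈ cells g, B c.1 c.2 = entry c.1 c.2) →
      ∃ (rows : Fin 66 → Row) (cols : Fin 66 → Col), StrictMono rows ∧ StrictMono cols ∧
        ∀ i j, B (rows i) (cols j) = H i j) :
    ∃ A : Fin n → Fin n → Bool,
    ∃ Crit' : Finset (Fin n × Fin n),
    ∃ (r0' c0' : Fin 66),
      Crit'.card ≤ N ∧
      (∀ (rows cols : Fin 66 → Fin n), StrictMono rows → StrictMono cols →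
        (∀ i j, A (rows i) (cols j) = H i j) → (rows r0', cols c0') ∈ Crit') ∧
      ∃ (cells' : Fin N × Fin N × Fin N → Finset (Fin n × Fin n)),
        (∀ c, (univ.filter fun g => c ∈ cells' g).card ≤ N) ∧
        ∀ (B : Fin n → Fin n → Bool) (g),
          (∀ c ∈ cells' g, B c.1 c.2 = A c.1 c.2) → orderedCopyCount H B ≠ 0 := by
  classical
  let er : Fin n ≃o Row := monoEquivOfFin Row hR
  let ec : Fin n ≃o Col := monoEquivOfFin Col hC
  let e : Row × Col ≃ Fin n × Fin n := (er.symm.toEquiv).prodCongr (ec.symm.toEquiv)
  refine ⟨fun i j => entry (er i) (ec j), Crit.map e.toEmbedding, r0, c0, ?_, ?_,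
    fun g => (cells g).map e.toEmbedding, ?_, ?_⟩
  · simpa using hCritCard
  · intro rows cols hr hc hm
    have := hCrit (fun i => er (rows i)) (fun j => ec (cols j))
      (er.strictMono.comp hr) (ec.strictMono.comp hc) hm
    refine Finset.mem_map.2 ⟨_, this, ?_⟩
    simp [e]
  · intro c
    have hsub : (univ.filter fun g => c ∈ (cells g).map e.toEmbedding) =
        (univ.filter fun g => e.symm c ∈ cells g) := by
      ext g
      simp only [mem_filter, mem_univ, true_and, Finset.mem_map_equiv]
    rw [hsub]
    exact hdeg _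
  · intro B g hB
    obtain ⟨rows, cols, hr, hc, hm⟩ := hfar (fun r c => B (er.symm r) (ec.symm c)) g (by
      intro c hc
      have := hB (e c) (Finset.mem_map_of_mem _ hc)
      simpa [e] using this)
    exact copyCount_ne_zero_of_kinds H B (fun i => er.symm (rows i)) (fun j => ec.symm (cols j))
      (er.symm.strictMono.comp hr) (ec.symm.strictMono.comp hc) hm

end Crest.Agent.S0066Layout
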