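import Crest.Agent.S0066Gen
import Crest.Agent.S0066Layout
import Crest.Agent.S0066Labels
import Crest.Agent.S0066Bits
import Crest.Agent.S0066Far

/-!
Final assembly of helper15's design for S0066 (helper23): the statement follows from
(1) a `FarData` term on the concrete labels, and (2) the class analysis "every copy is critical".
-/

set_option autoImplicit false

namespace Crest.Agent.S0066Glue

open Crest.CombinatoricsR.OrderedMatrix
open Crest.Agent.S0066Labels
open Finset

/-- The function `res` of the design. -/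
def resH (h : ℕ) : ℕ → ℕ → ℕ → Bool := fun b x z => S0066Bits.res h b x z

/-- The function `tb` of the design, as a Boolean. -/
def tbH (h : ℕ) : ℕ → ℕ → Bool := fun s z => decide (S0066Bits.tb h s z = 1)

/-- The matrix of the design. -/
abbrev mat (h : ℕ) : Row h → Col h → Bool := entry (resH h) (tbH h)

/-- The critical row of `x`: `R_h(x)`. -/
def critRow {h : ℕ} (x : Fin (2 ^ h)) : Row h := Row.r x ⟨h, by omega⟩

/-- The critical column of `x`: `C_h(x)` (for `h ≥ 1`). -/
def critCol {h : ℕ} (hh : 1 ≤ h) (x : Fin (2 ^ h)) : Col h := Col.t x ⟨h - 1, by omega⟩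

/-- The statement of S0066 from the far data and the class analysis. -/
theorem main_of_parts
    (far : ∀ h, 1 ≤ h → Nonempty (S0066Far.FarData (2 ^ h) (2 * h + 1) (Row h) (Col h) (mat h)
      (fun s x => tbH h s x.val)))
    (crit : ∀ h (hh : 1 ≤ h) (rows : Fin 66 → Row h) (cols : Fin 66 → Col h), StrictMono rows →
      StrictMono cols → (∀ i j, mat h (rows i) (cols j) = S0066Far.H i j) →
      ∃ x : Fin (2 ^ h), rows 3 = critRow x ∧ cols 2 = critCol hh x) :
    ∃ H : Fin 66 → Fin 66 → Bool, ∀ h : ℕ, 1 ≤ h →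
      ∃ A : Fin ((386 * h + 2) * 2 ^ h) → Fin ((386 * h + 2) * 2 ^ h) → Bool,
        (∀ B : Fin ((386 * h + 2) * 2 ^ h) → Fin ((386 * h + 2) * 2 ^ h) → Bool,
          orderedCopyCount H B = 0 →
            ((386 * (h : ℝ) + 2) ^ 2)⁻¹ * (((386 * h + 2) * 2 ^ h : ℕ) : ℝ) ^ 2 ≤
              ((Finset.univ.filter (fun rc : Fin ((386 * h + 2) * 2 ^ h) × Fin ((386 * h + 2) * 2 ^ h) =>
                A rc.1 rc.2 ≠ B rc.1 rc.2)).card : ℝ)) ∧
        (orderedCopyCount H A : ℝ) /
            (((386 * h + 2) * 2 ^ h : ℕ) : ℝ) ^ 132 ≤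
          ((386 * (h : ℝ) + 2) ^ 2)⁻¹ * (2 : ℝ)⁻¹ ^ h := by
  classical
  refine S0066Gen.s0066_of_design S0066Far.H (fun h hh => ?_)
  obtain ⟨D⟩ := far h hh
  refine S0066Layout.design_of_kinds S0066Far.H (Row.card hh) (Col.card hh) (mat h)
    ((univ : Finset (Fin (2 ^ h))).image fun x => (critRow x, critCol hh x)) 3 2 ?_ ?_
    D.farCells D.farCells_degree (fun B g hB => D.copy_of_clean hB)
  · calc _ ≤ (univ : Finset (Fin (2 ^ h))).card := Finset.card_image_le
      _ = 2 ^ h := by simp
  · intro rows cols hr hc hm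
    obtain ⟨x, h1, h2⟩ := crit h hh rows cols hr hc hm
    exact Finset.mem_image.2 ⟨x, mem_univ _, by rw [h1, h2]⟩

end Crest.Agent.S0066Glue
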