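import Crest.Agent.S0066Crit
import Crest.Agent.S0066Labels
import Crest.Agent.S0066Bits
import Crest.Agent.S0066Far
import Crest.Agent.S0066Glue

/-!
S0066: every ordered copy of the pattern in the concrete host `S0066Labels.entry` is critical
(helper27).  The class analysis is `S0066Crit.crit`; here it is transported to the labels.
-/

set_option autoImplicit false
set_option linter.unusedSectionVars false

namespace Crest.Agent.S0066CritInst

open Crest.Agent.S0066Labels Crest.Agent.S0066Crit

variable {h : ℕ}

/-- The kind of a row. -/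
def rowKind : Row h → RK (Fin (2 ^ h))
  | .y1 _ => .y1
  | .y2 _ => .y2
  | .e s b _ => .e s.val b
  | .r x s => .r x s.val
  | .z _ _ => .zero

/-- The kind of a column. -/
def colKind : Col h → CK (Fin (2 ^ h))
  | .k b _ => .k (b.val + 1)
  | .g b _ => .g (b.val + 1)
  | .q s c _ => .q s.val c
  | .c0 _ => .c0
  | .t x b => .t x (b.val + 1)
  | .cx _ => .cx
  | .w b _ => .w (b.val + 1)
  | .z _ _ => .zero

theorem rowKind_mono {a b : Row h} (hab : a < b) : rle (rowKind a) (rowKind b) := by
  rw [Row.lt_iff] at hab
  cases a <;> cases b <;> simp only [Row.k1, Row.k2, Row.k3] at hab <;>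
    simp only [rowKind, rle] <;> first | trivial | omega | skip
  · rename_i s β u s' β' u'
    cases β <;> cases β' <;> simp only [Bool.toNat_false, Bool.toNat_true] at hab <;> omega

theorem colKind_mono {a b : Col h} (hab : a < b) : cle (colKind a) (colKind b) := by
  rw [Col.lt_iff] at hab
  cases a <;> cases b <;> simp only [Col.k1, Col.k2, Col.k3] at hab <;>
    simp only [colKind, cle] <;> first | trivial | omega

/-- Restriction of the parameters to `Fin (2 ^ h)`. -/
def resF (res : ℕ → ℕ → ℕ → Bool) (b : ℕ) (x z : Fin (2 ^ h)) : Bool := res b x.val z.val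

/-- Restriction of the parameters to `Fin (2 ^ h)`. -/
def tbF (tb : ℕ → ℕ → Bool) (s : ℕ) (x : Fin (2 ^ h)) : Bool := tb s x.val

/-- The entries agree with the entries on kinds. -/
theorem entry_eq (res : ℕ → ℕ → ℕ → Bool) (tb : ℕ → ℕ → Bool)
    (h0 : ∀ x, x < 2 ^ h → res 0 x 0 = true) (hbig : ∀ x, res (2 * h + 2) x 0 = false)
    (htop : tb (2 * h + 1) 0 = false)
    (a : Row h) (c : Col h) :
    entry res tb a c = ent h (resF res) (tbF tb) (rowKind a) (colKind c) := by
  cases a with
  | y1 u => cases c <;> simp [entry, ent, rowKind, colKind]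
  | y2 u => cases c <;> simp [entry, ent, rowKind, colKind]
  | z k u => cases c <;> simp [entry, ent, rowKind, colKind]
  | e s β u =>
    have hs := s.2
    cases c with
    | k b v => simp [entry, ent, rowKind, colKind]
    | g b v => simp [entry, ent, rowKind, colKind]
    | q t γ v =>
      simp [entry, ent, rowKind, colKind, Fin.ext_iff, beq_eq_decide]
    | c0 v =>
      simp only [entry, ent, rowKind, colKind, chainE]
      by_cases h1 : 0 < s.val
      · simp [h1]
      · have : s.val = 0 := by omega
        simp [this]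
    | t z c =>
      simp only [entry, ent, rowKind, colKind, chainE, tbF]
      by_cases h1 : c.val + 1 < s.val
      · simp [h1]
      · by_cases h2 : c.val + 1 = s.val
        · simp [h2]
        · by_cases h3 : c.val = s.val
          · simp [h3, beq_eq_decide] <;> congr
          · simp [h1, h2, h3]
    | cx v =>
      simp only [entry, ent, rowKind, colKind, chainE]
      have h1 : ¬ (2 * h + 2 < s.val) := by omega
      have h2 : ¬ (2 * h + 2 = s.val) := by omega
      by_cases h3 : s.val = 2 * h + 1
      · simp [h3, htop]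
      · have h4 : ¬ (2 * h + 2 = s.val + 1) := by omega
        simp [h1, h2, h3, h4]
    | w b v => simp [entry, ent, rowKind, colKind]
    | z k a => simp [entry, ent, rowKind, colKind]
  | r x s =>
    have hs := s.2
    cases c with
    | k b v => simp [entry, ent, rowKind, colKind, eq_comm]
    | g b v =>
      simp [entry, ent, rowKind, colKind, eq_comm]
      rw [Bool.or_comm]
    | q t γ v =>
      simp [entry, ent, rowKind, colKind, Fin.ext_iff, tbF, beq_eq_decide] <;> congr
    | c0 v =>
      simp only [entry, ent, rowKind, colKind, chainR]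
      by_cases h1 : 0 < s.val
      · simp [h1]
      · have h2 : s.val = 0 := by omega
        simp [h2, h0 _ x.2]
    | t z c =>
      simp only [entry, ent, rowKind, colKind, chainR, resF]
      by_cases h1 : c.val + 1 < s.val
      · simp [h1]
      · by_cases h2 : c.val + 1 = s.val ∨ c.val + 1 = s.val + 1
        · simp [h1, h2]
        · simp [h1, h2]
    | cx v =>
      simp only [entry, ent, rowKind, colKind, chainR]
      have h1 : ¬ (2 * h + 2 < s.val) := by omega
      have h2 : ¬ (2 * h + 2 = s.val) := by omega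
      by_cases h3 : 2 * h + 2 = s.val + 1
      · simp [h1, h3]
        have h4 : s.val + 1 = 2 * h + 2 := by omega
        rw [h4]; exact hbig _
      · simp [h1, h2, h3]
    | w b v => simp [entry, ent, rowKind, colKind, eq_comm]
    | z k a => simp [entry, ent, rowKind, colKind]

/-- **Every copy is critical**, for abstract parameters. -/
theorem copy_crit (hh : 1 ≤ h) (res : ℕ → ℕ → ℕ → Bool) (tb : ℕ → ℕ → Bool)
    (hD : ResData h (resF (h := h) res) (tbF (h := h) tb))
    (h0 : ∀ x, x < 2 ^ h → res 0 x 0 = true) (hbig : ∀ x, res (2 * h + 2) x 0 = false)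
    (htop : tb (2 * h + 1) 0 = false)
    (rows : Fin 66 → Row h) (cols : Fin 66 → Col h)
    (hr : StrictMono rows) (hc : StrictMono cols)
    (hm : ∀ i j, entry res tb (rows i) (cols j) = S0066Far.H i j) :
    ∃ x : Fin (2 ^ h), rows 3 = Row.r x ⟨h, by omega⟩ ∧ cols 2 = Col.t x ⟨h - 1, by omega⟩ := by
  have hm' : ∀ i j, ent h (resF res) (tbF tb) (rowKind (rows i)) (colKind (cols j)) = S0066Far.H i j := by
    intro i j
    rw [← entry_eq res tb h0 hbig htop]
    exact hm i j
  have P : Cfg h (resF res) (tbF tb) (rowKind (rows 0)) (rowKind (rows 1)) (rowKind (rows 2))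
      (rowKind (rows 3)) (colKind (cols 0)) (colKind (cols 1)) (colKind (cols 2))
      (colKind (cols 3)) :=
    { r12 := rowKind_mono (hr (by decide))
      r23 := rowKind_mono (hr (by decide))
      r34 := rowKind_mono (hr (by decide))
      c12 := colKind_mono (hc (by decide))
      c23 := colKind_mono (hc (by decide))
      c34 := colKind_mono (hc (by decide))
      e11 := hm' 0 0
      e12 := hm' 0 1
      e13 := hm' 0 2
      e14 := hm' 0 3
      e21 := hm' 1 0
      e22 := hm' 1 1
      e23 := hm' 1 2
      e24 := hm' 1 3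
      e31 := hm' 2 0
      e32 := hm' 2 1
      e33 := hm' 2 2
      e34 := hm' 2 3
      e41 := hm' 3 0
      e42 := hm' 3 1
      e43 := hm' 3 2
      e44 := hm' 3 3 }
  have hv : ∀ z b, colKind (cols 2) = .t z b → b ≤ 2 * h + 1 := by
    intro z b hzb
    cases hcc : cols 2 with
    | t x c =>
      rw [hcc] at hzb
      simp only [colKind, CK.t.injEq] at hzb
      have := c.2
      omega
    | _ => rw [hcc] at hzb; simp [colKind] at hzb
  obtain ⟨x, hx1, hx2⟩ := crit hh hD P hv
  have hr3 : rows 3 = Row.r x ⟨h, by omega⟩ := by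
    cases hrr : rows 3 with
    | r x' s =>
      rw [hrr] at hx1
      simp only [rowKind, RK.r.injEq] at hx1
      obtain ⟨rfl, hs⟩ := hx1
      congr 1
      exact Fin.ext hs
    | _ => rw [hrr] at hx1; simp [rowKind] at hx1
  have hc2 : cols 2 = Col.t x ⟨h - 1, by omega⟩ := by
    cases hcc : cols 2 with
    | t x' b =>
      rw [hcc] at hx2
      simp only [colKind, CK.t.injEq] at hx2
      obtain ⟨rfl, hs⟩ := hx2
      congr 1
      exact Fin.ext (by simp only []; omega)
    | _ => rw [hcc] at hx2; simp [colKind] at hx2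
  exact ⟨x, hr3, hc2⟩

/-- Monotonicity in the level. -/
theorem res_mono_b {h b x z : ℕ} (H : S0066Bits.res h (b + 1) x z = true) :
    S0066Bits.res h b x z = true := by
  unfold S0066Bits.res at H ⊢
  by_cases h1 : b + 1 ≤ h
  · rw [if_pos h1] at H
    rw [if_pos (by omega)]
    simp only [decide_eq_true_eq] at H ⊢
    obtain ⟨p, hp⟩ : ∃ p, p = 2 ^ (h - (b + 1)) := ⟨_, rfl⟩
    have hp2 : 2 ^ (h - b) = p * 2 := by
      rw [hp, ← pow_succ]; congr 1; omega
    rw [← hp] at H
    rw [hp2, ← Nat.div_div_eq_div_mul, ← Nat.div_div_eq_div_mul]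
    exact Nat.div_le_div_right H
  · rw [if_neg h1] at H
    by_cases h2 : b = h
    · subst h2
      rw [if_pos le_rfl]
      by_cases h3 : b + 1 ≤ 2 * b
      · rw [if_pos h3] at H
        have h4 : b + 1 - b - 1 = 0 := by omega
        simp only [decide_eq_true_eq, h4, pow_zero, Nat.div_one] at H
        simp only [decide_eq_true_eq, Nat.sub_self, pow_zero, Nat.div_one]
        omega
      · rw [if_neg h3] at H
        exact absurd H (by simp)
    · rw [if_neg (by omega)]
      by_cases h3 : b + 1 ≤ 2 * h
      · rw [if_pos h3] at H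
        rw [if_pos (by omega)]
        simp only [decide_eq_true_eq] at H ⊢
        obtain ⟨q, hq⟩ : ∃ q, q = 2 ^ (b - h - 1) := ⟨_, rfl⟩
        have hq2 : 2 ^ (b + 1 - h - 1) = q * 2 := by
          rw [hq, ← pow_succ]; congr 1; omega
        rw [hq2, ← Nat.div_div_eq_div_mul, ← Nat.div_div_eq_div_mul] at H
        rw [← hq]
        omega
      · rw [if_neg h3] at H
        exact absurd H (by simp)

/-- The data for the concrete functions. -/
theorem resData (hh : 1 ≤ h) :
    ResData h (resF (h := h) (S0066Glue.resH h)) (tbF (h := h) (S0066Glue.tbH h)) where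
  anti_x b x x' z hx H := S0066Bits.res_anti_x (Fin.le_def.1 hx) H
  mono_z b x z z' hz H := S0066Bits.res_mono_z (Fin.le_def.1 hz) H
  mono_b b x z H := res_mono_b H
  res_zero x z := S0066Bits.res_zero x.2 z.2
  res_big b x z hb := S0066Bits.res_big hb
  bit s x z' z h1 hzz h2 h3 := by
    have h4 : S0066Bits.tb h s z.val = S0066Bits.tb h s x.val := by
      have h5 : decide (S0066Bits.tb h s z.val = 1) = decide (S0066Bits.tb h s x.val = 1) := h3
      have h6 := S0066Bits.tb_lt_two h s z.val
      have h7 := S0066Bits.tb_lt_two h s x.val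
      rw [decide_eq_decide] at h5
      omega
    obtain ⟨h8, h9, h10⟩ := S0066Bits.bit_lemma hh x.2 z.2 h1 (Fin.le_def.1 hzz) h2 h4
    exact ⟨h8, Fin.ext h9, Fin.ext h10⟩

/-- **Every copy is critical**, in exactly the form of the hypothesis of `main_of_parts`. -/
theorem crit_final (h : ℕ) (hh : 1 ≤ h) (rows : Fin 66 → Row h) (cols : Fin 66 → Col h)
    (hr : StrictMono rows) (hc : StrictMono cols)
    (hm : ∀ i j, S0066Glue.mat h (rows i) (cols j) = S0066Far.H i j) :
    ∃ x : Fin (2 ^ h), rows 3 = S0066Glue.critRow x ∧ cols 2 = S0066Glue.critCol hh x := by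
  have h0 : ∀ x, x < 2 ^ h → S0066Glue.resH h 0 x 0 = true := fun x hx =>
    S0066Bits.res_zero hx (Nat.two_pow_pos h)
  have hbig : ∀ x, S0066Glue.resH h (2 * h + 2) x 0 = false := fun x =>
    S0066Bits.res_big (by omega)
  have htop : S0066Glue.tbH h (2 * h + 1) 0 = false := by
    unfold S0066Glue.tbH S0066Bits.tb
    simp only [decide_eq_false_iff_not]
    rw [if_neg (by omega), if_neg (by omega)]
    omega
  exact copy_crit hh _ _ (resData hh) h0 hbig htop rows cols hr hc hm

end Crest.Agent.S0066CritInst
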