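import Crest.Agent.S0066Far
import Crest.Agent.S0066Labels
import Crest.Agent.S0066Glue

/-!
The `FarData` instance on helper23's concrete labels (helper20), and the resulting far part of
the design in the shape wanted by `S0066Layout.design_of_kinds`.
-/

set_option autoImplicit false

namespace Crest.Agent.S0066FarInst

open Crest.Agent.S0066Far Crest.Agent.S0066Labels
open Finset

variable {h : ℕ}

/-- Row `E_{s,b}(u)`. -/
def eR (s : ℕ) (b : Bool) (u : Fin (2 ^ h)) : Row h :=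
  if hs : s < 2 * h + 2 then Row.e ⟨s, hs⟩ b u else Row.y1 u

/-- Row `R_s(x)`. -/
def rR (x : Fin (2 ^ h)) (s : ℕ) : Row h :=
  if hs : s < 2 * h + 2 then Row.r x ⟨s, hs⟩ else Row.y1 x

/-- Column `K_b(v)`. -/
def kC (b : ℕ) (v : Fin (2 ^ h)) : Col h :=
  if hb : 1 ≤ b ∧ b ≤ 2 * h + 2 then Col.k ⟨b - 1, by omega⟩ v else Col.c0 v

/-- Column `G_b(v)`. -/
def gC (b : ℕ) (v : Fin (2 ^ h)) : Col h :=
  if hb : 1 ≤ b ∧ b ≤ 2 * h + 2 then Col.g ⟨b - 1, by omega⟩ v else Col.c0 v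

/-- Column `W_b(v)`. -/
def wC (b : ℕ) (v : Fin (2 ^ h)) : Col h :=
  if hb : 1 ≤ b ∧ b ≤ 2 * h + 1 then Col.w ⟨b - 1, by omega⟩ v else Col.c0 v

/-- Column `Q_{s,c}(v)`. -/
def qC (s : ℕ) (c : Bool) (v : Fin (2 ^ h)) : Col h :=
  if hs : s < 2 * h + 2 then Col.q ⟨s, hs⟩ c v else Col.c0 v

/-- Chain column of level `b`. -/
def cC (x v : Fin (2 ^ h)) (b : ℕ) : Col h :=
  if b = 0 then Col.c0 v else
    if hb : 1 ≤ b ∧ b ≤ 2 * h + 1 then Col.t x ⟨b - 1, by omega⟩ else Col.cx v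

/-- Tag of a row. -/
def rowTag : Row h → Option (Tag (2 ^ h))
  | .y1 u => some (Sum.inl u)
  | .y2 u => some (Sum.inl u)
  | .e _ _ u => some (Sum.inl u)
  | .r x _ => some (Sum.inr x)
  | .z _ a => some (Sum.inl a)

/-- Tag of a column. -/
def colTag : Col h → Option (Tag (2 ^ h))
  | .k _ v => some (Sum.inl v)
  | .g _ v => some (Sum.inl v)
  | .q _ _ v => some (Sum.inl v)
  | .c0 v => some (Sum.inl v)
  | .t x _ => some (Sum.inr x)
  | .cx v => some (Sum.inl v)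
  | .w _ v => some (Sum.inl v)
  | .z _ a => some (Sum.inl a)

theorem eR_eq {s : ℕ} (hs : s ≤ 2 * h + 1) (b : Bool) (u : Fin (2 ^ h)) :
    (eR s b u : Row h) = Row.e ⟨s, by omega⟩ b u := by
  simp only [eR]; rw [dif_pos]

theorem rR_eq {s : ℕ} (hs : s ≤ 2 * h + 1) (x : Fin (2 ^ h)) :
    (rR x s : Row h) = Row.r x ⟨s, by omega⟩ := by
  simp only [rR]; rw [dif_pos]

theorem kC_eq {b : ℕ} (h1 : 1 ≤ b) (h2 : b ≤ 2 * h + 2) (v : Fin (2 ^ h)) :
    (kC b v : Col h) = Col.k ⟨b - 1, by omega⟩ v := by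
  simp only [kC]; rw [dif_pos]; exact ⟨h1, h2⟩

theorem gC_eq {b : ℕ} (h1 : 1 ≤ b) (h2 : b ≤ 2 * h + 2) (v : Fin (2 ^ h)) :
    (gC b v : Col h) = Col.g ⟨b - 1, by omega⟩ v := by
  simp only [gC]; rw [dif_pos]; exact ⟨h1, h2⟩

theorem wC_eq {b : ℕ} (h1 : 1 ≤ b) (h2 : b ≤ 2 * h + 1) (v : Fin (2 ^ h)) :
    (wC b v : Col h) = Col.w ⟨b - 1, by omega⟩ v := by
  simp only [wC]; rw [dif_pos]; exact ⟨h1, h2⟩

theorem qC_eq {s : ℕ} (hs : s ≤ 2 * h + 1) (c : Bool) (v : Fin (2 ^ h)) :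
    (qC s c v : Col h) = Col.q ⟨s, by omega⟩ c v := by
  simp only [qC]; rw [dif_pos]

theorem cC_zero (x v : Fin (2 ^ h)) : (cC x v 0 : Col h) = Col.c0 v := by
  simp [cC]

theorem cC_mid {b : ℕ} (h1 : 1 ≤ b) (h2 : b ≤ 2 * h + 1) (x v : Fin (2 ^ h)) :
    (cC x v b : Col h) = Col.t x ⟨b - 1, by omega⟩ := by
  simp only [cC]
  rw [if_neg (by omega), dif_pos ⟨h1, h2⟩]

theorem cC_top (x v : Fin (2 ^ h)) : (cC x v (2 * h + 2) : Col h) = Col.cx v := by
  simp only [cC]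
  rw [if_neg (by omega), dif_neg (by omega)]

/-- Case split of chain columns. -/
theorem cC_cases (x v : Fin (2 ^ h)) (b : ℕ) (hb : b ≤ 2 * h + 2) :
    (b = 0 ∧ (cC x v b : Col h) = Col.c0 v) ∨
    (∃ h1 : 1 ≤ b, ∃ h2 : b ≤ 2 * h + 1, (cC x v b : Col h) = Col.t x ⟨b - 1, by omega⟩) ∨
    (b = 2 * h + 2 ∧ (cC x v b : Col h) = Col.cx v) := by
  by_cases h0 : b = 0
  · subst h0; exact Or.inl ⟨rfl, cC_zero x v⟩
  · by_cases ht : b = 2 * h + 2
    · subst ht; exact Or.inr (Or.inr ⟨rfl, cC_top x v⟩)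
    · exact Or.inr (Or.inl ⟨by omega, by omega, cC_mid (by omega) (by omega) x v⟩)

/-- The far data on the labels, for any `res`, `tb` with the three facts used at the chain ends. -/
noncomputable def farData (hh : 1 ≤ h) (res : ℕ → ℕ → ℕ → Bool) (tb : ℕ → ℕ → Bool)
    (hres0 : ∀ x, x < 2 ^ h → res 0 x 0 = true)
    (hresbig : ∀ x, res (2 * h + 2) x 0 = false)
    (htbm : ∀ x, x < 2 ^ h → tb (2 * h + 1) x = tb (2 * h + 1) 0) :
    FarData (2 ^ h) (2 * h + 1) (Row h) (Col h) (entry res tb) (fun s x => tb s x.val) where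
  Y1 := Row.y1
  Y2 := Row.y2
  E := eR
  R := rR
  ZR := fun i u => Row.z ⟨i.val, by have := i.isLt; omega⟩ u
  K := kC
  G := gC
  W := wC
  Q := qC
  C := cC
  ZC := fun j v => Col.z ⟨j.val, by have := j.isLt; omega⟩ v
  rowTag := rowTag
  colTag := colTag
  tag_Y1 := fun _ => rfl
  tag_Y2 := fun _ => rfl
  tag_E := fun s b u hs => by rw [eR_eq hs]; rfl
  tag_R := fun x s hs => by rw [rR_eq hs]; rfl
  tag_ZR := fun _ _ => rfl
  tag_K := fun b v h1 h2 => by rw [kC_eq h1 h2]; rfl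
  tag_G := fun b v h1 h2 => by rw [gC_eq h1 (by omega)]; rfl
  tag_W := fun b v h1 h2 => by rw [wC_eq h1 h2]; rfl
  tag_Q := fun s b v hs => by rw [qC_eq hs]; rfl
  tag_C0 := fun x v => by rw [cC_zero]; rfl
  tag_Cm := fun x v => by rw [show (cC x v (2 * h + 1 + 1) : Col h) = Col.cx v from cC_top x v]; rfl
  tag_C := fun x v b h1 h2 => by rw [cC_mid h1 h2]; rfl
  tag_ZC := fun _ _ => rfl
  lt_Y1Y2 := fun u => by simp only [Row.lt_iff, Row.k1]; omega
  lt_Y2E := fun s b u hs => by rw [eR_eq hs]; simp only [Row.lt_iff, Row.k1]; omega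
  lt_ER := fun x s b u hs => by rw [eR_eq hs, rR_eq hs]; simp only [Row.lt_iff, Row.k1]; omega
  lt_Y2R := fun x s u hs => by rw [rR_eq hs]; simp only [Row.lt_iff, Row.k1]; omega
  lt_RR := fun x s hs => by
    rw [rR_eq (by omega), rR_eq (by omega)]
    simp only [Row.lt_iff, Row.k1, Row.k2, Row.k3, true_and, lt_self_iff_false, false_or]; omega
  lt_RZ := fun x s u hs => by rw [rR_eq hs]; simp only [Row.lt_iff, Row.k1]; omega
  mono_ZR := fun u => by
    intro i j hij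
    have hij' : i.val < j.val := hij
    simp only [Row.lt_iff, Row.k1, Row.k2, true_and, lt_self_iff_false, false_or]
    exact Or.inl hij'
  lt_KQ := fun s b v hs => by
    rw [kC_eq (by omega) (by omega), qC_eq hs]; simp only [Col.lt_iff, Col.k1]; omega
  lt_QC := fun x s b v hs => by
    rw [qC_eq hs]
    rcases cC_cases x v s (by omega) with ⟨_, h2⟩ | ⟨_, _, h2⟩ | ⟨_, h2⟩ <;> rw [h2] <;>
      simp only [Col.lt_iff, Col.k1] <;> omega
  lt_CC := fun x s v hs => by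
    have h1 : s + 1 ≤ 2 * h + 2 := by omega
    rcases cC_cases x v s (by omega) with ⟨h0, h2⟩ | ⟨h0, h0', h2⟩ | ⟨h0, h2⟩
    · rcases cC_cases x v (s + 1) h1 with ⟨h3, h4⟩ | ⟨_, _, h4⟩ | ⟨h3, h4⟩
      · omega
      · rw [h2, h4]; simp only [Col.lt_iff, Col.k1]; omega
      · rw [h2, h4]; simp only [Col.lt_iff, Col.k1]; omega
    · rcases cC_cases x v (s + 1) h1 with ⟨h3, h4⟩ | ⟨_, _, h4⟩ | ⟨h3, h4⟩
      · omega
      · rw [h2, h4]
        simp only [Col.lt_iff, Col.k1, Col.k2, Col.k3, true_and, lt_self_iff_false, false_or]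
        omega
      · rw [h2, h4]; simp only [Col.lt_iff, Col.k1]; omega
    · omega
  lt_CZ := fun x s v hs => by
    rcases cC_cases x v s (by omega) with ⟨_, h2⟩ | ⟨_, _, h2⟩ | ⟨_, h2⟩ <;> rw [h2] <;>
      simp only [Col.lt_iff, Col.k1] <;> omega
  lt_KG := fun b v h1 h2 => by
    rw [kC_eq h1 (by omega), gC_eq h1 (by omega)]
    simp only [Col.lt_iff, Col.k1, Col.k2, true_and, lt_self_iff_false, false_or]
    omega
  lt_GC := fun x b v h1 h2 => by
    rw [gC_eq h1 (by omega), cC_mid h1 h2]; simp only [Col.lt_iff, Col.k1]; omega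
  lt_CW := fun x b v h1 h2 => by
    rw [cC_mid h1 h2, wC_eq h1 h2]; simp only [Col.lt_iff, Col.k1]; omega
  lt_WZ := fun b v h1 h2 => by rw [wC_eq h1 h2]; simp only [Col.lt_iff, Col.k1]; omega
  mono_ZC := fun v => by
    intro i j hij
    have hij' : i.val < j.val := hij
    simp only [Col.lt_iff, Col.k1, Col.k2, true_and, lt_self_iff_false, false_or]
    exact Or.inl hij'
  zero_ZR := fun i u c => by cases c <;> rfl
  zero_ZC := fun r j v => by cases r <;> rfl
  val_start := fun x v => by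
    rw [rR_eq (by omega), cC_zero]
    simp only [entry, chainR]
    simpa using hres0 x.val x.isLt
  val_end := fun x v => by
    rw [rR_eq (by omega), show (cC x v (2 * h + 1 + 1) : Col h) = Col.cx v from cC_top x v]
    simp only [entry, chainR]
    rw [if_neg (by omega)]
    simp [hresbig]
  y1_K := fun u b v h1 h2 => by rw [kC_eq h1 h2]; rfl
  y1_G := fun u b v h1 h2 => by rw [gC_eq h1 (by omega)]; rfl
  y1_Q := fun u s b v hs => by rw [qC_eq hs]; rfl
  y1_C := fun u x v b hb => by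
    rcases cC_cases x v b hb with ⟨_, h2⟩ | ⟨_, _, h2⟩ | ⟨_, h2⟩ <;> rw [h2] <;> rfl
  y1_W := fun u b v h1 h2 => by rw [wC_eq h1 h2]; rfl
  y2_K := fun u b v h1 h2 => by rw [kC_eq h1 h2]; rfl
  y2_G := fun u b v h1 h2 => by rw [gC_eq h1 (by omega)]; rfl
  y2_Q := fun u s b v hs => by rw [qC_eq hs]; rfl
  y2_C := fun u x v b hb => by
    rcases cC_cases x v b hb with ⟨_, h2⟩ | ⟨_, _, h2⟩ | ⟨_, h2⟩ <;> rw [h2] <;> rfl
  y2_W := fun u b v h1 h2 => by rw [wC_eq h1 h2]; rfl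
  e_K := fun s b u v hs => by
    rw [eR_eq hs, kC_eq (by omega) (by omega)]
    simp [entry]
  e_Q := fun s b u v hs => by
    rw [eR_eq hs, qC_eq hs]
    simp [entry]
  e_C0 := fun s u x v hs => by
    rw [eR_eq hs]
    rcases cC_cases x v s (by omega) with ⟨h0, h2⟩ | ⟨h0, h0', h2⟩ | ⟨h0, h2⟩
    · rw [h2]; subst h0; simp [entry, chainE]
    · rw [h2]
      simp only [entry, chainE]
      rw [if_neg (by omega), if_pos (by omega)]
    · omega
  e_C1 := fun s u x v hs => by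
    rw [eR_eq hs]
    rcases cC_cases x v (s + 1) (by omega) with ⟨h0, h2⟩ | ⟨h0, h0', h2⟩ | ⟨h0, h2⟩
    · omega
    · rw [h2]
      simp only [entry, chainE]
      rw [if_neg (by omega), if_neg (by omega), if_pos (by omega)]
      simp
    · rw [h2]
      have hs' : s = 2 * h + 1 := by omega
      subst hs'
      simp [entry, chainE, htbm x.val x.isLt]
  r_K0 := fun x s v hs => by
    rw [rR_eq hs, kC_eq (by omega) (by omega)]
    simp [entry]
  r_Q := fun x s v hs => by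
    rw [rR_eq hs, qC_eq hs]
    simp [entry]
  r_K1 := fun x b v hb => by
    rw [rR_eq (by omega), kC_eq (by omega) (by omega)]
    simp [entry]
  r_G1 := fun x b v hb => by
    rw [rR_eq (by omega), gC_eq (by omega) (by omega)]
    simp [entry]
  r_W1 := fun x b v hb => by
    rw [rR_eq (by omega), wC_eq (by omega) (by omega)]
    simp [entry]
  r_G0 := fun x b v hb => by
    rw [rR_eq (by omega), gC_eq (by omega) (by omega)]
    simp [entry]
  r_W0 := fun x b v hb => by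
    rw [rR_eq (by omega), wC_eq (by omega) (by omega)]
    simp [entry]

/-- The far part in the shape wanted by `S0066Layout.design_of_kinds`. -/
theorem far_part (hh : 1 ≤ h) (res : ℕ → ℕ → ℕ → Bool) (tb : ℕ → ℕ → Bool)
    (hres0 : ∀ x, x < 2 ^ h → res 0 x 0 = true)
    (hresbig : ∀ x, res (2 * h + 2) x 0 = false)
    (htbm : ∀ x, x < 2 ^ h → tb (2 * h + 1) x = tb (2 * h + 1) 0) :
    ∃ cells : Fin (2 ^ h) × Fin (2 ^ h) × Fin (2 ^ h) → Finset (Row h × Col h),
      (∀ c, (univ.filter fun g => c ∈ cells g).card ≤ 2 ^ h) ∧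
      ∀ (B : Row h → Col h → Bool) (g : Fin (2 ^ h) × Fin (2 ^ h) × Fin (2 ^ h)),
        (∀ c ∈ cells g, B c.1 c.2 = entry res tb c.1 c.2) →
        ∃ (rows : Fin 66 → Row h) (cols : Fin 66 → Col h), StrictMono rows ∧ StrictMono cols ∧
          ∀ i j, B (rows i) (cols j) = H i j := by
  classical
  let D := farData hh res tb hres0 hresbig htbm
  refine ⟨D.farCells, fun c => ?_, fun B g hB => D.copy_of_clean hB⟩
  convert D.farCells_degree c

/-- The `far` hypothesis of `S0066Glue.main_of_parts`. -/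
theorem far (h : ℕ) (hh : 1 ≤ h) :
    Nonempty (FarData (2 ^ h) (2 * h + 1) (Row h) (Col h) (S0066Glue.mat h)
      (fun s x => S0066Glue.tbH h s x.val)) := by
  refine ⟨farData hh (S0066Glue.resH h) (S0066Glue.tbH h) ?_ ?_ ?_⟩
  · intro x hx
    exact S0066Bits.res_zero hx (by positivity)
  · intro x
    exact S0066Bits.res_big (by omega)
  · intro x _
    have key : ∀ y, S0066Bits.tb h (2 * h + 1) y = 0 := by
      intro y
      unfold S0066Bits.tb
      rw [if_neg (by omega), if_neg (by omega)]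
    simp [S0066Glue.tbH, key]

end Crest.Agent.S0066FarInst
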