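import Crest.Agent.S0066Bits
set_option autoImplicit false
namespace Crest.Agent.S0066Bits

theorem res_mono_b {h b x z : ℕ} (H : res h (b + 1) x z = true) : res h b x z = true := by
  unfold res at H ⊢
  by_cases h1 : b + 1 ≤ h
  · rw [if_pos h1] at H
    rw [if_pos (by omega)]
    simp only [decide_eq_true_eq] at H ⊢
    have e : h - b = (h - (b + 1)) + 1 := by omega
    rw [e, pow_succ, ← Nat.div_div_eq_div_mul, ← Nat.div_div_eq_div_mul]
    exact Nat.div_le_div_right H
  · rw [if_neg h1] at H
    by_cases h2 : b + 1 ≤ 2 * h
    · rw [if_pos h2] at H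
      simp only [decide_eq_true_eq] at H
      by_cases h3 : b ≤ h
      · have e : b = h := by omega
        subst e
        simp only [Nat.le_refl, if_true, decide_eq_true_eq]
        have e2 : b + 1 - b - 1 = 0 := by omega
        rw [e2] at H
        simp only [Nat.sub_self, pow_zero, Nat.div_one] at H ⊢
        exact le_of_lt H
      · rw [if_neg h3, if_pos (by omega)]
        simp only [decide_eq_true_eq]
        have e : b + 1 - h - 1 = (b - h - 1) + 1 := by omega
        rw [e, pow_succ, ← Nat.div_div_eq_div_mul, ← Nat.div_div_eq_div_mul] at H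
        by_contra hn
        have hn' := not_lt.mp hn
        exact absurd H (not_lt.mpr (Nat.div_le_div_right hn'))
    · rw [if_neg h2] at H
      exact absurd H (by simp)

end Crest.Agent.S0066Bits
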