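import Mathlib

/-!
# S0066: class analysis.  Every ordered copy of the core pattern `H0` in the host matrix is critical.

Kinds of rows and columns (multiplicity indices forgotten), the entry function from the design of
helper15 (plan 322), and the theorem `crit`: four weakly increasing row kinds and four weakly increasing
column kinds carrying the pattern
  0 0 1 1
  1 1 0 0
  1 1 0 1
  0 1 1 0
must have last row `r x h` and third column `t x h`.
-/

namespace Crest.Agent.S0066Crit

/-- Row kinds. -/
inductive RK (X : Type) where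
  | y1 | y2
  | e (s : ℕ) (b : Bool)
  | r (x : X) (s : ℕ)
  | zero

/-- Column kinds. -/
inductive CK (X : Type) where
  | k (b : ℕ) | g (b : ℕ)
  | q (s : ℕ) (b : Bool)
  | c0
  | t (z : X) (b : ℕ)
  | cx
  | w (b : ℕ)
  | zero

variable {X : Type} [LinearOrder X]

/-- Weak order on row kinds. -/
def rle : RK X → RK X → Prop
  | .y1, _ => True
  | .y2, .y1 => False
  | .y2, _ => True
  | .e _ _, .y1 => False
  | .e _ _, .y2 => False
  | .e s _, .e s' _ => s ≤ s'
  | .e _ _, _ => True
  | .r _ _, .y1 => False
  | .r _ _, .y2 => False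
  | .r _ _, .e _ _ => False
  | .r x _, .r x' _ => x ≤ x'
  | .r _ _, .zero => True
  | .zero, .zero => True
  | .zero, _ => False

/-- Weak order on column kinds. -/
def cle : CK X → CK X → Prop
  | .k b, .k b' => b' ≤ b
  | .k b, .g b' => b' ≤ b
  | .k _, _ => True
  | .g b, .k b' => b' < b
  | .g b, .g b' => b' ≤ b
  | .g _, _ => True
  | .q _ _, .k _ => False
  | .q _ _, .g _ => False
  | .q _ _, _ => True
  | .c0, .k _ => False
  | .c0, .g _ => False
  | .c0, .q _ _ => False
  | .c0, _ => True
  | .t _ _, .k _ => False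
  | .t _ _, .g _ => False
  | .t _ _, .q _ _ => False
  | .t _ _, .c0 => False
  | .t z b, .t z' b' => z < z' ∨ (z = z' ∧ b ≤ b')
  | .t _ _, _ => True
  | .cx, .k _ => False
  | .cx, .g _ => False
  | .cx, .q _ _ => False
  | .cx, .c0 => False
  | .cx, .t _ _ => False
  | .cx, _ => True
  | .w _, .k _ => False
  | .w _, .g _ => False
  | .w _, .q _ _ => False
  | .w _, .c0 => False
  | .w _, .t _ _ => False
  | .w _, .cx => False
  | .w b, .w b' => b' ≤ b
  | .w _, .zero => True
  | .zero, .zero => True
  | .zero, _ => False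

theorem rle_trans {a b c : RK X} (h1 : rle a b) (h2 : rle b c) : rle a c := by
  cases a <;> cases b <;> cases c <;> simp_all [rle] <;> first | omega | exact le_trans h1 h2

theorem cle_trans {a b c : CK X} (h1 : cle a b) (h2 : cle b c) : cle a c := by
  cases a <;> cases b <;> cases c <;> simp_all [cle] <;>
    first
      | omega
      | (rcases h1 with h1 | ⟨h1, h1'⟩ <;> rcases h2 with h2 | ⟨h2, h2'⟩ <;>
          first
            | exact Or.inl (lt_trans h1 h2)
            | (subst_vars; first | exact Or.inl ‹_› | exact Or.inr ⟨rfl, by omega⟩))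

/-- Data of the comparison functions. -/
structure ResData (h : ℕ) (res : ℕ → X → X → Bool) (tb : ℕ → X → Bool) : Prop where
  anti_x : ∀ b x x' z, x ≤ x' → res b x' z = true → res b x z = true
  mono_z : ∀ b x z z', z ≤ z' → res b x z = true → res b x z' = true
  mono_b : ∀ b x z, res (b + 1) x z = true → res b x z = true
  res_zero : ∀ x z, res 0 x z = true
  res_big : ∀ b x z, 2 * h < b → res b x z = false
  bit : ∀ s x z' z, res s x z' = true → z' ≤ z → res (s + 1) x z = false → tb s z = tb s x →
    s = h ∧ z' = x ∧ z = x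

/-- The entry of the host matrix at a row kind and a column kind. -/
def ent (h : ℕ) (res : ℕ → X → X → Bool) (tb : ℕ → X → Bool) : RK X → CK X → Bool
  | .y1, .c0 => true
  | .y1, .t _ _ => true
  | .y1, .cx => true
  | .y1, .w _ => true
  | .y1, _ => false
  | .y2, .k _ => true
  | .y2, .g _ => true
  | .y2, .q _ _ => true
  | .y2, _ => false
  | .e s _, .k b' => decide (b' = s + 1)
  | .e s b, .q t c => decide (s = t) && decide (b = c)
  | .e s _, .c0 => decide (0 < s)
  | .e s b, .t z c => decide (c < s) || (decide (c = s + 1) && decide (tb s z = b))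
  | .e s b, .cx => decide (s = 2 * h + 1) && decide (b = false)
  | .e _ _, _ => false
  | .r _ s, .k b => decide (b = s)
  | .r _ s, .g b => decide (b = s ∨ b = s + 1)
  | .r x s, .q t c => decide (s = t) && decide (tb s x = c)
  | .r _ _, .c0 => true
  | .r x s, .t z b => decide (b < s) || (decide (b = s ∨ b = s + 1) && res b x z)
  | .r _ _, .cx => false
  | .r _ s, .w b => decide (b = s)
  | .r _ _, .zero => false
  | .zero, _ => false

variable {h : ℕ} {res : ℕ → X → X → Bool} {tb : ℕ → X → Bool}

section lemmas

/-- Right-hand columns. -/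
def isRt : CK X → Prop
  | .c0 | .t _ _ | .cx | .w _ => True
  | _ => False

/-- Left-hand columns. -/
def isL : CK X → Prop
  | .k _ | .g _ | .q _ _ => True
  | _ => False

theorem ent_r_t_iff {x : X} {s z b} :
    ent h res tb (.r x s) (.t z b) = true ↔ b < s ∨ ((b = s ∨ b = s + 1) ∧ res b x z = true) := by
  simp [ent]

theorem ent_e_t_iff {s β z c} :
    ent h res tb (.e s β) (.t z c) = true ↔ c < s ∨ (c = s + 1 ∧ tb s z = β) := by
  simp [ent]

/-- Antitonicity in `x` of an `r` row on right-hand columns. -/
theorem r_anti (hD : ResData h res tb) {x x' : X} {s : ℕ} {c : CK X} (hx : x ≤ x') (hc : isRt c)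
    (hv : ent h res tb (.r x' s) c = true) : ent h res tb (.r x s) c = true := by
  cases c with
  | t z b =>
    rw [ent_r_t_iff] at hv ⊢
    rcases hv with hv | ⟨hb, hv⟩
    · exact Or.inl hv
    · exact Or.inr ⟨hb, hD.anti_x _ _ _ _ hx hv⟩
  | c0 => simp [ent]
  | cx => simp [ent] at hv
  | w b => simpa [ent] using hv
  | k _ => exact hc.elim
  | g _ => exact hc.elim
  | q _ _ => exact hc.elim
  | zero => exact hc.elim

/-- Monotonicity in `z` of an `r` row. -/
theorem r_mono_z (hD : ResData h res tb) {x : X} {s z z' b} (hz : z ≤ z')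
    (hv : ent h res tb (.r x s) (.t z b) = true) : ent h res tb (.r x s) (.t z' b) = true := by
  rw [ent_r_t_iff] at hv ⊢
  rcases hv with hv | ⟨hb, hv⟩
  · exact Or.inl hv
  · exact Or.inr ⟨hb, hD.mono_z _ _ _ _ hz hv⟩

/-- Monotonicity in the level `b` of an `r` row. -/
theorem r_mono_b (hD : ResData h res tb) {x : X} {s z b b'} (hb : b ≤ b')
    (hv : ent h res tb (.r x s) (.t z b') = true) : ent h res tb (.r x s) (.t z b) = true := by
  rw [ent_r_t_iff] at hv ⊢
  rcases hv with hv | ⟨hb', hv⟩
  · exact Or.inl (by omega)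
  · by_cases hbs : b < s
    · exact Or.inl hbs
    · right
      have hbs' : b = s ∨ b = s + 1 := by omega
      refine ⟨hbs', ?_⟩
      rcases hb' with rfl | rfl
      · have : b = b' := by omega
        subst this; exact hv
      · rcases hbs' with rfl | rfl
        · exact hD.mono_b _ _ _ hv
        · exact hv
  
/-- Two row kinds of `e`/`r` type with two distinct common ones on left columns have the same type. -/
theorem two_common {a a' : RK X} {c c' : CK X} (hc : isL c) (hc' : isL c') (hne : c ≠ c')
    (h1 : ent h res tb a c = true) (h2 : ent h res tb a c' = true)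
    (h3 : ent h res tb a' c = true) (h4 : ent h res tb a' c' = true)
    (hay : a ≠ .y2) (hay' : a' ≠ .y2) :
    (∃ s β, a = .e s β ∧ a' = .e s β) ∨ (∃ x x' s, a = .r x s ∧ a' = .r x' s) := by
  cases a with
  | y1 => cases c <;> simp_all [ent, isL]
  | y2 => exact absurd rfl hay
  | zero => simp [ent] at h1
  | e s β =>
    cases a' with
    | y1 => cases c <;> simp_all [ent, isL]
    | y2 => exact absurd rfl hay'
    | zero => simp [ent] at h3
    | e s' β' =>
      left
      cases c <;> cases c' <;> simp_all [ent, isL] <;> first | omega | (obtain ⟨rfl, rfl⟩ := h1; simp_all)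
    | r x s' =>
      exfalso
      cases c <;> cases c' <;> simp_all [ent, isL] <;> omega
  | r x s =>
    cases a' with
    | y1 => cases c <;> simp_all [ent, isL]
    | y2 => exact absurd rfl hay'
    | zero => simp [ent] at h3
    | e s' β' =>
      exfalso
      cases c <;> cases c' <;> simp_all [ent, isL] <;> omega
    | r x' s' =>
      right
      refine ⟨x, x', s, rfl, ?_⟩
      have : s' = s := by
        cases c <;> cases c' <;> simp_all [ent, isL] <;> omega
      rw [this]


theorem ent_y1 {c : CK X} : ent h res tb .y1 c = true ↔ isRt c := by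
  cases c <;> simp [ent, isRt]

theorem ent_y2 {c : CK X} : ent h res tb .y2 c = true ↔ isL c := by
  cases c <;> simp [ent, isL]

theorem ent_zero_row {c : CK X} : ent h res tb .zero c = false := by
  cases c <;> simp [ent]

theorem ent_zero_col {a : RK X} : ent h res tb a .zero = false := by
  cases a <;> simp [ent]

theorem col_LR {a : RK X} {c : CK X} (H : ent h res tb a c = true) : isL c ∨ isRt c := by
  cases c <;> simp_all [isL, isRt, ent_zero_col]

theorem nz_row {a : RK X} {c : CK X} (H : ent h res tb a c = true) : a ≠ .zero := by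
  rintro rfl; simp [ent_zero_row] at H

theorem nz_col {a : RK X} {c : CK X} (H : ent h res tb a c = true) : c ≠ .zero := by
  rintro rfl; simp [ent_zero_col] at H

theorem L_of_le {c c' : CK X} (hc : cle c c') (hc' : isL c') : isL c := by
  cases c <;> cases c' <;> simp_all [cle, isL]

theorem Rt_of_le {c c' : CK X} (hc : cle c c') (h0 : c' ≠ .zero) (hR : isRt c) : isRt c' := by
  cases c <;> cases c' <;> simp_all [cle, isRt]

theorem not_L_of_Rt {c : CK X} (hR : isRt c) : ¬ isL c := by
  cases c <;> simp_all [isRt, isL]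

/-- Columns of the central block. -/
def isC : CK X → Prop
  | .c0 | .t _ _ | .cx => True
  | _ => False

theorem isC_of_le {c c' : CK X} (hc : cle c c') (hc' : isC c') (hR : isRt c) : isC c := by
  cases c <;> cases c' <;> simp_all [cle, isC, isRt]

/-- Rows of type `e` or `r`. -/
def isER : RK X → Prop
  | .e _ _ | .r _ _ => True
  | _ => False

theorem isER_of_le {a a' : RK X} (ha : isER a) (hle : rle a a') (h0 : a' ≠ .zero) : isER a' := by
  cases a <;> cases a' <;> simp_all [rle, isER]

/-- All the incidences. -/
structure Cfg (h : ℕ) (res : ℕ → X → X → Bool) (tb : ℕ → X → Bool)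
    (r1 r2 r3 r4 : RK X) (c1 c2 c3 c4 : CK X) : Prop where
  r12 : rle r1 r2
  r23 : rle r2 r3
  r34 : rle r3 r4
  c12 : cle c1 c2
  c23 : cle c2 c3
  c34 : cle c3 c4
  e11 : ent h res tb r1 c1 = false
  e12 : ent h res tb r1 c2 = false
  e13 : ent h res tb r1 c3 = true
  e14 : ent h res tb r1 c4 = true
  e21 : ent h res tb r2 c1 = true
  e22 : ent h res tb r2 c2 = true
  e23 : ent h res tb r2 c3 = false
  e24 : ent h res tb r2 c4 = false
  e31 : ent h res tb r3 c1 = true
  e32 : ent h res tb r3 c2 = true
  e33 : ent h res tb r3 c3 = false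
  e34 : ent h res tb r3 c4 = true
  e41 : ent h res tb r4 c1 = false
  e42 : ent h res tb r4 c2 = true
  e43 : ent h res tb r4 c3 = true
  e44 : ent h res tb r4 c4 = false

section caseanalysis

variable {r1 r2 r3 r4 : RK X} {c1 c2 c3 c4 : CK X}

theorem ff {b : Bool} (h1 : b = false) (h2 : b = true) : False := by simp_all

theorem Cfg.c1_ne_c2 (P : Cfg h res tb r1 r2 r3 r4 c1 c2 c3 c4) : c1 ≠ c2 := by
  rintro rfl; exact ff P.e41 P.e42

theorem Cfg.c3_ne_c4 (P : Cfg h res tb r1 r2 r3 r4 c1 c2 c3 c4) : c3 ≠ c4 := by
  rintro rfl; exact ff P.e33 P.e34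

theorem Cfg.c4_nz (P : Cfg h res tb r1 r2 r3 r4 c1 c2 c3 c4) : c4 ≠ .zero := nz_col P.e14

theorem Cfg.c3_nz (P : Cfg h res tb r1 r2 r3 r4 c1 c2 c3 c4) : c3 ≠ .zero := nz_col P.e13

/-- `y2` can't be the first row. -/
theorem r1_ne_y2 (P : Cfg h res tb r1 r2 r3 r4 c1 c2 c3 c4) : r1 ≠ .y2 := by
  rintro rfl
  have h3 : isL c3 := ent_y2.1 P.e13
  have h1 : isL c1 := L_of_le (cle_trans P.c12 P.c23) h3
  exact ff P.e11 (ent_y2.2 h1)

/-- Rows that share two left ones can't be separated increasingly on a right-hand column. -/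
theorem no_sep {a a' : RK X} {c c' d : CK X} (hD : ResData h res tb) (hc : isL c) (hc' : isL c')
    (hne : c ≠ c') (h1 : ent h res tb a c = true) (h2 : ent h res tb a c' = true)
    (h3 : ent h res tb a' c = true) (h4 : ent h res tb a' c' = true)
    (hay : a ≠ .y2) (hay' : a' ≠ .y2) (hle : rle a a') (hd : isRt d)
    (h5 : ent h res tb a d = false) (h6 : ent h res tb a' d = true) : False := by
  rcases two_common hc hc' hne h1 h2 h3 h4 hay hay' with ⟨s, β, rfl, rfl⟩ | ⟨x, x', s, rfl, rfl⟩
  · exact ff h5 h6
  · exact ff h5 (r_anti hD (x := x) (x' := x') (s := s) hle hd h6)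

theorem ent_r_t_false {x : X} {s z b} (H : ent h res tb (.r x s) (.t z b) = false) :
    ¬ (b < s ∨ ((b = s ∨ b = s + 1) ∧ res b x z = true)) := by
  rw [← ent_r_t_iff (h := h) (res := res) (tb := tb)]; simp [H]

theorem ent_e_t_false {s β z c} (H : ent h res tb (.e s β) (.t z c) = false) :
    ¬ (c < s ∨ (c = s + 1 ∧ tb s z = β)) := by
  rw [← ent_e_t_iff (h := h) (res := res) (tb := tb)]; simp [H]

/-- Case `r3 = e`. -/
theorem caseA1a (hh : 1 ≤ h) (hD : ResData h res tb) {s : ℕ} {β : Bool}
    (P : Cfg h res tb .y1 .y2 (.e s β) r4 c1 c2 c3 c4) : ∃ x, r4 = .r x h ∧ c3 = .t x h := by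
  have c2L : isL c2 := by
    rcases col_LR P.e22 with h' | h'
    · exact h'
    · exact (ff P.e12 (ent_y1.2 h')).elim
  have c1L : isL c1 := L_of_le P.c12 c2L
  have c3R : isRt c3 := ent_y1.1 P.e13
  have c4R : isRt c4 := ent_y1.1 P.e14
  have key : ∀ c, isL c → ent h res tb (.e s β) c = true → c = .k (s + 1) ∨ c = .q s β := by
    intro c hc hv
    cases c with
    | k b => left; simp [ent] at hv; rw [hv]
    | g b => simp [ent] at hv
    | q t γ =>
      right; simp [ent] at hv; obtain ⟨h1, h2⟩ := hv; rw [h1, h2]
    | _ => exact hc.elim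
  obtain ⟨rfl, rfl⟩ : c1 = .k (s + 1) ∧ c2 = .q s β := by
    rcases key c1 c1L P.e31 with h1 | h1 <;> rcases key c2 c2L P.e32 with h2 | h2
    · exact absurd (h1.trans h2.symm) P.c1_ne_c2
    · exact ⟨h1, h2⟩
    · subst h1; subst h2; exact P.c12.elim
    · exact absurd (h1.trans h2.symm) P.c1_ne_c2
  obtain ⟨x, rfl, hx⟩ : ∃ x, r4 = .r x s ∧ tb s x = β := by
    cases r4 with
    | y1 => exact P.r34.elim
    | y2 => exact P.r34.elim
    | zero => exact (nz_row P.e42 rfl).elim
    | e s' β' =>
      have h42 := P.e42
      have h41 := P.e41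
      simp [ent] at h42 h41
      obtain ⟨h5, _⟩ := h42
      omega
    | r x s' =>
      have h42 := P.e42
      simp [ent] at h42
      obtain ⟨h5, hb⟩ := h42
      subst h5
      exact ⟨x, rfl, hb⟩
  have e33 := P.e33
  have e34 := P.e34
  have e43 := P.e43
  have e44 := P.e44
  cases c4 with
  | c0 => simp [ent] at e44
  | w b => simp [ent] at e34
  | cx =>
    simp [ent] at e34
    obtain ⟨hs, hβ⟩ := e34
    cases c3 with
    | c0 => simp [ent] at e33; omega
    | t z' c' =>
      exfalso
      rw [ent_r_t_iff] at e43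
      have e33' := ent_e_t_false e33
      rcases e43 with h1 | ⟨h1, h2⟩
      · exact e33' (Or.inl h1)
      · have := hD.res_big c' x z' (by omega)
        simp [this] at h2
    | cx => simp [ent] at e43
    | w b => exact P.c34.elim
    | k _ => exact c3R.elim
    | g _ => exact c3R.elim
    | q _ _ => exact c3R.elim
    | zero => exact c3R.elim
  | t z c =>
    rw [ent_e_t_iff] at e34
    have e44' := ent_r_t_false e44
    rcases e34 with h1 | ⟨h1, h2⟩
    · exact (e44' (Or.inl h1)).elim
    subst h1
    have hres : res (s + 1) x z = false := by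
      by_contra h5
      exact e44' (Or.inr ⟨Or.inr rfl, by simpa using h5⟩)
    cases c3 with
    | c0 =>
      simp [ent] at e33
      subst e33
      have := hD.bit 0 x z z (hD.res_zero x z) le_rfl hres (h2.trans hx.symm)
      omega
    | t z' c' =>
      have hzz : z' ≤ z := by
        have h5 := P.c34
        rcases h5 with h6 | ⟨h6, _⟩
        · exact h6.le
        · exact h6.le
      rw [ent_r_t_iff] at e43
      have e33' := ent_e_t_false e33
      rcases e43 with h1 | ⟨h1, h3⟩
      · exact (e33' (Or.inl h1)).elim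
      rcases h1 with rfl | rfl
      · obtain ⟨hs, h5, h6⟩ := hD.bit c' x z' z h3 hzz hres (h2.trans hx.symm)
        exact ⟨x, by rw [hs], by rw [hs, h5]⟩
      · have := hD.mono_z _ _ _ _ hzz h3
        simp [hres] at this
    | cx => exact P.c34.elim
    | w b => exact P.c34.elim
    | k _ => exact c3R.elim
    | g _ => exact c3R.elim
    | q _ _ => exact c3R.elim
    | zero => exact c3R.elim
  | k _ => exact c4R.elim
  | g _ => exact c4R.elim
  | q _ _ => exact c4R.elim
  | zero => exact c4R.elim

/-- Case `r3 = r`. -/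
theorem caseA1b (hD : ResData h res tb) {x' : X} {s' : ℕ}
    (P : Cfg h res tb .y1 .y2 (.r x' s') r4 c1 c2 c3 c4) : False := by
  have c2L : isL c2 := by
    rcases col_LR P.e22 with h' | h'
    · exact h'
    · exact (ff P.e12 (ent_y1.2 h')).elim
  have c1L : isL c1 := L_of_le P.c12 c2L
  have c3R : isRt c3 := ent_y1.1 P.e13
  have c4R : isRt c4 := ent_y1.1 P.e14
  obtain ⟨x, s, rfl, hxx⟩ : ∃ x s, r4 = .r x s ∧ x' ≤ x := by
    cases r4 with
    | r x s => exact ⟨x, s, rfl, P.r34⟩
    | zero => exact (nz_row P.e42 rfl).elim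
    | y1 => exact P.r34.elim
    | y2 => exact P.r34.elim
    | e _ _ => exact P.r34.elim
  have hss : s ≠ s' := by
    rintro rfl
    exact ff P.e33 (r_anti hD hxx c3R P.e43)
  have e32 := P.e32
  have e42 := P.e42
  cases c2 with
  | k b => simp [ent] at e32 e42; omega
  | q t γ =>
    simp [ent] at e32 e42
    obtain ⟨h1, _⟩ := e32
    obtain ⟨h2, _⟩ := e42
    omega
  | g b =>
    simp [ent] at e32 e42
    have hopt : (s' = s + 1 ∧ b = s') ∨ (s = s' + 1 ∧ b = s) := by omega
    rcases hopt with ⟨hs, hbb⟩ | ⟨hs, hbb⟩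
    · have e33 := P.e33
      have e43 := P.e43
      have e34 := P.e34
      cases c3 with
      | c0 => simp [ent] at e33
      | cx => simp [ent] at e43
      | t z b3 =>
        rw [ent_r_t_iff] at e43
        have e33' := ent_r_t_false e33
        rcases e43 with h1 | ⟨h1, h3⟩
        · apply e33'; left; omega
        · have hb3 : b3 = s' := by
            by_contra hne
            apply e33'; left; omega
          subst hb3
          exact e33' (Or.inr ⟨Or.inl rfl, hD.anti_x _ _ _ _ hxx h3⟩)
      | w b3 =>
        simp [ent] at e43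
        subst e43
        cases c4 with
        | w b4 =>
          simp [ent] at e34
          have h5 := P.c34
          simp only [cle] at h5
          omega
        | zero => exact (P.c4_nz rfl).elim
        | k _ => exact P.c34.elim
        | g _ => exact P.c34.elim
        | q _ _ => exact P.c34.elim
        | c0 => exact P.c34.elim
        | t _ _ => exact P.c34.elim
        | cx => exact P.c34.elim
      | k _ => exact c3R.elim
      | g _ => exact c3R.elim
      | q _ _ => exact c3R.elim
      | zero => exact c3R.elim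
    · have e31 := P.e31
      have c12 := P.c12
      cases c1 with
      | k b1 =>
        simp [ent] at e31
        simp only [cle] at c12
        omega
      | g b1 =>
        simp [ent] at e31
        simp only [cle] at c12
        have : b1 = b := by omega
        subst this
        exact P.c1_ne_c2 rfl
      | q _ _ => exact c12.elim
      | c0 => exact c1L.elim
      | t _ _ => exact c1L.elim
      | cx => exact c1L.elim
      | w _ => exact c1L.elim
      | zero => exact c1L.elim
  | c0 => exact c2L.elim
  | t _ _ => exact c2L.elim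
  | cx => exact c2L.elim
  | w _ => exact c2L.elim
  | zero => exact c2L.elim

/-- Case `r1 = y1`. -/
theorem caseA (hh : 1 ≤ h) (hD : ResData h res tb)
    (P : Cfg h res tb .y1 r2 r3 r4 c1 c2 c3 c4) : ∃ x, r4 = .r x h ∧ c3 = .t x h := by
  have c2L : isL c2 := by
    rcases col_LR P.e22 with h' | h'
    · exact h'
    · exact (ff P.e12 (ent_y1.2 h')).elim
  have c1L : isL c1 := L_of_le P.c12 c2L
  have c4R : isRt c4 := ent_y1.1 P.e14
  have hr2 : r2 = .y2 := by
    cases r2 with
    | y2 => rfl
    | y1 => exact (ff P.e11 P.e21).elim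
    | zero => exact (nz_row P.e21 rfl).elim
    | e s β =>
      exfalso
      have hy3 : r3 ≠ .y2 := by
        rintro rfl; exact P.r23.elim
      exact no_sep hD c1L c2L P.c1_ne_c2 P.e21 P.e22 P.e31 P.e32 (by simp) hy3 P.r23 c4R P.e24 P.e34
    | r x s =>
      exfalso
      have hy3 : r3 ≠ .y2 := by
        rintro rfl; exact P.r23.elim
      exact no_sep hD c1L c2L P.c1_ne_c2 P.e21 P.e22 P.e31 P.e32 (by simp) hy3 P.r23 c4R P.e24 P.e34
  subst hr2
  cases r3 with
  | y1 => exact P.r23.elim
  | y2 => exact (not_L_of_Rt c4R (ent_y2.1 P.e34)).elim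
  | zero => exact (nz_row P.e31 rfl).elim
  | e s β => exact caseA1a hh hD P
  | r x s => exact (caseA1b hD P).elim

/-- Case `r1` of type `e`/`r` and `c2` left. -/
theorem caseB1 (hD : ResData h res tb) (hr1 : isER r1)
    (P : Cfg h res tb r1 r2 r3 r4 c1 c2 c3 c4) (c2L : isL c2) : False := by
  have c1L := L_of_le P.c12 c2L
  have hr2 : isER r2 := isER_of_le hr1 P.r12 (nz_row P.e21)
  have hr3 : isER r3 := isER_of_le hr2 P.r23 (nz_row P.e31)
  have hy2 : r2 ≠ .y2 := by
    rintro rfl; exact hr2.elim
  have hy3 : r3 ≠ .y2 := by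
    rintro rfl; exact hr3.elim
  rcases two_common c1L c2L P.c1_ne_c2 P.e21 P.e22 P.e31 P.e32 hy2 hy3 with
    ⟨s, β, rfl, rfl⟩ | ⟨x, x', s, rfl, rfl⟩
  · exact ff P.e24 P.e34
  have hxx : x ≤ x' := P.r23
  have e24 := P.e24
  have e34 := P.e34
  have e14 := P.e14
  cases c4 with
  | k b => simp [ent] at e24 e34; omega
  | g b => simp [ent] at e24 e34; omega
  | zero => exact (P.c4_nz rfl).elim
  | c0 => exact ff e24 (r_anti hD hxx trivial e34)
  | t _ _ => exact ff e24 (r_anti hD hxx trivial e34)
  | cx => exact ff e24 (r_anti hD hxx trivial e34)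
  | w _ => exact ff e24 (r_anti hD hxx trivial e34)
  | q t β =>
    simp [ent] at e24 e34
    obtain ⟨hst, hb⟩ := e34
    subst hst
    have hne := e24 rfl
    have c3L : isL c3 := L_of_le P.c34 (c' := .q s β) trivial
    cases r1 with
    | y1 => exact hr1.elim
    | y2 => exact hr1.elim
    | zero => exact hr1.elim
    | e s1 β1 =>
      simp [ent] at e14
      obtain ⟨hs1, hβ1⟩ := e14
      subst hs1 hβ1
      have e13 := P.e13
      cases c3 with
      | k b =>
        simp [ent] at e13
        subst e13
        have e22 := P.e22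
        have c23 := P.c23
        cases c2 with
        | k b => simp [ent] at e22; simp only [cle] at c23; omega
        | g b => simp [ent] at e22; simp only [cle] at c23; omega
        | q _ _ => exact c23.elim
        | c0 => exact c2L.elim
        | t _ _ => exact c2L.elim
        | cx => exact c2L.elim
        | w _ => exact c2L.elim
        | zero => exact c2L.elim
      | q t γ =>
        simp [ent] at e13
        obtain ⟨h1, h2⟩ := e13
        subst h1 h2
        exact P.c3_ne_c4 rfl
      | g b => simp [ent] at e13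
      | c0 => exact c3L.elim
      | t _ _ => exact c3L.elim
      | cx => exact c3L.elim
      | w _ => exact c3L.elim
      | zero => exact c3L.elim
    | r x1 s1 =>
      simp [ent] at e14
      obtain ⟨hs1, hb1⟩ := e14
      subst hs1
      have key : ∀ c, isL c → ent h res tb (.r x s1) c = true → ent h res tb (.r x1 s1) c = false →
          c = .q s1 (tb s1 x) := by
        intro c hc h1 h2
        cases c with
        | k b => simp [ent] at h1 h2; omega
        | g b => simp [ent] at h1 h2; omega
        | q t γ =>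
          simp [ent] at h1 h2
          obtain ⟨h3, h4⟩ := h1
          subst h3 h4
          rfl
        | c0 => exact hc.elim
        | t _ _ => exact hc.elim
        | cx => exact hc.elim
        | w _ => exact hc.elim
        | zero => exact hc.elim
      exact P.c1_ne_c2 ((key c1 c1L P.e21 P.e11).trans (key c2 c2L P.e22 P.e12).symm)

/-- Case `r1, r2` of type `e`, `c2` right. -/
theorem caseB2a (hD : ResData h res tb) {s1 s2 : ℕ} {β1 β2 : Bool}
    (P : Cfg h res tb (.e s1 β1) (.e s2 β2) r3 r4 c1 c2 c3 c4) (hr4 : isER r4)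
    (c3C : isC c3) (c4C : isC c4) (hv : ∀ z b, c3 = .t z b → b ≤ 2 * h + 1) : False := by
  have hs : s1 ≤ s2 := P.r12
  have e13 := P.e13
  have e23 := P.e23
  have e14 := P.e14
  have e24 := P.e24
  cases c3 with
  | c0 => simp [ent] at e13 e23; omega
  | cx =>
    cases c4 with
    | cx => exact P.c3_ne_c4 rfl
    | t _ _ => exact P.c34.elim
    | c0 => exact P.c34.elim
    | k _ => exact c4C.elim
    | g _ => exact c4C.elim
    | q _ _ => exact c4C.elim
    | w _ => exact c4C.elim
    | zero => exact c4C.elim
  | t z3 b3 =>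
    rw [ent_e_t_iff] at e13
    have e23' := ent_e_t_false e23
    have hb3 : b3 = s1 + 1 := by
      rcases e13 with h1 | ⟨h1, _⟩
      · exfalso; apply e23'; left; omega
      · exact h1
    have hβ3 : tb s1 z3 = β1 := by
      rcases e13 with h1 | ⟨_, h1⟩
      · exfalso; apply e23'; left; omega
      · exact h1
    subst hb3
    cases c4 with
    | cx =>
      simp [ent] at e14
      have := hv z3 (s1 + 1) rfl
      omega
    | t z4 b4 =>
      rw [ent_e_t_iff] at e14
      have e24' := ent_e_t_false e24
      have hb4 : b4 = s1 + 1 := by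
        rcases e14 with h1 | ⟨h1, _⟩
        · exfalso; apply e24'; left; omega
        · exact h1
      subst hb4
      have hz : z3 ≤ z4 := by
        have h5 := P.c34
        rcases h5 with h6 | ⟨h6, _⟩
        · exact h6.le
        · exact h6.le
      cases r4 with
      | r x4 s4 => exact ff P.e44 (r_mono_z hD hz P.e43)
      | e s4 β4 =>
        have e43 := P.e43
        have e44' := ent_e_t_false P.e44
        rw [ent_e_t_iff] at e43
        rcases e43 with h1 | ⟨h1, h2⟩
        · exact (e44' (Or.inl h1)).elim
        · have h3 : s1 = s4 := by omega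
          subst h3
          have h4 : β4 = β1 := h2.symm.trans hβ3
          subst h4
          exact ff P.e44 P.e14
      | y1 => exact hr4.elim
      | y2 => exact hr4.elim
      | zero => exact hr4.elim
    | c0 => exact P.c34.elim
    | k _ => exact c4C.elim
    | g _ => exact c4C.elim
    | q _ _ => exact c4C.elim
    | w _ => exact c4C.elim
    | zero => exact c4C.elim
  | k _ => exact c3C.elim
  | g _ => exact c3C.elim
  | q _ _ => exact c3C.elim
  | w _ => exact c3C.elim
  | zero => exact c3C.elim

/-- Case `r2, r3, r4` of type `r`, `c2` right. -/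
theorem caseB2rrr (hD : ResData h res tb) {x2 x3 x4 : X} {s2 s3 s4 : ℕ} (hr1 : isER r1)
    (P : Cfg h res tb r1 (.r x2 s2) (.r x3 s3) (.r x4 s4) c1 c2 c3 c4)
    (c2C : isC c2) (c3C : isC c3) (c4C : isC c4) : False := by
  have hx23 : x2 ≤ x3 := P.r23
  have e33 := P.e33
  have e43 := P.e43
  have e34 := P.e34
  have e23 := P.e23
  have e24 := P.e24
  have e13 := P.e13
  have e14 := P.e14
  have e12 := P.e12
  have e22 := P.e22
  obtain ⟨z3, b3, rfl⟩ : ∃ z b, c3 = .t z b := by
    cases c3 with
    | t z b => exact ⟨z, b, rfl⟩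
    | c0 => simp [ent] at e33
    | cx => simp [ent] at e43
    | k _ => exact c3C.elim
    | g _ => exact c3C.elim
    | q _ _ => exact c3C.elim
    | w _ => exact c3C.elim
    | zero => exact c3C.elim
  obtain ⟨z4, b4, rfl⟩ : ∃ z b, c4 = .t z b := by
    cases c4 with
    | t z b => exact ⟨z, b, rfl⟩
    | c0 => exact P.c34.elim
    | cx => simp [ent] at e34
    | k _ => exact c4C.elim
    | g _ => exact c4C.elim
    | q _ _ => exact c4C.elim
    | w _ => exact c4C.elim
    | zero => exact c4C.elim
  have hlt : z3 < z4 := by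
    rcases P.c34 with h1 | ⟨h1, h2⟩
    · exact h1
    · exfalso; subst h1; exact ff e33 (r_mono_b hD h2 e34)
  have hb34 : b3 < b4 := by
    by_contra hne
    exact ff P.e44 (r_mono_b hD (not_lt.1 hne) (r_mono_z hD hlt.le e43))
  have e33' := ent_r_t_false e33
  have e34' := e34
  rw [ent_r_t_iff] at e34'
  have hb3 : b3 = s3 := by
    have h5 : ¬ b3 < s3 := fun h6 => e33' (Or.inl h6)
    rcases e34' with h1 | ⟨h1, _⟩ <;> omega
  have hb4 : b4 = s3 + 1 := by
    have h5 : ¬ b3 < s3 := fun h6 => e33' (Or.inl h6)
    rcases e34' with h1 | ⟨h1, _⟩ <;> omega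
  subst hb3 hb4
  have hs23 : s2 < b3 := by
    have h1 : s2 ≠ b3 := by
      rintro rfl
      exact ff e24 (r_anti hD hx23 trivial e34)
    have h2 : ¬ b3 < s2 := fun h6 => ent_r_t_false e23 (Or.inl h6)
    omega
  cases r1 with
  | y1 => exact hr1.elim
  | y2 => exact hr1.elim
  | zero => exact hr1.elim
  | e s β =>
    rw [ent_e_t_iff] at e13 e14
    have hs : b3 + 2 ≤ s := by
      rcases e14 with h1 | ⟨h1, _⟩
      · omega
      · rcases e13 with h2 | ⟨h2, _⟩ <;> omega
    cases c2 with
    | c0 => simp [ent] at e12; omega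
    | cx => simp [ent] at e22
    | t z b =>
      have h5 := ent_e_t_false e12
      rw [ent_r_t_iff] at e22
      have h6 : ¬ b < s := fun h7 => h5 (Or.inl h7)
      rcases e22 with h1 | ⟨h1, _⟩ <;> omega
    | k _ => exact c2C.elim
    | g _ => exact c2C.elim
    | q _ _ => exact c2C.elim
    | w _ => exact c2C.elim
    | zero => exact c2C.elim
  | r x1 s1 =>
    have hx12 : x1 ≤ x2 := P.r12
    cases c2 with
    | c0 => simp [ent] at e12
    | cx => simp [ent] at e22
    | t z2 b2 =>
      have hlt2 : z2 < z3 := by
        rcases P.c23 with h1 | ⟨h1, h2⟩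
        · exact h1
        · exfalso; subst h1; exact ff e12 (r_mono_b hD h2 e13)
      have hb23 : b2 < b3 := by
        by_contra hne
        exact ff e23 (r_mono_b hD (not_lt.1 hne) (r_mono_z hD hlt2.le e22))
      have e12' := ent_r_t_false e12
      have e13' := e13
      rw [ent_r_t_iff] at e13'
      have h5 : ¬ b2 < s1 := fun h6 => e12' (Or.inl h6)
      have hb2 : b2 = s1 := by
        rcases e13' with h1 | ⟨h1, _⟩ <;> omega
      have hb3 : b3 = s1 + 1 := by
        rcases e13' with h1 | ⟨h1, _⟩ <;> omega
      subst hb2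
      rw [ent_r_t_iff] at e22
      rcases e22 with h1 | ⟨_, h2⟩
      · omega
      · exact e12' (Or.inr ⟨Or.inl rfl, hD.anti_x _ _ _ _ hx12 h2⟩)
    | k _ => exact c2C.elim
    | g _ => exact c2C.elim
    | q _ _ => exact c2C.elim
    | w _ => exact c2C.elim
    | zero => exact c2C.elim

/-- Case `r1` of type `e`/`r` and `c2` right. -/
theorem caseB2 (hD : ResData h res tb) (hr1 : isER r1)
    (P : Cfg h res tb r1 r2 r3 r4 c1 c2 c3 c4) (c2R : isRt c2)
    (hv : ∀ z b, c3 = .t z b → b ≤ 2 * h + 1) : False := by
  have c3R := Rt_of_le P.c23 P.c3_nz c2R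
  have c4R := Rt_of_le P.c34 P.c4_nz c3R
  have hr2 : isER r2 := isER_of_le hr1 P.r12 (nz_row P.e21)
  have hr3 : isER r3 := isER_of_le hr2 P.r23 (nz_row P.e31)
  have hr4 : isER r4 := isER_of_le hr3 P.r34 (nz_row P.e42)
  have c4C : isC c4 := by
    cases c4 with
    | t _ _ => trivial
    | cx => trivial
    | c0 =>
      exfalso
      have c34 := P.c34
      cases c3 with
      | c0 => exact P.c3_ne_c4 rfl
      | k _ => exact c3R.elim
      | g _ => exact c3R.elim
      | q _ _ => exact c3R.elim
      | zero => exact c3R.elim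
      | t _ _ => exact c34.elim
      | cx => exact c34.elim
      | w _ => exact c34.elim
    | w b =>
      exfalso
      have e14 := P.e14
      have e34 := P.e34
      cases r1 with
      | y1 => exact hr1.elim
      | y2 => exact hr1.elim
      | zero => exact hr1.elim
      | e _ _ => simp [ent] at e14
      | r x1 s1 =>
        cases r3 with
        | y1 => exact hr3.elim
        | y2 => exact hr3.elim
        | zero => exact hr3.elim
        | e _ _ => simp [ent] at e34
        | r x3 s3 =>
          simp [ent] at e14 e34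
          subst e14
          subst e34
          have hx : x1 ≤ x3 := rle_trans P.r12 P.r23
          exact ff P.e12 (r_anti hD hx c2R P.e32)
    | k _ => exact c4R.elim
    | g _ => exact c4R.elim
    | q _ _ => exact c4R.elim
    | zero => exact c4R.elim
  have c3C := isC_of_le P.c34 c4C c3R
  have c2C := isC_of_le P.c23 c3C c2R
  cases r2 with
  | y1 => exact hr2.elim
  | y2 => exact hr2.elim
  | zero => exact hr2.elim
  | e s2 β2 =>
    cases r1 with
    | r _ _ => exact P.r12.elim
    | e s1 β1 => exact caseB2a hD P hr4 c3C c4C hv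
    | y1 => exact hr1.elim
    | y2 => exact hr1.elim
    | zero => exact hr1.elim
  | r x2 s2 =>
    cases r3 with
    | y1 => exact hr3.elim
    | y2 => exact hr3.elim
    | zero => exact hr3.elim
    | e _ _ => exact P.r23.elim
    | r x3 s3 =>
      cases r4 with
      | y1 => exact hr4.elim
      | y2 => exact hr4.elim
      | zero => exact hr4.elim
      | e _ _ => exact P.r34.elim
      | r x4 s4 => exact caseB2rrr hD hr1 P c2C c3C c4C

/-- **Every copy of the core pattern is critical.** -/
theorem crit (hh : 1 ≤ h) (hD : ResData h res tb) (P : Cfg h res tb r1 r2 r3 r4 c1 c2 c3 c4)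
    (hv : ∀ z b, c3 = .t z b → b ≤ 2 * h + 1) : ∃ x, r4 = .r x h ∧ c3 = .t x h := by
  cases r1 with
  | y1 => exact caseA hh hD P
  | y2 => exact absurd rfl (r1_ne_y2 P)
  | zero => exact (nz_row P.e13 rfl).elim
  | e s β =>
    have hER : isER (.e s β : RK X) := trivial
    rcases col_LR P.e22 with h' | h'
    · exact (caseB1 hD hER P h').elim
    · exact (caseB2 hD hER P h' hv).elim
  | r x s =>
    have hER : isER (.r x s : RK X) := trivial
    rcases col_LR P.e22 with h' | h'
    · exact (caseB1 hD hER P h').elim
    · exact (caseB2 hD hER P h' hv).elim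

end caseanalysis

end lemmas

end Crest.Agent.S0066Crit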