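import Crest.Prelude.Def_OrderedMatrix

/-!
Layout-independent counting lemmas for S0066 (helper29), for helper15's construction.
-/

set_option autoImplicit false

namespace Crest.Agent.S0066Gen

open Crest.CombinatoricsR.OrderedMatrix
open Finset

/-- (A) If every ordered copy has its `(r0, c0)` position in `Crit`, then the number of copies is at
most `|Crit| * n^(k-1) * n^(k-1)`. -/
theorem copyCount_le {k n : ℕ} (H : Fin k → Fin k → Bool) (A : Fin n → Fin n → Bool)
    (r0 c0 : Fin k) (Crit : Finset (Fin n × Fin n))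
    (hcrit : ∀ (rows cols : Fin k → Fin n), StrictMono rows → StrictMono cols →
      (∀ i j, A (rows i) (cols j) = H i j) → (rows r0, cols c0) ∈ Crit) :
    orderedCopyCount H A ≤ Crit.card * n ^ (k - 1) * n ^ (k - 1) := by
  classical
  unfold orderedCopyCount
  set T := {rc : (Fin k → Fin n) × (Fin k → Fin n) //
    StrictMono rc.1 ∧ StrictMono rc.2 ∧ ∀ i j : Fin k, A (rc.1 i) (rc.2 j) = H i j} with hT
  let f : T → (↥Crit) × (({i : Fin k // i ≠ r0} → Fin n) × ({j : Fin k // j ≠ c0} → Fin n)) :=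
    fun x => (⟨(x.1.1 r0, x.1.2 c0), hcrit x.1.1 x.1.2 x.2.1 x.2.2.1 x.2.2.2⟩,
      (fun i => x.1.1 i.1, fun j => x.1.2 j.1))
  have hf : Function.Injective f := by
    intro x y hxy
    simp only [f, Prod.mk.injEq, Subtype.mk.injEq] at hxy
    obtain ⟨⟨h1, h2⟩, h3, h4⟩ := hxy
    apply Subtype.ext
    apply Prod.ext
    · funext i
      by_cases hi : i = r0
      · subst hi; exact h1
      · exact congrFun h3 ⟨i, hi⟩
    · funext j
      by_cases hj : j = c0
      · subst hj; exact h2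
      · exact congrFun h4 ⟨j, hj⟩
  have hcard := Fintype.card_le_of_injective f hf
  have h1 : Fintype.card {i : Fin k // i ≠ r0} = k - 1 := by
    simp [Fintype.card_subtype_compl, Fintype.card_fin]
  have h2 : Fintype.card {j : Fin k // j ≠ c0} = k - 1 := by
    simp [Fintype.card_subtype_compl, Fintype.card_fin]
  simp only [Fintype.card_prod, Fintype.card_coe, Fintype.card_fun, Fintype.card_fin, h1, h2] at hcard
  simpa [mul_assoc] using hcard

/-- (B) Pigeonhole: if each cell lies in at most `d` configurations, a set `D` of cells with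
`|D| * d < #configs` misses all the cells of some configuration. -/
theorem exists_clean_config {Cfg Cell : Type*} [Fintype Cfg] [DecidableEq Cfg] [DecidableEq Cell]
    (cells : Cfg → Finset Cell) (d : ℕ)
    (hdeg : ∀ c : Cell, (univ.filter fun g => c ∈ cells g).card ≤ d)
    (D : Finset Cell) (hD : D.card * d < Fintype.card Cfg) :
    ∃ g : Cfg, Disjoint (cells g) D := by
  classical
  by_contra hne
  push Not at hne
  have hcover : (univ : Finset Cfg) ⊆ D.biUnion (fun c => univ.filter fun g => c ∈ cells g) := by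
    intro g _
    have := hne g
    rw [Finset.not_disjoint_iff] at this
    obtain ⟨c, hc1, hc2⟩ := this
    exact Finset.mem_biUnion.2 ⟨c, hc2, by simp [hc1]⟩
  have h1 : Fintype.card Cfg ≤ (D.biUnion (fun c => univ.filter fun g => c ∈ cells g)).card := by
    simpa [Finset.card_univ] using Finset.card_le_card hcover
  have h2 : (D.biUnion (fun c => univ.filter fun g => c ∈ cells g)).card ≤ D.card * d :=
    Finset.card_biUnion_le_card_mul _ _ _ (fun c _ => hdeg c)
  omega

/-- Reduction of the statement of S0066 to a design. `L = 386 h + 2`, `N = 2^h`, `n = L N`. -/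
theorem s0066_of_design (H : Fin 66 → Fin 66 → Bool)
    (design : ∀ h : ℕ, 1 ≤ h →
      ∃ A : Fin ((386 * h + 2) * 2 ^ h) → Fin ((386 * h + 2) * 2 ^ h) → Bool,
      ∃ Crit : Finset (Fin ((386 * h + 2) * 2 ^ h) × Fin ((386 * h + 2) * 2 ^ h)),
      ∃ (r0 c0 : Fin 66),
        Crit.card ≤ 2 ^ h ∧
        (∀ (rows cols : Fin 66 → Fin ((386 * h + 2) * 2 ^ h)), StrictMono rows → StrictMono cols →
          (∀ i j, A (rows i) (cols j) = H i j) → (rows r0, cols c0) ∈ Crit) ∧
        ∃ (cells : Fin (2 ^ h) × Fin (2 ^ h) × Fin (2 ^ h) →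
            Finset (Fin ((386 * h + 2) * 2 ^ h) × Fin ((386 * h + 2) * 2 ^ h))),
          (∀ c, (univ.filter fun g => c ∈ cells g).card ≤ 2 ^ h) ∧
          ∀ (B : Fin ((386 * h + 2) * 2 ^ h) → Fin ((386 * h + 2) * 2 ^ h) → Bool) (g),
            (∀ c ∈ cells g, B c.1 c.2 = A c.1 c.2) → orderedCopyCount H B ≠ 0) :
    ∃ H : Fin 66 → Fin 66 → Bool, ∀ h : ℕ, 1 ≤ h →
      ∃ A : Fin ((386 * h + 2) * 2 ^ h) → Fin ((386 * h + 2) * 2 ^ h) → Bool,
        (∀ B : Fin ((386 * h + 2) * 2 ^ h) → Fin ((386 * h + 2) * 2 ^ h) → Bool,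
          orderedCopyCount H B = 0 →
            ((386 * (h : ℝ) + 2) ^ 2)⁻¹ * (((386 * h + 2) * 2 ^ h : ℕ) : ℝ) ^ 2 ≤
              ((Finset.univ.filter (fun rc : Fin ((386 * h + 2) * 2 ^ h) × Fin ((386 * h + 2) * 2 ^ h) =>
                A rc.1 rc.2 ≠ B rc.1 rc.2)).card : ℝ)) ∧
        (orderedCopyCount H A : ℝ) /
            (((386 * h + 2) * 2 ^ h : ℕ) : ℝ) ^ 132 ≤
          ((386 * (h : ℝ) + 2) ^ 2)⁻¹ * (2 : ℝ)⁻¹ ^ h := by
  refine ⟨H, fun h hh => ?_⟩
  obtain ⟨A, Crit, r0, c0, hCard, hCrit, cells, hdeg, hcopy⟩ := design h hh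
  refine ⟨A, fun B hB => ?_, ?_⟩
  · -- far
    classical
    set D := Finset.univ.filter (fun rc : Fin ((386 * h + 2) * 2 ^ h) × Fin ((386 * h + 2) * 2 ^ h) =>
      A rc.1 rc.2 ≠ B rc.1 rc.2) with hDdef
    have hL : (386 * (h : ℝ) + 2) ≠ 0 := by positivity
    have hval : ((386 * (h : ℝ) + 2) ^ 2)⁻¹ * (((386 * h + 2) * 2 ^ h : ℕ) : ℝ) ^ 2 =
        (((2 ^ h) ^ 2 : ℕ) : ℝ) := by
      push_cast
      field_simp
    rw [hval]
    by_contra hlt
    push Not at hlt
    have hlt' : D.card < (2 ^ h) ^ 2 := by exact_mod_cast hlt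
    have hD : D.card * 2 ^ h < Fintype.card (Fin (2 ^ h) × Fin (2 ^ h) × Fin (2 ^ h)) := by
      simp only [Fintype.card_prod, Fintype.card_fin]
      have hpos : 0 < 2 ^ h := by positivity
      calc D.card * 2 ^ h < (2 ^ h) ^ 2 * 2 ^ h := Nat.mul_lt_mul_of_pos_right hlt' hpos
        _ = 2 ^ h * (2 ^ h * 2 ^ h) := by ring
    obtain ⟨g, hg⟩ := exists_clean_config cells (2 ^ h) hdeg D hD
    refine hcopy B g (fun c hc => ?_) hB
    by_contra hne
    have : c ∈ D := by
      simp only [hDdef, Finset.mem_filter, Finset.mem_univ, true_and]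
      exact fun h' => hne h'.symm
    exact (Finset.disjoint_left.1 hg hc) this
  · -- few copies
    have hle := copyCount_le H A r0 c0 Crit hCrit
    have hle' : orderedCopyCount H A ≤ 2 ^ h * ((386 * h + 2) * 2 ^ h) ^ 65 * ((386 * h + 2) * 2 ^ h) ^ 65 := by
      calc orderedCopyCount H A ≤ Crit.card * ((386 * h + 2) * 2 ^ h) ^ (66 - 1) * ((386 * h + 2) * 2 ^ h) ^ (66 - 1) := hle
        _ ≤ _ := by
          simp only [show 66 - 1 = 65 from rfl]
          gcongr
    have hpos : (0 : ℝ) < (((386 * h + 2) * 2 ^ h : ℕ) : ℝ) := by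
      have : 0 < (386 * h + 2) * 2 ^ h := by positivity
      exact_mod_cast this
    rw [div_le_iff₀ (by positivity)]
    have hle'' : (orderedCopyCount H A : ℝ) ≤ (2 : ℝ) ^ h * (((386 * h + 2) * 2 ^ h : ℕ) : ℝ) ^ 65 * (((386 * h + 2) * 2 ^ h : ℕ) : ℝ) ^ 65 := by
      exact_mod_cast hle'
    refine hle''.trans (le_of_eq ?_)
    have hL : (386 * (h : ℝ) + 2) ≠ 0 := by positivity
    have h2 : (2 : ℝ) ^ h ≠ 0 := by positivity
    push_cast
    rw [inv_pow]
    field_simp

end Crest.Agent.S0066Gen
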