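-- Proof of statement S0078: see Crest/Agent/Lib/Sharp/.
import Crest.Statements.S0078
import Crest.Agent.Lib.Sharp.Final

set_option autoImplicit false
open Crest Crest.CombinatoricsR

namespace Crest.Agent.S0078

/-- For every r ≥ 3 there is a real constant C such that for all n ≥ r, all 0 < p < 1 and every Boolean function f of the simple r-uniform hypergraph on n labelled vertices that is invariant under renaming the vertices (no monotonicity assumed), the variance of f under independent edge-coins of bias p, namely P(f = true) · (1 - P(f = true)), is at most C · (log n)^(-r/(r-1)) times the total pivotal influence of f at bias p (natural logarithm). -/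
theorem result (r : ℕ) (hr : 3 ≤ r) :
    ∃ C : ℝ, ∀ n : ℕ, r ≤ n → ∀ p : ℝ, 0 < p → p < 1 →
      ∀ f : (Crest.CombinatoricsR.HypergraphCube.HyperedgeSlot n r → Bool) → Bool,
        Crest.CombinatoricsR.HypergraphCube.IsSymmetric f →
          Crest.CombinatoricsR.HypergraphCube.probTrue p f *
              (1 - Crest.CombinatoricsR.HypergraphCube.probTrue p f) ≤
            C / Real.log n ^ ((r : ℝ) / ((r : ℝ) - 1)) *
              Crest.CombinatoricsR.HypergraphCube.totalInfluence p f := by
  obtain ⟨C, _, hC⟩ := Crest.Agent.Lib.Sharp.sharp_all r (by omega)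
  refine ⟨C, ?_⟩
  intro n hn p hp hp1 f hf
  have h := hC n hn p hp hp1 f hf
  have hnR : (2 : ℝ) ≤ n := by
    have : 2 ≤ n := by omega
    exact_mod_cast this
  have hL : 0 < Real.log n := Real.log_pos (by linarith)
  have hpow : 0 < Real.log n ^ ((r : ℝ) / ((r : ℝ) - 1)) := Real.rpow_pos_of_pos hL _
  unfold Crest.Agent.Lib.Sharp.expo at h
  rw [div_mul_eq_mul_div, le_div_iff₀ hpow]
  linarith

end Crest.Agent.S0078
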