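import Crest.Statements.S0109
import Crest.Agent.Lib.OTStab.Approx

set_option autoImplicit false
open MeasureTheory
open scoped ENNReal NNReal
open Crest.AnalysisR.OT
open Crest Crest.AnalysisR Crest.AnalysisR.OT

namespace Crest.Agent.S0109

/-- Fix d ≥ 2, a compact convex K ⊆ ℝᵈ with nonempty interior, ρ the uniform probability measure on K, and a nonempty compact Y ⊆ ℝᵈ. There is a constant C such that for all probability measures μ, ν carried by Y, all quadratic optimal transport maps Tμ from ρ to μ and Tν from ρ to ν, and every coupling π of μ and ν, ∫ ‖Tμ - Tν‖² dρ ≤ C · (∫ ‖y - z‖² dπ)^(1/3). With the best coupling: the L²(ρ) distance of the maps is at most √C times the cube root of the Wasserstein-2 distance of the targets. -/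
theorem result
    (d : ℕ) (hd : 2 ≤ d) (K : Set (EuclideanSpace ℝ (Fin d))) (hKc : IsCompact K) (hKv : Convex ℝ K)
    (hKi : (interior K).Nonempty) (Y : Set (EuclideanSpace ℝ (Fin d))) (hYc : IsCompact Y) (hYn : Y.Nonempty) :
    ∃ C : ℝ≥0, ∀ μ ν : Measure (EuclideanSpace ℝ (Fin d)), IsProbabilityOn Y μ → IsProbabilityOn Y ν →
      ∀ Tμ Tν : EuclideanSpace ℝ (Fin d) → EuclideanSpace ℝ (Fin d),
        IsOptimalMap (uniformProbOn K) μ Tμ → IsOptimalMap (uniformProbOn K) ν Tν →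
        ∀ π : Measure (EuclideanSpace ℝ (Fin d) × EuclideanSpace ℝ (Fin d)), IsPairCoupling μ ν π →
          ∫⁻ x, ‖Tμ x - Tν x‖ₑ ^ 2 ∂(uniformProbOn K) ≤ C * quadCost π ^ (1 / 3 : ℝ) := by
  classical
  -- the inscribed and enclosing balls
  obtain ⟨x0, hx0⟩ := hKi
  obtain ⟨r, hr, hball⟩ := Metric.nhds_basis_closedBall.mem_iff.1 (mem_interior_iff_mem_nhds.1 hx0)
  obtain ⟨R, hR⟩ := hKc.isBounded.subset_closedBall 0
  have hK : Crest.Agent.Lib.OTStab.Body K R r x0 := ⟨hKc, hKv, hr, hball, hR⟩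
  obtain ⟨L₀, hL₀⟩ := hYc.isBounded.subset_closedBall 0
  have hY : ∀ q ∈ Y, ‖q‖ ≤ L₀ := fun q hq => by simpa [mem_closedBall_zero_iff] using hL₀ hq
  set c : ℝ := 3 * (2 * (2 ^ 19 * R ^ 2 * d ^ 5 * (L₀ + 1) ^ 4 / r ^ 2)) ^ (1 / 3 : ℝ) with hc
  have hc0 : 0 ≤ c := by positivity
  refine ⟨c.toNNReal, fun μ ν hμ hν Tμ Tν hTμ hTν π hπ => ?_⟩
  have hmain := Crest.Agent.Lib.OTStab.stability (by omega) hK hYc hY hμ hν hTμ hTν hπ
  -- the Bochner integrals are the lower integrals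
  have hprob := hK.isProb
  have hYm : MeasurableSet Y := hYc.measurableSet
  have hae : ∀ (T : EuclideanSpace ℝ (Fin d) → EuclideanSpace ℝ (Fin d)) (η : Measure (EuclideanSpace ℝ (Fin d))),
      IsProbabilityOn Y η → IsOptimalMap (uniformProbOn K) η T → ∀ᵐ x ∂(uniformProbOn K), T x ∈ Y := by
    intro T η hη hT
    have h1 : (uniformProbOn K) (T ⁻¹' Yᶜ) = 0 := by
      rw [← Measure.map_apply hT.1 hYm.compl, hT.2.1]
      exact hη.2
    exact (measure_eq_zero_iff_ae_notMem.1 h1).mono fun x hx => by simpa using hx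
  have h1 : ∫⁻ x, ‖Tμ x - Tν x‖ₑ ^ 2 ∂(uniformProbOn K)
      = ENNReal.ofReal (∫ x, ‖Tμ x - Tν x‖ ^ 2 ∂(uniformProbOn K)) := by
    have hint : Integrable (fun x => ‖Tμ x - Tν x‖ ^ 2) (uniformProbOn K) := by
      refine Integrable.of_bound (by
        exact ((hTμ.1.sub hTν.1).norm.pow_const 2).aestronglyMeasurable) ((L₀ + L₀) ^ 2) ?_
      filter_upwards [hae Tμ μ hμ hTμ, hae Tν ν hν hTν] with x h1 h2
      rw [Real.norm_eq_abs, abs_of_nonneg (by positivity)]
      have h3 : ‖Tμ x - Tν x‖ ≤ L₀ + L₀ := (norm_sub_le _ _).trans (add_le_add (hY _ h1) (hY _ h2))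
      gcongr
    rw [ofReal_integral_eq_lintegral_ofReal hint (ae_of_all _ fun x => by positivity)]
    refine lintegral_congr fun x => ?_
    rw [ENNReal.ofReal_pow (norm_nonneg _), ofReal_norm]
  have hπprob : IsProbabilityMeasure π := by
    have := hμ.1
    constructor
    have : π.map Prod.fst Set.univ = 1 := by rw [hπ.1]; exact measure_univ
    rwa [Measure.map_apply measurable_fst MeasurableSet.univ, Set.preimage_univ] at this
  have hπY : ∀ᵐ p ∂π, p.1 ∈ Y ∧ p.2 ∈ Y := by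
    have h1 : π (Prod.fst ⁻¹' Yᶜ) = 0 := by
      rw [← Measure.map_apply measurable_fst hYm.compl, hπ.1]; exact hμ.2
    have h2 : π (Prod.snd ⁻¹' Yᶜ) = 0 := by
      rw [← Measure.map_apply measurable_snd hYm.compl, hπ.2]; exact hν.2
    filter_upwards [measure_eq_zero_iff_ae_notMem.1 h1, measure_eq_zero_iff_ae_notMem.1 h2] with p h3 h4
    exact ⟨by simpa using h3, by simpa using h4⟩
  have h2 : quadCost π = ENNReal.ofReal (∫ p, ‖p.1 - p.2‖ ^ 2 ∂π) := by
    unfold quadCost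
    have hint : Integrable (fun p : EuclideanSpace ℝ (Fin d) × EuclideanSpace ℝ (Fin d) => ‖p.1 - p.2‖ ^ 2) π := by
      refine Integrable.of_bound (by
        exact ((measurable_fst.sub measurable_snd).norm.pow_const 2).aestronglyMeasurable) ((L₀ + L₀) ^ 2) ?_
      filter_upwards [hπY] with p hp
      rw [Real.norm_eq_abs, abs_of_nonneg (by positivity)]
      have h3 : ‖p.1 - p.2‖ ≤ L₀ + L₀ := (norm_sub_le _ _).trans (add_le_add (hY _ hp.1) (hY _ hp.2))
      gcongr
    rw [ofReal_integral_eq_lintegral_ofReal hint (ae_of_all _ fun x => by positivity)]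
    refine lintegral_congr fun x => ?_
    rw [ENNReal.ofReal_pow (norm_nonneg _), ofReal_norm]
  have hQ0 : 0 ≤ ∫ p, ‖p.1 - p.2‖ ^ 2 ∂π := integral_nonneg fun p => by positivity
  rw [h1, h2, ENNReal.ofReal_rpow_of_nonneg hQ0 (by norm_num)]
  have h3 : ((c.toNNReal : ℝ≥0) : ℝ≥0∞) = ENNReal.ofReal c := rfl
  rw [h3, ← ENNReal.ofReal_mul hc0]
  refine ENNReal.ofReal_le_ofReal (hmain.trans (le_of_eq ?_))
  rw [hc, Real.mul_rpow (by positivity) hQ0]
  ring

end Crest.Agent.S0109
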