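import Crest.Statements.S0112
import Crest.Agent.Lib.ModRec.Assembly

set_option autoImplicit false
open Crest Crest.AnalysisR Crest.AnalysisR.OperatorAlgebra

namespace Crest.Agent.S0112

open Crest.Agent.ModRec in
/-- One band: from a unit vector in the band with large mean, a bounded element of the algebra. -/
theorem band_step
    {H : Type*} [NormedAddCommGroup H] [InnerProductSpace ℂ H] [CompleteSpace H]
    (S : Crest.OpAlg.ModularDatum H) (herg : S.Ergodic)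
    (ω : Ultrafilter ℕ) (hω : (ω : Filter ℕ) ≤ Filter.atTop)
    (T : H →L[ℂ] H) (s : ℝ) (δ : ℝ) (hδ : 0 < δ) (Δ : ℝ) (hδΔ : δ ≤ Δ)
    (h : H) (hh : ‖h‖ = 1)
    (hband : S.D.SupportedIn (Set.Icc (s - δ) (s + δ)) h)
    (F₀ χ₀ : ℝ → ℂ) (hF₀ : MeasureTheory.Integrable F₀) (hχc : Continuous χ₀)
    (hχb : ∀ u, ‖χ₀ u‖ ≤ 1) (hχ1 : ∀ u, |u| ≤ 1 → χ₀ u = 1) (hχ0 : ∀ u, 4 ≤ |u| → χ₀ u = 0)
    (hFT : ∀ u : ℝ, ∫ τ : ℝ, F₀ τ * Complex.exp (((-2 * Real.pi * τ * u : ℝ) : ℂ) * Complex.I) = χ₀ u)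
    (c : ℝ) (hc : 0 < c)
    (hmean : c ≤ Crest.OpAlg.ultraMean ω (fun t : ℝ => ‖T (S.D.wave t h)‖ ^ 2)) :
    ∃ w : H →L[ℂ] H, w ∈ S.M ∧ ‖w‖ ≤ ∫ τ, ‖F₀ τ‖ ∧
      Real.sqrt (c / (2 * (4 + (Real.exp ((s + Δ) / 2) + 1) ^ 2))) / 2 ≤ ‖T (w S.vac)‖ ∧
      S.D.SupportedIn (Set.Icc (s - 4 * δ) (s + 4 * δ)) (w S.vac) := by
  set χ := bandCut χ₀ hχc hχb s δ with hχdef
  have hχplateau : ∀ u ∈ Set.Icc (s - δ) (s + δ), χ u = 1 := by
    intro u hu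
    rw [hχdef, bandCut_apply]
    apply hχ1
    rw [abs_div, abs_of_pos hδ, div_le_one hδ, abs_le]
    constructor <;> linarith [hu.1, hu.2]
  have hχzero : ∀ u, u ∉ Set.Icc (s - 4 * δ) (s + 4 * δ) → χ u = 0 := by
    intro u hu
    rw [hχdef, bandCut_apply]
    apply hχ0
    rw [abs_div, abs_of_pos hδ, le_div_iff₀ hδ]
    rw [Set.mem_Icc, not_and_or, not_le, not_le] at hu
    rcases hu with hu | hu
    · rw [abs_of_neg (by linarith)]
      linarith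
    · rw [abs_of_pos (by linarith)]
      linarith
  have hlb := band_lower_bound S herg ω hω T χ s δ hχplateau h hh hband c hc hmean
  set R := T * S.D.apply χ with hR
  set A := supU S R with hA
  set Q := 4 + (Real.exp ((s + Δ) / 2) + 1) ^ 2 with hQ
  have hQ0 : 0 < Q := by positivity
  have hQδ : 4 + (Real.exp ((s + δ) / 2) + 1) ^ 2 ≤ Q := by
    have h1 : Real.exp ((s + δ) / 2) ≤ Real.exp ((s + Δ) / 2) :=
      Real.exp_le_exp.2 (by linarith)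
    have h2 : (Real.exp ((s + δ) / 2) + 1) ^ 2 ≤ (Real.exp ((s + Δ) / 2) + 1) ^ 2 :=
      pow_le_pow_left₀ (by positivity) (by linarith) 2
    rw [hQ]
    linarith
  have hA0 : 0 ≤ A := supU_nonneg S R
  have hA2 : c / 2 ≤ Q * A ^ 2 :=
    hlb.trans (mul_le_mul_of_nonneg_right hQδ (by positivity))
  have hAge : Real.sqrt (c / (2 * Q)) ≤ A := by
    apply Real.sqrt_le_iff.2
    refine ⟨hA0, ?_⟩
    rw [div_le_iff₀ (by positivity)]
    nlinarith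
  set η := Real.sqrt (c / (2 * Q)) / 2 with hη
  have hηpos : 0 < η := by
    have : 0 < Real.sqrt (c / (2 * Q)) := Real.sqrt_pos.2 (by positivity)
    rw [hη]
    positivity
  have hηlt : η < A := by
    have : Real.sqrt (c / (2 * Q)) = 2 * η := by rw [hη]; ring
    rw [this] at hAge
    linarith
  have hne : ((fun v : H →L[ℂ] H => ‖R (v S.vac)‖) '' UM S).Nonempty :=
    ⟨_, 1, one_mem_UM S, rfl⟩
  obtain ⟨_, ⟨v, hv, rfl⟩, hvlt⟩ := exists_lt_of_lt_csSup hne hηlt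
  simp only at hvlt
  have hv1 : ‖v‖ ≤ 1 := by
    refine ContinuousLinearMap.opNorm_le_bound _ zero_le_one (fun z => ?_)
    rw [norm_UM_apply S hv, one_mul]
  obtain ⟨w, hwM, hwn, hwv⟩ := exists_band_element S hF₀ hχc hχb hFT s δ hδ.ne' hv.1 hv1
  refine ⟨w, hwM, hwn, ?_, ?_⟩
  · rw [hwv]
    exact hvlt.le
  · intro f hf
    rw [hwv, LC.apply_apply]
    have : f * χ = 0 := by
      ext u
      by_cases hu : u ∈ Set.Icc (s - 4 * δ) (s + 4 * δ)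
      · simp [hf u hu]
      · simp [hχzero u hu]
    rw [this, map_zero]
    simp

/-- Bounded recovery. Let S be modular data on H (algebra M, cyclic separating unit vector ξ, D = log of the modular operator) with ergodic state, ω a free ultrafilter on ℕ, T a bounded operator, δₙ → 0 positive, hₙ unit vectors with D-spectral support in [s − δₙ, s + δₙ]. If some c > 0 bounds the ω-mean over t of ‖T exp(itD) hₙ‖² from below infinitely often, along a subsequence n_j there are v_j ∈ M, C and η > 0 with ‖v_j‖ ≤ C, ‖T (v_j ξ)‖ ≥ η, v_j ξ supported in [s − 4δ_{n_j}, s + 4δ_{n_j}]. -/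
theorem result
    {H : Type*} [NormedAddCommGroup H] [InnerProductSpace ℂ H] [CompleteSpace H]
    (S : Crest.OpAlg.ModularDatum H) (herg : S.Ergodic)
    (ω : Ultrafilter ℕ) (hω : (ω : Filter ℕ) ≤ Filter.atTop)
    (T : H →L[ℂ] H) (s : ℝ) (δ : ℕ → ℝ) (hδ : ∀ n, 0 < δ n)
    (hδ0 : Filter.Tendsto δ Filter.atTop (nhds 0))
    (h : ℕ → H) (hh : ∀ n, ‖h n‖ = 1)
    (hband : ∀ n, S.D.SupportedIn (Set.Icc (s - δ n) (s + δ n)) (h n))
    (hpos : ∃ c : ℝ, 0 < c ∧ ∃ᶠ n in Filter.atTop,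
      c ≤ Crest.OpAlg.ultraMean ω (fun t : ℝ => ‖T (S.D.wave t (h n))‖ ^ 2)) :
    ∃ (n' : ℕ → ℕ) (v : ℕ → (H →L[ℂ] H)) (C η : ℝ), StrictMono n' ∧ 0 < η ∧
      ∀ j : ℕ, v j ∈ S.M ∧ ‖v j‖ ≤ C ∧ η ≤ ‖T (v j S.vac)‖ ∧
        S.D.SupportedIn (Set.Icc (s - 4 * δ (n' j)) (s + 4 * δ (n' j))) (v j S.vac) := by
  obtain ⟨c, hc, hfreq⟩ := hpos
  obtain ⟨Δ, hΔ⟩ := hδ0.bddAbove_range
  have hΔ' : ∀ n, δ n ≤ Δ := fun n => hΔ ⟨n, rfl⟩
  obtain ⟨F₀, χ₀, hF₀, hχc, hχb, hχ1, hχ0, hFT⟩ := Crest.Agent.ModRec.exists_kernel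
  obtain ⟨n', hn', hP⟩ := Filter.extraction_of_frequently_atTop hfreq
  have step := fun j => band_step S herg ω hω T s (δ (n' j)) (hδ _) Δ (hΔ' _) (h (n' j)) (hh _)
    (hband _) F₀ χ₀ hF₀ hχc hχb hχ1 hχ0 hFT c hc (hP j)
  choose v hvM hvn hvη hvS using step
  refine ⟨n', v, ∫ τ, ‖F₀ τ‖, Real.sqrt (c / (2 * (4 + (Real.exp ((s + Δ) / 2) + 1) ^ 2))) / 2,
    hn', ?_, fun j => ⟨hvM j, hvn j, hvη j, hvS j⟩⟩
  have : 0 < Real.sqrt (c / (2 * (4 + (Real.exp ((s + Δ) / 2) + 1) ^ 2))) :=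
    Real.sqrt_pos.2 (by positivity)
  positivity

end Crest.Agent.S0112
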