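import Crest.Statements.S0167
import Crest.Agent.Lib.L1Lower

set_option autoImplicit false
open Crest Crest.AnalysisR MeasureTheory

namespace Crest.Agent.S0167

/-- Let E be an infinite-dimensional closed subspace of the real L¹ of a probability space whose closed unit ball is totally bounded for convergence in measure and whose norm has the Daugavet property. Then at every unit x ∈ E and every t > 0 the averaged midpoint quantity sup_F inf_y ((‖x+ty‖+‖x-ty‖)/2 - 1) equals max(t/2, t-1) and the one-sided one sup_F inf_y (‖x+ty‖ - 1) equals max(0, t-2), as matching lower and upper bounds, and E admits no equivalent asymptotically uniformly convex norm. -/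
theorem result (Ω : Type) [MeasurableSpace Ω] (P : MeasureTheory.Measure Ω) [MeasureTheory.IsProbabilityMeasure P]
    (E : Submodule ℝ (MeasureTheory.Lp ℝ 1 P)) (hcl : IsClosed (E : Set (MeasureTheory.Lp ℝ 1 P)))
    (hinf : ¬ FiniteDimensional ℝ E)
    (htb : Crest.AnalysisR.L1Subspace.UnitBallTotallyBoundedInMeasure P E)
    (hD : Crest.AnalysisR.L1Subspace.HasDaugavetProperty E) :
    (∀ t : ℝ, 0 < t →
      (Crest.AnalysisR.L1Subspace.toRealBanach P E hcl).MidpointModulusGE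
          (Crest.AnalysisR.L1Subspace.toRealBanach P E hcl).norm t (max (t / 2) (t - 1)) ∧
        (Crest.AnalysisR.L1Subspace.toRealBanach P E hcl).MidpointModulusLE
          (Crest.AnalysisR.L1Subspace.toRealBanach P E hcl).norm t (max (t / 2) (t - 1)) ∧
        (Crest.AnalysisR.L1Subspace.toRealBanach P E hcl).OneSidedModulusGE
          (Crest.AnalysisR.L1Subspace.toRealBanach P E hcl).norm t (max 0 (t - 2)) ∧
        (Crest.AnalysisR.L1Subspace.toRealBanach P E hcl).OneSidedModulusLE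
          (Crest.AnalysisR.L1Subspace.toRealBanach P E hcl).norm t (max 0 (t - 2))) ∧
      ∀ N : E → ℝ, (Crest.AnalysisR.L1Subspace.toRealBanach P E hcl).IsEquivNorm N →
        ¬ (Crest.AnalysisR.L1Subspace.toRealBanach P E hcl).IsAUC N := by
  refine ⟨fun t ht => ⟨?_, ?_, ?_, ?_⟩, ?_⟩
  · intro x₀ hx η hη
    let x : E := x₀
    obtain ⟨F, hF, hF'⟩ := Crest.Agent.Lib.L1Lower.lower_bounds E hcl htb x hx t ht η hη
    refine ⟨F, hF, fun y₀ hy hy1 => ?_⟩
    let y : E := y₀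
    obtain ⟨-, h2⟩ := hF' y hy hy1
    show max (t / 2) (t - 1) - η ≤
      (‖(x : Lp ℝ 1 P) + t • (y : Lp ℝ 1 P)‖ + ‖(x : Lp ℝ 1 P) - t • (y : Lp ℝ 1 P)‖) / 2 - 1
    have hy1' : ‖(y : Lp ℝ 1 P)‖ = 1 := hy1
    have h3 : 2 * t ≤ ‖(x : Lp ℝ 1 P) + t • (y : Lp ℝ 1 P)‖ + ‖(x : Lp ℝ 1 P) - t • (y : Lp ℝ 1 P)‖ := by
      have h4 : (2 * t) • (y : Lp ℝ 1 P)
          = ((x : Lp ℝ 1 P) + t • (y : Lp ℝ 1 P)) - ((x : Lp ℝ 1 P) - t • (y : Lp ℝ 1 P)) := by
        rw [two_mul, add_smul]; abel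
      have h5 : ‖(2 * t) • (y : Lp ℝ 1 P)‖ = 2 * t := by
        rw [norm_smul, hy1', Real.norm_of_nonneg (by positivity)]; ring
      rw [← h5, h4]
      exact norm_sub_le _ _
    rcases max_cases (t / 2) (t - 1) with ⟨h, -⟩ | ⟨h, -⟩ <;> rw [h] <;> linarith
  · intro x hx F hF η hη
    obtain ⟨y, hy, hy1, -, h2⟩ := Crest.Agent.Lib.DaugavetCore.daug_upper
      (Crest.AnalysisR.L1Subspace.toRealBanach P E hcl) hD t ht x hx F hF η hη
    exact ⟨y, hy, hy1, h2⟩
  · intro x₀ hx η hη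
    let x : E := x₀
    obtain ⟨F, hF, hF'⟩ := Crest.Agent.Lib.L1Lower.lower_bounds E hcl htb x hx t ht η hη
    refine ⟨F, hF, fun y₀ hy hy1 => ?_⟩
    let y : E := y₀
    obtain ⟨h1, -⟩ := hF' y hy hy1
    show max 0 (t - 2) - η ≤ ‖(x : Lp ℝ 1 P) + t • (y : Lp ℝ 1 P)‖ - 1
    have hy1' : ‖(y : Lp ℝ 1 P)‖ = 1 := hy1
    have hx' : ‖(x : Lp ℝ 1 P)‖ = 1 := hx
    have h3 : t - 1 ≤ ‖(x : Lp ℝ 1 P) + t • (y : Lp ℝ 1 P)‖ := by
      have h4 : t • (y : Lp ℝ 1 P) = ((x : Lp ℝ 1 P) + t • (y : Lp ℝ 1 P)) - (x : Lp ℝ 1 P) := by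
        abel
      have h5 : ‖t • (y : Lp ℝ 1 P)‖ = t := by
        rw [norm_smul, hy1', Real.norm_of_nonneg ht.le]; ring
      have h6 := norm_sub_le ((x : Lp ℝ 1 P) + t • (y : Lp ℝ 1 P)) (x : Lp ℝ 1 P)
      rw [← h4, h5, hx'] at h6
      linarith
    rcases max_cases (0:ℝ) (t - 2) with ⟨h, -⟩ | ⟨h, -⟩ <;> rw [h] <;> linarith
  · intro x hx F hF η hη
    obtain ⟨y, hy, hy1, h2, -⟩ := Crest.Agent.Lib.DaugavetCore.daug_upper
      (Crest.AnalysisR.L1Subspace.toRealBanach P E hcl) hD t ht x hx F hF η hη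
    exact ⟨y, hy, hy1, h2⟩
  · intro N hN
    have hne : ∃ x : E, x ≠ 0 := by
      by_contra hcon
      push Not at hcon
      have : Subsingleton E := ⟨fun a b => by rw [hcon a, hcon b]⟩
      exact hinf inferInstance
    obtain ⟨x, hx⟩ := hne
    have hxpos : 0 < ‖x‖ := norm_pos_iff.2 hx
    have hx₀ : ‖(‖x‖⁻¹ • x : E)‖ = 1 := by
      rw [norm_smul, norm_inv, norm_norm]
      field_simp
    exact Crest.Agent.Lib.DaugavetCore.daug_no_auc
      (Crest.AnalysisR.L1Subspace.toRealBanach P E hcl) hD (‖x‖⁻¹ • x : E) hx₀ N hN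

end Crest.Agent.S0167
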