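import Crest.Statements.S0222
import Crest.Agent.Lib.Thorp.Assembly
import Crest.Agent.Lib.Thorp.Ladder
import Crest.Agent.Lib.Thorp.HighFinal
import Crest.Agent.Lib.Thorp.Count
import Crest.Agent.Lib.Thorp.Moment

set_option autoImplicit false
open Crest Crest.ProbabilityR

namespace Crest.Agent.S0222

open Crest.Agent.Thorp

theorem pureLow : PureLow := fun K _ _ i L => low_pure K i L

theorem pureHigh : PureHigh := fun K _ _ L => high_pure K L

theorem traceBound : TraceBound := by
  intro K _ _ L
  refine trace_DI8_le_of_moment K L (fun x hx => ?_) (fun ω x hx => ?_)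
  · have := moment_main L Finset.univ x (hx.injOn)
    simpa using this
  · exact WW_pos L ω Finset.univ x hx.injOn

/-- Shuffle a deck of `n = 2 * 2 ^ d` cards `1600 * (d + 1)` times, that is `1600 * log₂ n` times. The total variation distance between the law of the resulting arrangement of the whole deck and the uniform law on all arrangements tends to `0` as `d → ∞`. -/
theorem result :
    Filter.Tendsto (fun d : ℕ => Crest.ProbabilityR.Shuffle.tvFromUniform (2 ^ d) (1600 * (d + 1)))
      Filter.atTop (nhds 0) :=
  tv_tendsto_of_inputs pureLow pureHigh traceBound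

end Crest.Agent.S0222
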