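-- Proof of statement S0223: support-counting lower bound for the Thorp shuffle.
import Crest.Statements.S0223

set_option autoImplicit false
open Crest Crest.ProbabilityR

namespace Crest.Agent.S0223

open Crest.ProbabilityR.Shuffle

/-- Bit tables. -/
abbrev Tab (m t : ℕ) := Fin t → Fin m → Bool

/-- Permutations of the positions. -/
abbrev Gp (m : ℕ) := Equiv.Perm (Fin (2 * m))

theorem stepPos_injective' (m : ℕ) (c : Fin m → Bool) : Function.Injective (stepPos m c) := by
  intro x y h
  have hv : (stepPos m c x).val = (stepPos m c y).val := congrArg Fin.val h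
  simp only [stepPos] at hv
  have hx := x.isLt
  have hy := y.isLt
  have hm : 0 < m := by omega
  have hxm : x.val % m < m := Nat.mod_lt _ hm
  have hym : y.val % m < m := Nat.mod_lt _ hm
  -- the low parts agree
  have hu : x.val % m = y.val % m := by
    split_ifs at hv <;> omega
  have hc : (⟨x.val % m, Nat.mod_lt _ (by omega)⟩ : Fin m) = ⟨y.val % m, Nat.mod_lt _ (by omega)⟩ :=
    Fin.ext hu
  rw [hc] at hv
  -- so the upper-half flags agree
  have hflag : decide (m ≤ x.val) = decide (m ≤ y.val) := by
    cases hX : decide (m ≤ x.val) <;> cases hY : decide (m ≤ y.val) <;>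
      cases hC : c ⟨y.val % m, Nat.mod_lt _ (by omega)⟩ <;> simp_all
  have hle : m ≤ x.val ↔ m ≤ y.val := by
    simpa using hflag
  apply Fin.ext
  by_cases hmx : m ≤ x.val
  · have hmy := hle.mp hmx
    have e1 : x.val % m = x.val - m := by
      rw [Nat.mod_eq_sub_mod hmx, Nat.mod_eq_of_lt (by omega)]
    have e2 : y.val % m = y.val - m := by
      rw [Nat.mod_eq_sub_mod hmy, Nat.mod_eq_of_lt (by omega)]
    omega
  · have hmy : ¬ m ≤ y.val := fun h' => hmx (hle.mpr h')
    have e1 : x.val % m = x.val := Nat.mod_eq_of_lt (by omega)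
    have e2 : y.val % m = y.val := Nat.mod_eq_of_lt (by omega)
    omega

theorem iterPos_injective' (m : ℕ) :
    ∀ (t : ℕ) (cs : Fin t → Fin m → Bool), Function.Injective (iterPos m t cs)
  | 0, _ => fun _ _ h => h
  | t + 1, cs => by
      intro x y h
      change stepPos m (cs (Fin.last t)) (iterPos m t (fun i => cs i.castSucc) x)
        = stepPos m (cs (Fin.last t)) (iterPos m t (fun i => cs i.castSucc) y) at h
      exact iterPos_injective' m t _ (stepPos_injective' m _ h)

/-- The permutation of a bit table. -/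
noncomputable def tablePerm (m t : ℕ) (cs : Fin t → Fin m → Bool) : Equiv.Perm (Fin (2 * m)) :=
  Equiv.ofBijective (iterPos m t cs) (Finite.injective_iff_bijective.mp (iterPos_injective' m t cs))

theorem tablePerm_coe (m t : ℕ) (cs : Fin t → Fin m → Bool) :
    ⇑(tablePerm m t cs) = iterPos m t cs := rfl

open Classical in
theorem prob_eq (m t : ℕ) (g : Equiv.Perm (Fin (2 * m))) :
    Crest.FinProb.uniformProb {cs : Fin t → Fin m → Bool | iterPos m t cs = ⇑g} =
      ((Finset.univ.filter (fun cs : Fin t → Fin m → Bool => tablePerm m t cs = g)).card : ℝ) /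
        (Fintype.card (Fin t → Fin m → Bool) : ℝ) := by
  unfold Crest.FinProb.uniformProb
  congr 2
  congr 1
  ext cs
  simp only [Finset.mem_filter, Finset.mem_univ, true_and, Set.mem_ofPred_eq]
  constructor
  · intro h
    exact Equiv.ext (fun x => congrFun h x)
  · intro h
    rw [← tablePerm_coe, h]

open Classical in
theorem result_aux (m t : ℕ) :
    1 - (2 : ℝ) ^ (m * t) / ((2 * m).factorial : ℝ) ≤ tvFromUniform m t := by
  have hcardG : (Fintype.card (Gp m) : ℝ) = ((2 * m).factorial : ℝ) := by
    simp [Gp, Fintype.card_perm]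
  have hNpos : (0 : ℝ) < ((2 * m).factorial : ℝ) := by exact_mod_cast Nat.factorial_pos _
  have hcardT : (Fintype.card (Tab m t) : ℝ) = (2 : ℝ) ^ (m * t) := by
    simp only [Tab, Fintype.card_pi, Fintype.card_bool, Finset.prod_const, Finset.card_univ,
      Fintype.card_fin]
    push_cast
    rw [← pow_mul, mul_comm]
  have hTpos : (0 : ℝ) < (Fintype.card (Tab m t) : ℝ) := by rw [hcardT]; positivity
  set U : ℝ := 1 / ((2 * m).factorial : ℝ) with hU
  set P : Gp m → ℝ := fun g =>
    ((Finset.univ.filter (fun cs : Tab m t => tablePerm m t cs = g)).card : ℝ) / (Fintype.card (Tab m t) : ℝ)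
    with hP
  have hPeq : ∀ g : Gp m, Crest.FinProb.uniformProb {cs : Tab m t | iterPos m t cs = ⇑g} = P g :=
    fun g => prob_eq m t g
  -- the image of the tables
  set S : Finset (Gp m) := Finset.univ.image (tablePerm m t) with hS
  have hScard : (S.card : ℝ) ≤ (2 : ℝ) ^ (m * t) := by
    rw [← hcardT]
    exact_mod_cast Finset.card_image_le.trans (by simp)
  have hPsum : ∑ g ∈ S, P g = 1 := by
    have h1 : ∑ g ∈ S, ((Finset.univ.filter (fun cs : Tab m t => tablePerm m t cs = g)).card : ℝ) =
        (Fintype.card (Tab m t) : ℝ) := by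
      have := Finset.card_eq_sum_card_fiberwise
        (f := tablePerm m t) (s := (Finset.univ : Finset (Tab m t))) (t := S)
        (fun x _ => Finset.mem_image_of_mem _ (Finset.mem_univ _))
      rw [Finset.card_univ] at this
      rw [this]
      push_cast
      rfl
    simp only [hP]
    rw [← Finset.sum_div, h1, div_self hTpos.ne']
  have hP0 : ∀ g, g ∉ S → P g = 0 := by
    intro g hg
    simp only [hP]
    have : Finset.univ.filter (fun cs : Tab m t => tablePerm m t cs = g) = ∅ := by
      apply Finset.filter_eq_empty_iff.mpr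
      intro cs _ h
      exact hg (h ▸ Finset.mem_image_of_mem _ (Finset.mem_univ _))
    rw [this]; simp
  have hsplit : ∑ g : Gp m, |P g - U| = ∑ g ∈ S, |P g - U| + ∑ g ∈ Finset.univ \ S, |P g - U| := by
    rw [add_comm, Finset.sum_sdiff (Finset.subset_univ S)]
  have hU0 : 0 ≤ U := by rw [hU]; positivity
  have h2 : ∑ g ∈ Finset.univ \ S, |P g - U| = ((Finset.univ \ S).card : ℝ) * U := by
    rw [← nsmul_eq_mul, ← Finset.sum_const]
    apply Finset.sum_congr rfl
    intro g hg
    have : g ∉ S := (Finset.mem_sdiff.mp hg).2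
    rw [hP0 g this]; simp [abs_of_nonneg hU0]
  have h3 : 1 - (S.card : ℝ) * U ≤ ∑ g ∈ S, |P g - U| := by
    have : ∑ g ∈ S, (P g - U) ≤ ∑ g ∈ S, |P g - U| :=
      Finset.sum_le_sum (fun g _ => le_abs_self _)
    rw [Finset.sum_sub_distrib, hPsum, Finset.sum_const, nsmul_eq_mul] at this
    exact this
  have hcardsd : ((Finset.univ \ S).card : ℝ) = ((2 * m).factorial : ℝ) - (S.card : ℝ) := by
    rw [Finset.card_sdiff_of_subset (Finset.subset_univ S), Finset.card_univ,
      Nat.cast_sub (Finset.card_le_univ S), hcardG]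
  have hNU : ((2 * m).factorial : ℝ) * U = 1 := by
    rw [hU]; field_simp
  have hmain : 2 - 2 * ((S.card : ℝ) * U) ≤ ∑ g : Gp m, |P g - U| := by
    rw [hsplit, h2, hcardsd]
    nlinarith [h3, hNU]
  have htv : tvFromUniform m t = (1 / 2) * ∑ g : Gp m, |P g - U| := by
    unfold tvFromUniform
    congr 1
    apply Finset.sum_congr rfl
    intro g _
    rw [hPeq g]
  rw [htv]
  have hfin : (2 : ℝ) ^ (m * t) / ((2 * m).factorial : ℝ) = (2 : ℝ) ^ (m * t) * U := by
    rw [hU]; ring
  rw [hfin]
  have : (S.card : ℝ) * U ≤ (2 : ℝ) ^ (m * t) * U := mul_le_mul_of_nonneg_right hScard hU0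
  linarith

/-- For a deck of `2 * 2 ^ d` cards and every number `t` of shuffles, the total variation distance between the law of the arrangement of the deck and the uniform law on all arrangements is at least `1 - 2 ^ (2 ^ d * t) / (2 * 2 ^ d)!`. -/
theorem result (d t : ℕ) :
    1 - (2 : ℝ) ^ (2 ^ d * t) / ((2 * 2 ^ d).factorial : ℝ)
      ≤ Crest.ProbabilityR.Shuffle.tvFromUniform (2 ^ d) t :=
  result_aux (2 ^ d) t

end Crest.Agent.S0223
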