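-- Statement S0254 (row 168). The statement below is byte-identical to the frozen statement.
import Crest.Statements.S0254
import Crest.Agent.Lib.UST.Meas

set_option autoImplicit false
open Crest Crest.ProbabilityR

namespace Crest.Agent.S0254

open MeasureTheory ProbabilityTheory Crest.Agent.Lib.SRFlow Crest.Agent.Lib.UST in
/-- One rule from (graph on `ℕ`, labels in `[0,1]^ℕ`) to edge sets, jointly measurable in (adjacency table, labels) and commuting on every input with every permutation of `ℕ` acting on graph, labels and pairs, gives i.i.d. uniform labels the free uniform spanning forest's law on every connected locally finite graph: along every exhaustion by finite connected induced pieces, for finite edge sets `F` the chance that the piece's uniform spanning tree contains `F` tends to that for the output. -/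
theorem result :
    ∃ Φ : SimpleGraph ℕ → (ℕ → unitInterval) → (Sym2 ℕ → Bool),
      Measurable (fun p : (ℕ → ℕ → Bool) × (ℕ → unitInterval) =>
          Φ (Crest.ProbabilityR.GraphTables.graphOfTable p.1) p.2) ∧
      (∀ (σ : Equiv.Perm ℕ) (G : SimpleGraph ℕ) (x : ℕ → unitInterval),
          Φ (G.comap ⇑σ) (x ∘ ⇑σ) = Φ G x ∘ Sym2.map ⇑σ) ∧
      ∀ G : SimpleGraph ℕ, G.Connected → (∀ v : ℕ, (G.neighborSet v).Finite) →
        ∀ S : ℕ → Finset ℕ, Monotone S → (∀ v : ℕ, ∃ n, v ∈ S n) →
          (∀ n, (G.induce (S n : Set ℕ)).Connected) →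
          ∀ F : Finset (Sym2 ℕ), (↑F : Set (Sym2 ℕ)) ⊆ G.edgeSet →
            Filter.Tendsto (fun n => Crest.ProbabilityR.SpanningTrees.ustContains G (S n) F) Filter.atTop
              (nhds (((Crest.ProbabilityR.Labels.labelMeasure ℕ).map (Φ G) {ω | ∀ e ∈ F, ω e = true}).toReal)) := by
  classical
  obtain ⟨τ, hτ, hτmap⟩ := Measure.exists_measurable_map_eq (gamE (Option (ℕ × ℕ)))
  refine ⟨fun G x e => decide (Xlim (cG G) (Wd G) (noise G τ x) e), ?_, ?_, ?_⟩
  · -- measurability
    refine measurable_pi_lambda _ fun e => measurable_to_bool ?_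
    have h1 : (fun p : (ℕ → ℕ → Bool) × (ℕ → unitInterval) =>
        decide (Xlim (cG (Crest.ProbabilityR.GraphTables.graphOfTable p.1))
          (Wd (Crest.ProbabilityR.GraphTables.graphOfTable p.1))
          (noise (Crest.ProbabilityR.GraphTables.graphOfTable p.1) τ p.2) e)) ⁻¹' {true}
        = {p : Tb × (ℕ → unitInterval) |
          Xlim (cG (Crest.ProbabilityR.GraphTables.graphOfTable p.1))
            (Wd (Crest.ProbabilityR.GraphTables.graphOfTable p.1))
            (noise (Crest.ProbabilityR.GraphTables.graphOfTable p.1) τ p.2) e} := by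
      ext p
      simp
    rw [h1]
    exact measurableSet_Xlim_joint hτ e
  · -- equivariance
    intro σ G x
    funext b
    simp only [Function.comp_apply]
    rw [decide_eq_decide]
    have hY : ∀ k : ℕ, Yk (cG (G.comap σ)) (Wd (G.comap σ) k b) k (noise (G.comap σ) τ (x ∘ σ)) b
        ↔ Yk (cG G) (Wd G k (shE σ b)) k (noise G τ x) (shE σ b) := by
      intro k
      unfold Yk
      rw [← Wd_map, flowE_comap]
      have h2 : noise G τ x ∘ shE σ = noise (G.comap σ) τ (x ∘ σ) :=
        funext fun e => (noise_comap G σ τ x e).symm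
      rw [h2]
    exact Filter.frequently_congr (Filter.Eventually.of_forall hY)
  · -- the law
    intro G hconn hlf S hmono hcover hind F hF
    have hExh : Exh G S := ⟨hmono, hcover, fun n => nonempty_of_induce (hind n),
      fun n => connOn_of_induce (hind n)⟩
    have hsys := srSys_cG hExh
    simp_rw [ustContains_eq]
    have hlim := tendsto_pG hExh F
    let XG : (Sym2 ℕ → ℝ) → (Sym2 ℕ → Bool) := fun ζ e => decide (Xlim (cG G) (Wd G) ζ e)
    have hXm : Measurable XG := by
      refine measurable_pi_lambda _ fun e => measurable_to_bool ?_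
      have h1 : (fun ζ => XG ζ e) ⁻¹' {true} = {ζ | Xlim (cG G) (Wd G) ζ e} := by
        ext ζ
        simp [XG]
      rw [h1]
      exact measurableSet_Xlim hsys (Wd G) e
    have hnm := measurable_noise_right G hτ
    have hmap : (Crest.ProbabilityR.Labels.labelMeasure ℕ).map
        (fun x e => decide (Xlim (cG G) (Wd G) (noise G τ x) e)) = (gamE (Sym2 ℕ)).map XG := by
      rw [← law_noise hconn hlf hτ hτmap, Measure.map_map hXm hnm]
      rfl
    have hset : MeasurableSet {ω : Sym2 ℕ → Bool | ∀ e ∈ F, ω e = true} := by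
      have h1 : {ω : Sym2 ℕ → Bool | ∀ e ∈ F, ω e = true}
          = ⋂ e ∈ F, (fun ω : Sym2 ℕ → Bool => ω e) ⁻¹' {true} := by
        ext ω
        simp
      rw [h1]
      exact Finset.measurableSet_biInter _ fun e _ =>
        (measurable_pi_apply e) (measurableSet_singleton true)
    have hpre : XG ⁻¹' {ω : Sym2 ℕ → Bool | ∀ e ∈ F, ω e = true}
        = {ζ | ∀ e ∈ F, (Xlim (cG G) (Wd G) ζ e ↔ e ∈ F)} := by
      ext ζ
      simp only [Set.mem_preimage, Set.mem_setOf_eq, XG, decide_eq_true_eq]
      exact forall₂_congr fun e he => by simp [he]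
    have hWe : ∀ k e, e ∈ Wd G k e := fun k e => self_mem_W₀ hlf _ e
    have hWin : ∀ (k : ℕ) (e : Sym2 ℕ) (F F' : Finset (Sym2 ℕ)), Wd G k e ⊆ F → Wd G k e ⊆ F' →
        ∫ ζ, |flowE (cG G F) F k ζ e - flowE (cG G F') F' k ζ e| ∂(gamE (Sym2 ℕ))
          ≤ (1 / 2 : ℝ) ^ k :=
      fun k e F F' h1 h2 => WP_rr hsys hconn hlf k e F F' h1 h2
    have hlaw := limit_law hsys (Wd G) hWe (dl := fun k => (1 / 2 : ℝ) ^ k)
      (fun k => by positivity) summable_geometric_two hWin (Finset.Subset.refl F)
    have hcF : cG G F F = pG G F := by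
      unfold cG
      rw [if_pos (Finset.Subset.refl F), Finset.sdiff_self, Finset.powerset_empty,
        Finset.sum_singleton]
      simp
    have hval : ((Crest.ProbabilityR.Labels.labelMeasure ℕ).map
        (fun x e => decide (Xlim (cG G) (Wd G) (noise G τ x) e))
          {ω | ∀ e ∈ F, ω e = true}).toReal = pG G F := by
      rw [hmap, Measure.map_apply hXm hset, hpre, ← hcF, ← hlaw]
      rfl
    rw [hval]
    exact hlim

end Crest.Agent.S0254
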