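-- Statement S0255 (row 168). The statement below is byte-identical to the frozen statement.
import Crest.Statements.S0255
import Crest.Agent.Lib.SRFlow.Cyl

set_option autoImplicit false
open Crest Crest.ProbabilityR

namespace Crest.Agent.S0255

open MeasureTheory ProbabilityTheory Crest.Agent.Lib.SRFlow in
/-- The two ways to pick a window from a translate. -/
private lemma exists_translate {Γ : Type*} [Group Γ] [DecidableEq Γ] (e : Γ) {G F : Finset Γ}
    (h : G.map (Equiv.mulLeft e).toEmbedding ⊆ F) :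
    ∃ F₀ : Finset Γ, F = F₀.map (Equiv.mulLeft e).toEmbedding ∧ G ⊆ F₀ := by
  refine ⟨F.map (Equiv.mulLeft e⁻¹).toEmbedding, ?_, ?_⟩
  · ext x
    simp [Finset.mem_map_equiv]
  · intro x hx
    have : e * x ∈ F := h (Finset.mem_map_of_mem _ hx)
    simpa [Finset.mem_map_equiv] using this

open MeasureTheory ProbabilityTheory Crest.Agent.Lib.SRFlow in
/-- For a countable group `Γ` and a strongly Rayleigh probability law `ν` on binary configurations `Γ → Bool` that is invariant under every left shift `a ↦ (h ↦ a (g⁻¹ h))`, there is a measurable map from independent uniform labels indexed by `Γ` to configurations that commutes with every left shift and pushes the label law forward to `ν`. -/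
theorem result (Γ : Type*) [Group Γ]
    [Countable Γ] (ν : MeasureTheory.Measure (Γ → Bool)) [MeasureTheory.IsProbabilityMeasure ν]
    (hsr : Crest.ProbabilityR.StronglyRayleigh.IsStronglyRayleigh ν)
    (hinv : Crest.ProbabilityR.StronglyRayleigh.IsShiftInvariant ν) :
    ∃ Φ : (Γ → unitInterval) → (Γ → Bool), Measurable Φ ∧
      (∀ (g : Γ) (u : Γ → unitInterval),
        Φ (Crest.ProbabilityR.StronglyRayleigh.leftShift g u) =
          Crest.ProbabilityR.StronglyRayleigh.leftShift g (Φ u)) ∧
      (Crest.ProbabilityR.Labels.labelMeasure Γ).map Φ = ν := by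
  classical
  have hsys : SRSys (cylC ν) := cylC_sys ν hsr
  set c := cylC ν with hc
  have hshift : ∀ (g : Γ) (F S : Finset Γ),
      c (F.map (Equiv.mulLeft g).toEmbedding) (S.map (Equiv.mulLeft g).toEmbedding) = c F S :=
    cylC_shift ν hinv
  -- reindexing the flows
  have hre : ∀ (g : Γ) (F : Finset Γ) (τ : ℝ) (ζ : Γ → ℝ) (b : Γ),
      flowE (c (F.map (Equiv.mulLeft g).toEmbedding)) (F.map (Equiv.mulLeft g).toEmbedding) τ ζ
        (g * b) = flowE (c F) F τ (ζ ∘ (Equiv.mulLeft g)) b := fun g F τ ζ b =>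
    flowE_reindex (Equiv.mulLeft g) (fun S _ => hshift g F S) τ ζ b
  -- the windows at the identity and their translates
  have hG : ∀ k : ℕ, ∃ G : Finset Γ, (1 : Γ) ∈ G ∧ ∀ F F', G ⊆ F → G ⊆ F' →
      ∫ ζ, |flowE (c F) F k ζ 1 - flowE (c F') F' k ζ 1| ∂(gamE Γ) ≤ (1 / 2 : ℝ) ^ k :=
    fun k => exists_window hsys k 1 (by positivity)
  choose G hG1 hGb using hG
  let W : ℕ → Γ → Finset Γ := fun k e => (G k).map (Equiv.mulLeft e).toEmbedding
  have hWe : ∀ k e, e ∈ W k e := fun k e =>
    Finset.mem_map.mpr ⟨1, hG1 k, by simp⟩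
  have hWin : ∀ (k : ℕ) (e : Γ) (F F' : Finset Γ), W k e ⊆ F → W k e ⊆ F' →
      ∫ ζ, |flowE (c F) F k ζ e - flowE (c F') F' k ζ e| ∂(gamE Γ) ≤ (1 / 2 : ℝ) ^ k := by
    intro k e F F' hF hF'
    obtain ⟨F₀, rfl, hF₀⟩ := exists_translate e hF
    obtain ⟨F₁, rfl, hF₁⟩ := exists_translate e hF'
    have hk : (0 : ℝ) ≤ k := Nat.cast_nonneg k
    have he : ∀ (F : Finset Γ) (ζ : Γ → ℝ),
        flowE (c (F.map (Equiv.mulLeft e).toEmbedding)) (F.map (Equiv.mulLeft e).toEmbedding) k ζ e
          = flowE (c F) F k (ζ ∘ (Equiv.mulLeft e)) 1 := by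
      intro F ζ
      have := hre e F k ζ 1
      rwa [mul_one] at this
    simp_rw [he]
    have hmap := gamE_map_reindex (Equiv.mulLeft e)
    have hmφ : Measurable fun ζ' : Γ → ℝ => ζ' ∘ (Equiv.mulLeft e) :=
      measurable_pi_lambda _ fun i => measurable_pi_apply _
    have hmH : Measurable fun ζ₀ : Γ → ℝ => |flowE (c F₀) F₀ k ζ₀ 1 - flowE (c F₁) F₁ k ζ₀ 1| :=
      ((measurable_flowE_right hsys F₀ hk 1).sub (measurable_flowE_right hsys F₁ hk 1)).abs
    have := integral_map (μ := gamE Γ) hmφ.aemeasurable hmH.aestronglyMeasurable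
    rw [hmap] at this
    rw [← this]
    exact hGb k F₀ F₁ hF₀ hF₁
  -- the factor
  obtain ⟨Q, hQm, hQmap⟩ := Measure.exists_measurable_map_eq (gaussianReal 0 1)
  let X : (Γ → ℝ) → (Γ → Bool) := fun ζ e => decide (Xlim c W ζ e)
  have hXm : Measurable X := by
    refine measurable_pi_lambda _ fun e => measurable_to_bool ?_
    have : (fun ζ => X ζ e) ⁻¹' {true} = {ζ | Xlim c W ζ e} := by
      ext ζ
      simp [X]
    rw [this]
    exact measurableSet_Xlim hsys W e
  let q : (Γ → unitInterval) → (Γ → ℝ) := fun u i => Q (u i)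
  have hqm : Measurable q := measurable_pi_lambda _ fun i => hQm.comp (measurable_pi_apply i)
  refine ⟨X ∘ q, hXm.comp hqm, ?_, ?_⟩
  · -- equivariance
    intro g u
    funext h
    simp only [Function.comp_apply, X, Crest.ProbabilityR.StronglyRayleigh.leftShift]
    rw [decide_eq_decide]
    unfold Xlim
    have hW : ∀ k, W k h = (W k (g⁻¹ * h)).map (Equiv.mulLeft g).toEmbedding := by
      intro k
      ext x
      simp only [W, Finset.mem_map, Equiv.coe_toEmbedding, Equiv.coe_mulLeft]
      constructor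
      · rintro ⟨y, hy, rfl⟩
        exact ⟨g⁻¹ * h * y, ⟨y, hy, rfl⟩, by group⟩
      · rintro ⟨_, ⟨y, hy, rfl⟩, rfl⟩
        exact ⟨y, hy, by group⟩
    have hY : ∀ k : ℕ, Yk c (W k h) k (q (fun h => u (g⁻¹ * h))) h
        ↔ Yk c (W k (g⁻¹ * h)) k (q u) (g⁻¹ * h) := by
      intro k
      unfold Yk
      rw [hW k]
      have := hre g (W k (g⁻¹ * h)) k (q fun h => u (g⁻¹ * h)) (g⁻¹ * h)
      rw [mul_inv_cancel_left] at this
      rw [this]
      have h2 : (q fun h => u (g⁻¹ * h)) ∘ (Equiv.mulLeft g) = q u := by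
        funext i
        show Q (u (g⁻¹ * (g * i))) = Q (u i)
        rw [inv_mul_cancel_left]
      rw [h2]
    exact Filter.frequently_congr (Filter.Eventually.of_forall hY)
  · -- the law
    have hlab : (Crest.ProbabilityR.Labels.labelMeasure Γ).map q = gamE Γ := by
      unfold Crest.ProbabilityR.Labels.labelMeasure gamE
      have := Measure.infinitePi_map_pi (fun _ : Γ => (volume : Measure unitInterval))
        (f := fun _ => Q) (fun _ => hQm)
      rw [show q = fun u i => Q (u i) from rfl, this, hQmap]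
    rw [← Measure.map_map hXm hqm, hlab]
    have hp : IsProbabilityMeasure ((gamE Γ).map X) :=
      Measure.isProbabilityMeasure_map hXm.aemeasurable
    refine IsProjectiveLimit.unique (P := fun I => ν.map I.restrict) (fun I => ?_) (fun I => rfl)
    have hresm : Measurable (I.restrict : (Γ → Bool) → (↥I → Bool)) := Finset.measurable_restrict I
    refine Measure.ext_of_singleton fun b => ?_
    rw [Measure.map_apply hresm (measurableSet_singleton b),
      Measure.map_apply hresm (measurableSet_singleton b),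
      Measure.map_apply hXm (hresm (measurableSet_singleton b))]
    set Q' : Finset Γ := (Finset.univ.filter fun i : ↥I => b i = true).map
      (Function.Embedding.subtype _) with hQ'
    have hQ'I : Q' ⊆ I := by
      intro x hx
      obtain ⟨y, _, rfl⟩ := Finset.mem_map.mp hx
      exact y.2
    have hQmem : ∀ (i : Γ) (hi : i ∈ I), i ∈ Q' ↔ b ⟨i, hi⟩ = true := by
      intro i hi
      rw [hQ', Finset.mem_map]
      constructor
      · rintro ⟨⟨j, hj⟩, hj2, hj3⟩
        have : j = i := hj3
        subst this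
        simpa using hj2
      · intro h
        exact ⟨⟨i, hi⟩, by simpa using h, rfl⟩
    have hcyl : (I.restrict : (Γ → Bool) → (↥I → Bool)) ⁻¹' {b} = cyl I Q' := by
      ext ω
      simp only [Set.mem_preimage, Set.mem_singleton_iff, cyl, Set.mem_setOf_eq]
      constructor
      · intro hb i hi
        rw [hQmem i hi, ← hb]
        rfl
      · intro h
        funext i
        have h1 := h i i.2
        rw [hQmem i i.2] at h1
        exact Bool.eq_iff_iff.mpr h1
    rw [hcyl]
    have hset : X ⁻¹' cyl I Q' = {ζ | ∀ e ∈ I, (Xlim c W ζ e ↔ e ∈ Q')} := by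
      ext ζ
      simp [cyl, X]
    rw [hset]
    have hlim := limit_law hsys W hWe (dl := fun k => (1 / 2 : ℝ) ^ k) (fun k => by positivity)
      summable_geometric_two hWin hQ'I
    have hfin1 : (gamE Γ) {ζ | ∀ e ∈ I, (Xlim c W ζ e ↔ e ∈ Q')} ≠ ⊤ := measure_ne_top _ _
    have hfin2 : ν (cyl I Q') ≠ ⊤ := measure_ne_top _ _
    refine (ENNReal.toReal_eq_toReal_iff' hfin1 hfin2).mp ?_
    exact hlim

end Crest.Agent.S0255
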