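import Crest.Statements.S0324
import Crest.Agent.Lib.Tetra.MinProj

set_option autoImplicit false
open MeasureTheory
open scoped ENNReal
open Crest Crest.GeometryTopology Crest.GeometryTopology.Convex
open Crest.Agent.Lib.Tetra

namespace Crest.Agent.S0324

/-- The regular tetrahedron `K` with vertices `(±1, 0, 0)`, `(0, ±1, √2)` is covered by finitely many cylinders `Bᵢ + ℝ uᵢ`, each with unit direction `uᵢ` and base `Bᵢ` a triangle (convex hull of three points) in the plane `uᵢ^⊥`, whose total base area `∑ᵢ area(Bᵢ)` is smaller, by a positive margin, than half the area of the orthogonal projection of `K` onto `v^⊥` for every unit vector `v`; areas are 2-dimensional Hausdorff measure. -/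
theorem result :
    ∃ (m : ℕ) (u p q r : Fin m → EuclideanSpace ℝ (Fin 3)),
      (∀ i, ‖u i‖ = 1) ∧
      (∀ i, inner ℝ (p i) (u i) = 0 ∧ inner ℝ (q i) (u i) = 0 ∧ inner ℝ (r i) (u i) = 0) ∧
      convexHull ℝ {!₂[1, 0, 0], !₂[-1, 0, 0], !₂[0, 1, Real.sqrt 2], !₂[0, -1, Real.sqrt 2]} ⊆
        ⋃ i, {x : EuclideanSpace ℝ (Fin 3) | ∃ b ∈ convexHull ℝ {p i, q i, r i}, ∃ t : ℝ, x = b + t • u i} ∧
      ∃ δ : ℝ, 0 < δ ∧ ∀ v : EuclideanSpace ℝ (Fin 3), ‖v‖ = 1 →
        ∑ i, (μH[(2 : ℝ)] (convexHull ℝ {p i, q i, r i})).toReal + δ ≤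
          (μH[(2 : ℝ)] ((fun y => y - inner ℝ y v • v) '' convexHull ℝ {!₂[1, 0, 0], !₂[-1, 0, 0], !₂[0, 1, Real.sqrt 2], !₂[0, -1, Real.sqrt 2]})).toReal / 2 := by
  obtain ⟨u, p, q, r, hu, hin, hcov, hsum⟩ := cover640
  have hs := sqrt2_pos
  have hc := scal_pos
  refine ⟨640, u, p, q, r, hu, hin, hcov, Real.sqrt 2 * (1 / 100000) / (scal : ℝ), by positivity, ?_⟩
  intro v hv
  have h1 : ∑ i, (μH[(2 : ℝ)] (convexHull ℝ {p i, q i, r i})).toReal =
      (∑ i, (μHE[2] (convexHull ℝ ({p i, q i, r i} : Set E3))).toReal) / (scal : ℝ) := by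
    rw [Finset.sum_div]
    exact Finset.sum_congr rfl (fun i _ => toReal_H _)
  have h2 : (μH[(2 : ℝ)] ((fun y => y - inner ℝ y v • v) '' convexHull ℝ {!₂[1, 0, 0], !₂[-1, 0, 0], !₂[0, 1, Real.sqrt 2], !₂[0, -1, Real.sqrt 2]})).toReal =
      (μHE[2] (prj v '' KT)).toReal / (scal : ℝ) := toReal_H _
  rw [h1, h2]
  have h3 := minProj_toReal_ge hv
  calc (∑ i, (μHE[2] (convexHull ℝ ({p i, q i, r i} : Set E3))).toReal) / (scal : ℝ) +
        Real.sqrt 2 * (1 / 100000) / (scal : ℝ)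
      = ((∑ i, (μHE[2] (convexHull ℝ ({p i, q i, r i} : Set E3))).toReal) +
          Real.sqrt 2 * (1 / 100000)) / (scal : ℝ) := by ring
    _ ≤ ((μHE[2] (prj v '' KT)).toReal / 2) / (scal : ℝ) := by
        apply div_le_div_of_nonneg_right _ hc.le
        nlinarith
    _ = (μHE[2] (prj v '' KT)).toReal / (scal : ℝ) / 2 := by ring

end Crest.Agent.S0324
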